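import Vale.Agent.P080M.C_Hold
import Vale.Agent.P080.Flatness
import Vale.Agent.P080.Global

/-! Part C, module CM: step (33): interior `C^{1,α}` estimate and `C^1`. -/

open Metric Set Filter Topology
open scoped RealInnerProductSpace

namespace Vale.Agent.P080

theorem flat_lip (d : ℕ) {ε : ℝ} (hε : 0 < ε) :
    ∃ δ : ℝ, 0 < δ ∧ δ ≤ 1 ∧ ∀ (u : Eu d → ℝ) (Ω : Set (Eu d)), IsInfinityHarmonicOn u Ω →
      ∀ (x : Eu d) (ρ L : ℝ), 0 < ρ → 0 < L → closedBall x ρ ⊆ Ω →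
      (∀ y ∈ closedBall x ρ, ∀ z ∈ closedBall x ρ, u y - u z ≤ L * ‖y - z‖) →
      ∀ x' : Eu d, ‖x' - x‖ ≤ ρ / 2 → ∀ r : ℝ, 0 < r → r ≤ δ * ρ → ∃ p : Eu d,
        ∀ y : Eu d, ‖y - x'‖ ≤ r → |u y - u x' - ⟪p, y - x'⟫| ≤ ε * L * r := by
  obtain ⟨δ₀, hδ₀, hfl⟩ := flatness d (ε := ε / 2) (by positivity)
  refine ⟨min (δ₀ / 2) 1, lt_min (by positivity) one_pos, min_le_right _ _, ?_⟩
  intro u Ω hu x ρ L hρ hL hsub hlip x' hx' r hr hrρ
  have hsub' : closedBall x' (ρ / 2) ⊆ closedBall x ρ := by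
    apply closedBall_subset_closedBall'
    rw [dist_eq_norm]
    linarith
  have hosc : ∀ y ∈ closedBall x' (ρ / 2), ∀ z ∈ closedBall x' (ρ / 2), u y - u z ≤ L * ρ := by
    intro y hy z hz
    refine (hlip y (hsub' hy) z (hsub' hz)).trans ?_
    apply mul_le_mul_of_nonneg_left _ hL.le
    rw [mem_closedBall] at hy hz
    rw [← dist_eq_norm]
    have := dist_triangle_right y z x'
    linarith
  have hr2 : r ≤ δ₀ * (ρ / 2) := by
    refine hrρ.trans ?_
    have : min (δ₀ / 2) 1 * ρ ≤ δ₀ / 2 * ρ := mul_le_mul_of_nonneg_right (min_le_left _ _) hρ.le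
    linarith
  obtain ⟨p, hp⟩ := hfl u Ω hu x' (ρ / 2) (L * ρ) (by positivity) (hsub'.trans hsub) hosc r hr hr2
  refine ⟨p, fun y hy => ?_⟩
  refine (hp y (by rwa [mem_closedBall, dist_eq_norm])).trans_eq ?_
  field_simp

/-- normalized function -/
noncomputable def nrm {d : ℕ} (u : Eu d → ℝ) (x : Eu d) (s L : ℝ) : Eu d → ℝ :=
  fun y => (L * s)⁻¹ * (u (x + s • y) - u x)

theorem nrm_coneAbove {d : ℕ} {u : Eu d → ℝ} {Ω : Set (Eu d)} (hu : IsInfinityHarmonicOn u Ω)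
    (x : Eu d) {s L : ℝ} (hs : 0 < s) (hL : 0 < L) {S : Set (Eu d)}
    (hS : ∀ y ∈ S, x + s • y ∈ Ω) : ConeAbove (nrm u x s L) S :=
  (hu.coneAbove.scale x hs (inv_pos.2 (mul_pos hL hs)) (u x)).mono hS

theorem nrm_coneAbove_neg {d : ℕ} {u : Eu d → ℝ} {Ω : Set (Eu d)}
    (hu : IsInfinityHarmonicOn u Ω)
    (x : Eu d) {s L : ℝ} (hs : 0 < s) (hL : 0 < L) {S : Set (Eu d)}
    (hS : ∀ y ∈ S, x + s • y ∈ Ω) : ConeAbove (fun y => -nrm u x s L y) S := by
  have h := (hu.neg.coneAbove.scale x hs (inv_pos.2 (mul_pos hL hs)) (-u x)).mono hS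
  have e : (fun y => -nrm u x s L y) = fun y => (L * s)⁻¹ * (-u (x + s • y) - -u x) := by
    funext y
    unfold nrm
    ring
  rw [e]
  exact h

/-- transport of an affine expansion to the normalized function -/
theorem nrm_expansion {d : ℕ} {u : Eu d → ℝ} {x : Eu d} {s L : ℝ} (hs : 0 < s) (hL : 0 < L)
    {p x' : Eu d} {r κ : ℝ}
    (h : ∀ y : Eu d, ‖y - (x + s • x')‖ ≤ s * r → |u y - u (x + s • x') - ⟪p, y - (x + s • x')⟫| ≤
      κ * L * (s * r)) (y : Eu d) (hy : ‖y - x'‖ ≤ r) :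
    |nrm u x s L y - nrm u x s L x' - ⟪L⁻¹ • p, y - x'⟫| ≤ κ * r := by
  have e1 : x + s • y - (x + s • x') = s • (y - x') := by module
  have h1 := h (x + s • y) (by
    rw [e1, norm_smul, Real.norm_of_nonneg hs.le]
    exact mul_le_mul_of_nonneg_left hy hs.le)
  rw [e1, real_inner_smul_right] at h1
  have e2 : nrm u x s L y - nrm u x s L x' - ⟪L⁻¹ • p, y - x'⟫
      = (L * s)⁻¹ * (u (x + s • y) - u (x + s • x') - s * ⟪p, y - x'⟫) := by
    unfold nrm
    rw [real_inner_smul_left]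
    field_simp
    ring
  rw [e2, abs_mul, abs_of_pos (inv_pos.2 (mul_pos hL hs))]
  have h2 := mul_le_mul_of_nonneg_left h1 (inv_pos.2 (mul_pos hL hs)).le
  refine h2.trans_eq ?_
  field_simp

theorem norm_le_of_expansion {d : ℕ} {v : Eu d → ℝ} {p x : Eu d} {R L κ : ℝ} (hR : 0 < R)
    (hL : 0 ≤ L) (hκ : 0 ≤ κ) (hlip : ∀ y : Eu d, ‖y - x‖ ≤ R → v y - v x ≤ L * ‖y - x‖)
    (h : ∀ y : Eu d, ‖y - x‖ ≤ R → |v y - v x - ⟪p, y - x⟫| ≤ κ * R) : ‖p‖ ≤ L + κ := by
  rcases eq_or_ne p 0 with rfl | hp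
  · simp
    positivity
  have hp' : 0 < ‖p‖ := norm_pos_iff.2 hp
  have e1 : x + (R / ‖p‖) • p - x = (R / ‖p‖) • p := by abel
  have e2 : ‖x + (R / ‖p‖) • p - x‖ = R := by
    rw [e1, norm_smul, Real.norm_of_nonneg (by positivity)]
    field_simp
  have h1 := hlip (x + (R / ‖p‖) • p) e2.le
  have h2 := h (x + (R / ‖p‖) • p) e2.le
  rw [e2] at h1
  rw [e1, real_inner_smul_right, real_inner_self_eq_norm_sq] at h2
  have e3 : R / ‖p‖ * ‖p‖ ^ 2 = R * ‖p‖ := by field_simp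
  rw [e3] at h2
  have h3 := (abs_le.1 h2).1
  have h4 : R * ‖p‖ ≤ R * (L + κ) := by linarith
  exact le_of_mul_le_mul_left h4 hR

/-- first alternative: small slope -/
theorem slope_drop {d : ℕ} {u : Eu d → ℝ} {Ω : Set (Eu d)} (hu : IsInfinityHarmonicOn u Ω)
    {x p : Eu d} {s L : ℝ} (hs : 0 < s) (hL : 0 < L) (hsub : closedBall x (8 * s) ⊆ Ω)
    (hp : ‖p‖ ≤ L / 2) (h : ∀ y : Eu d, ‖y - x‖ ≤ 8 * s →
      |u y - u x - ⟪p, y - x⟫| ≤ 1 / 32 * L * (8 * s)) :
    ∀ y ∈ closedBall x (2 * s), ∀ z ∈ closedBall x (2 * s),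
      u y - u z ≤ 3 / 4 * L * ‖y - z‖ := by
  intro y hy z hz
  have hzs : closedBall z (4 * s) ⊆ closedBall x (8 * s) := by
    apply closedBall_subset_closedBall'
    rw [mem_closedBall] at hz
    linarith
  have hz8 : ‖z - x‖ ≤ 8 * s := by
    rw [mem_closedBall, dist_eq_norm] at hz
    linarith
  have hup : ∀ w ∈ closedBall z (4 * s), u w ≤ u z + 5 / 2 * L * s := by
    intro w hw
    have hw8 : ‖w - x‖ ≤ 8 * s := by
      have := hzs hw
      rwa [mem_closedBall, dist_eq_norm] at this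
    have h1 := (abs_le.1 (h w hw8)).2
    have h2 := (abs_le.1 (h z hz8)).1
    have h3 : ⟪p, w - x⟫ - ⟪p, z - x⟫ = ⟪p, w - z⟫ := by
      rw [← inner_sub_right]
      congr 1
      abel
    have h4 : ⟪p, w - z⟫ ≤ L / 2 * (4 * s) := by
      refine (real_inner_le_norm _ _).trans ?_
      have : ‖w - z‖ ≤ 4 * s := by rwa [mem_closedBall, dist_eq_norm] at hw
      exact mul_le_mul hp this (norm_nonneg _) (by positivity)
    linarith
  have hyz : y ∈ closedBall z (4 * s) := by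
    rw [mem_closedBall] at hy hz ⊢
    have := dist_triangle_right y z x
    linarith
  have h5 := cone_upper hu (by positivity : 0 < 4 * s) (hzs.trans hsub) hup y hyz
  have e : (u z + 5 / 2 * L * s - u z) / (4 * s) = 5 / 8 * L := by
    field_simp
    ring
  rw [e] at h5
  have h6 : 0 ≤ L * ‖y - z‖ := by positivity
  linarith

/-- dichotomy for normalized (1-Lipschitz) functions: either the slope drops, or a pointwise
`C^{1,α}` expansion holds at all points near the centre. -/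
theorem dichotomy (d : ℕ) (hB : AffineThm (Eu d)) :
    ∃ α C c r₀ : ℝ, 0 < α ∧ α ≤ 1 ∧ 0 < C ∧ 0 < c ∧ c ≤ 1 ∧ 0 < r₀ ∧ r₀ ≤ 1 / 2 ∧
    ∀ (u : Eu d → ℝ) (Ω : Set (Eu d)), IsInfinityHarmonicOn u Ω → ∀ (x : Eu d) (ρ L : ℝ), 0 < ρ →
      0 < L → closedBall x ρ ⊆ Ω →
      (∀ y ∈ closedBall x ρ, ∀ z ∈ closedBall x ρ, u y - u z ≤ L * ‖y - z‖) →
      (∀ y ∈ closedBall x (r₀ * ρ), ∀ z ∈ closedBall x (r₀ * ρ), u y - u z ≤ 3 / 4 * L * ‖y - z‖) ∨
      (∃ P : Eu d, ∀ y : Eu d, ‖y - x‖ ≤ c * ρ →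
        |u y - u x - ⟪P, y - x⟫| ≤ C * L * ρ * (‖y - x‖ / ρ) ^ (1 + α)) := by
  obtain ⟨M, ε, hM, hε, hε1, hImpr⟩ := impr_of_cone (Eu d) hB
  obtain ⟨ε₀, α, C, hε₀, hε₀1, hα, hα1, hC, hc2⟩ := c2 (E := Eu d) hM hε
  obtain ⟨δ, hδ, hδ1, hfl⟩ := flat_lip d (ε := ε₀ / 32) (by positivity)
  refine ⟨α, C * (δ / 32) * (32 / δ) ^ (1 + α), δ / 32, δ / 16, hα, hα1, by positivity,
    by positivity, by linarith, by positivity, by linarith, ?_⟩
  intro u Ω hu x ρ L hρ hL hsub hlip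
  set s := δ / 32 * ρ with hs_def
  have hs : 0 < s := by positivity
  have h32 : 32 * s = δ * ρ := by rw [hs_def]; ring
  have hδρ : δ * ρ ≤ ρ := by nlinarith
  have hsub8 : closedBall x (8 * s) ⊆ closedBall x ρ := closedBall_subset_closedBall (by linarith)
  -- flatness at top scale
  obtain ⟨p₀, hp₀⟩ := hfl u Ω hu x ρ L hρ hL hsub hlip x (by simpa using by positivity) (8 * s)
    (by positivity) (by linarith)
  have hp₀' : ∀ y : Eu d, ‖y - x‖ ≤ 8 * s →
      |u y - u x - ⟪p₀, y - x⟫| ≤ 1 / 32 * L * (8 * s) := by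
    intro y hy
    refine (hp₀ y hy).trans ?_
    have : 0 ≤ L * (8 * s) := by positivity
    nlinarith
  rcases le_or_gt ‖p₀‖ (L / 2) with hpL | hpL
  · left
    have e : δ / 16 * ρ = 2 * s := by rw [hs_def]; ring
    rw [e]
    exact slope_drop hu hs hL (hsub8.trans hsub) hpL hp₀'
  · right
    have hmap : ∀ y ∈ closedBall (0 : Eu d) 8, x + s • y ∈ Ω := by
      intro y hy
      apply hsub
      apply hsub8
      rw [mem_closedBall, dist_eq_norm, add_sub_cancel_left, norm_smul, Real.norm_of_nonneg hs.le]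
      rw [mem_closedBall, dist_zero_right] at hy
      nlinarith
    have himp := hImpr (nrm u x s L) (closedBall 0 8) (nrm_coneAbove hu x hs hL hmap)
      (nrm_coneAbove_neg hu x hs hL hmap)
    -- the flatness data at all points and scales
    have hq : ∀ (x' : Eu d) (r : ℝ), ∃ q : Eu d, ‖x' - 0‖ ≤ 3 → 0 < r → r ≤ 1 →
        ∀ y : Eu d, ‖y - x'‖ ≤ 2 * r →
          |nrm u x s L y - nrm u x s L x' - ⟪q, y - x'⟫| ≤ ε₀ * r := by
      intro x' r
      by_cases hcase : ‖x' - 0‖ ≤ 3 ∧ 0 < r ∧ r ≤ 1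
      · obtain ⟨hx', hr, hr1⟩ := hcase
        have hx3 : ‖x + s • x' - x‖ ≤ ρ / 2 := by
          rw [add_sub_cancel_left, norm_smul, Real.norm_of_nonneg hs.le]
          rw [sub_zero] at hx'
          nlinarith
        obtain ⟨p, hp⟩ := hfl u Ω hu x ρ L hρ hL hsub hlip (x + s • x') hx3 (s * (2 * r))
          (by positivity) (by nlinarith)
        refine ⟨L⁻¹ • p, fun _ _ _ y hy => ?_⟩
        refine (nrm_expansion hs hL hp y hy).trans ?_
        nlinarith
      · refine ⟨0, fun h1 h2 h3 => absurd ⟨h1, h2, h3⟩ hcase⟩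
    choose q hq using hq
    have htop : ∀ y : Eu d, ‖y - 0‖ ≤ 8 →
        |nrm u x s L y - nrm u x s L 0 - ⟪L⁻¹ • p₀, y - 0⟫| ≤ ε₀ / 32 * 8 := by
      intro y hy
      apply nrm_expansion hs hL _ y hy
      intro z hz
      rw [smul_zero, add_zero] at hz ⊢
      rw [mul_comm s 8] at hz ⊢
      exact hp₀ z hz
    have habs : AbsFlat (nrm u x s L) 0 (L⁻¹ • p₀) q ε₀ :=
      ⟨fun y hy => (htop y hy).trans (by linarith), hq⟩
    have hlow : 1 / 2 ≤ ‖L⁻¹ • p₀‖ := by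
      rw [norm_smul, norm_inv, Real.norm_of_nonneg hL.le, inv_mul_eq_div, le_div_iff₀ hL]
      linarith
    have hupp : ‖L⁻¹ • p₀‖ ≤ 3 / 2 := by
      have := norm_le_of_expansion (v := nrm u x s L) (p := L⁻¹ • p₀) (x := 0) (R := 8) (L := 1)
        (κ := ε₀ / 32) (by norm_num) zero_le_one (by positivity) ?_ htop
      · linarith
      · intro y hy
        rw [sub_zero] at hy ⊢
        have hy' : x + s • y ∈ closedBall x ρ := by
          rw [mem_closedBall, dist_eq_norm, add_sub_cancel_left, norm_smul,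
            Real.norm_of_nonneg hs.le]
          nlinarith
        have h1 := hlip _ hy' x (mem_closedBall_self hρ.le)
        rw [add_sub_cancel_left, norm_smul, Real.norm_of_nonneg hs.le] at h1
        have e2 : nrm u x s L y - nrm u x s L 0 = (L * s)⁻¹ * (u (x + s • y) - u x) := by
          unfold nrm
          simp
        rw [e2]
        have h2 := mul_le_mul_of_nonneg_left h1 (inv_pos.2 (mul_pos hL hs)).le
        refine h2.trans_eq ?_
        field_simp
    obtain ⟨P, -, hP⟩ := hc2 (nrm u x s L) 0 (L⁻¹ • p₀) q ε₀ himp habs hε₀ le_rfl hlow hupp 0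
      (by simp)
    refine ⟨L • P, fun y hy => ?_⟩
    have hys : ‖s⁻¹ • (y - x) - 0‖ = ‖y - x‖ / s := by
      rw [sub_zero, norm_smul, norm_inv, Real.norm_of_nonneg hs.le, inv_mul_eq_div]
    have h1 := hP (s⁻¹ • (y - x)) (by
      rw [hys, div_le_iff₀ hs]
      linarith)
    rw [hys, sub_zero] at h1
    have e3 : nrm u x s L (s⁻¹ • (y - x)) - nrm u x s L 0 - ⟪P, s⁻¹ • (y - x)⟫
        = (L * s)⁻¹ * (u y - u x - ⟪L • P, y - x⟫) := by
      unfold nrm
      rw [smul_smul, mul_inv_cancel₀ hs.ne', one_smul, add_sub_cancel, real_inner_smul_left,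
        real_inner_smul_right, smul_zero, add_zero]
      field_simp
      ring
    rw [e3, abs_mul, abs_of_pos (inv_pos.2 (mul_pos hL hs)), inv_mul_le_iff₀ (mul_pos hL hs)] at h1
    refine h1.trans_eq ?_
    have e4 : ‖y - x‖ / s = 32 / δ * (‖y - x‖ / ρ) := by
      rw [hs_def]
      field_simp
    rw [e4, Real.mul_rpow (by positivity) (by positivity), hs_def]
    ring

theorem exists_exponent {r₀ α b : ℝ} (hr : 0 < r₀) (hr1 : r₀ < 1) (hα : 0 < α) (hb : 0 < b)
    (hb1 : b < 1) : ∃ β : ℝ, 0 < β ∧ β ≤ α ∧ b ≤ r₀ ^ β := by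
  have h1 : Real.log r₀ < 0 := Real.log_neg hr hr1
  have h2 : Real.log b < 0 := Real.log_neg hb hb1
  refine ⟨min α (Real.log b / Real.log r₀), lt_min hα (div_pos_of_neg_of_neg h2 h1),
    min_le_left _ _, ?_⟩
  rw [Real.rpow_def_of_pos hr, ← Real.log_le_iff_le_exp hb]
  have h3 := mul_le_mul_of_nonpos_left (min_le_right α (Real.log b / Real.log r₀)) h1.le
  have h4 : Real.log r₀ * (Real.log b / Real.log r₀) = Real.log b :=
    mul_div_cancel₀ _ h1.ne
  linarith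

theorem pow_le_rpow {r₀ β b : ℝ} (hr : 0 < r₀) (hb : 0 < b) (h : b ≤ r₀ ^ β) (n : ℕ) :
    b ^ n ≤ (r₀ ^ n) ^ β := by
  have h1 := pow_le_pow_left₀ hb.le h n
  have h2 : (r₀ ^ β) ^ n = (r₀ ^ n) ^ β := by
    rw [← Real.rpow_natCast, ← Real.rpow_mul hr.le, mul_comm, Real.rpow_mul hr.le,
      Real.rpow_natCast]
  rwa [h2] at h1

/-- the levels of the iteration -/
def Lev {d : ℕ} (u : Eu d → ℝ) (x : Eu d) (ρ L r₀ : ℝ) (j : ℕ) : Prop :=
  ∀ y ∈ closedBall x (r₀ ^ j * ρ), ∀ z ∈ closedBall x (r₀ ^ j * ρ),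
    u y - u z ≤ (3 / 4) ^ j * L * ‖y - z‖

theorem Lev.abs_bound {d : ℕ} {u : Eu d → ℝ} {x : Eu d} {ρ L r₀ : ℝ} {j : ℕ}
    (h : Lev u x ρ L r₀ j) {y : Eu d} (hy : ‖y - x‖ ≤ r₀ ^ j * ρ) :
    |u y - u x| ≤ (3 / 4) ^ j * L * ‖y - x‖ := by
  have hy' : y ∈ closedBall x (r₀ ^ j * ρ) := by rwa [mem_closedBall, dist_eq_norm]
  have hx' : x ∈ closedBall x (r₀ ^ j * ρ) :=
    mem_closedBall_self ((norm_nonneg _).trans hy)
  rw [abs_le]
  have h1 := h y hy' x hx'
  have h2 := h x hx' y hy'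
  rw [norm_sub_rev] at h2
  constructor <;> linarith

theorem osc_bound {d : ℕ} {u : Eu d → ℝ} {x : Eu d} {ρ L r₀ c β : ℝ} (hρ : 0 < ρ) (hL : 0 < L)
    (hr : 0 < r₀) (hr1 : r₀ < 1) (hc : 0 < c) (hc1 : c ≤ 1) (hβ : 0 < β) (hβ1 : β ≤ 1)
    (hb : 3 / 4 ≤ r₀ ^ β) {K : ℕ} (hK : ∀ j ≤ K, Lev u x ρ L r₀ j) {y : Eu d}
    (hy : ‖y - x‖ ≤ ρ) (hyc : c * r₀ ^ K < ‖y - x‖ / ρ) :
    |u y - u x| ≤ 4 / (3 * c) * L * ρ * (‖y - x‖ / ρ) ^ (1 + β) := by
  set t := ‖y - x‖ / ρ with ht_def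
  have ht : 0 < t := lt_trans (by positivity) hyc
  have ht1 : t ≤ 1 := by rw [ht_def, div_le_one hρ]; exact hy
  have htρ : ‖y - x‖ = t * ρ := by rw [ht_def]; field_simp
  obtain ⟨j, hj1, hj2⟩ := exists_nat_pow_near_of_lt_one ht ht1 hr hr1
  have hcβ : c ≤ c ^ β := by
    have := Real.rpow_le_rpow_of_exponent_ge hc hc1 hβ1
    rwa [Real.rpow_one] at this
  have key : ∃ i : ℕ, i ≤ K ∧ t ≤ r₀ ^ i ∧ (3 / 4 : ℝ) ^ i ≤ 4 / (3 * c) * t ^ β := by
    rcases le_or_gt j K with hjK | hjK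
    · refine ⟨j, hjK, hj2, ?_⟩
      have h1 := pow_le_rpow hr (by norm_num) hb (j + 1)
      have h2 : (r₀ ^ (j + 1)) ^ β ≤ t ^ β :=
        Real.rpow_le_rpow (by positivity) hj1.le hβ.le
      have h3 : (3 / 4 : ℝ) ^ j ≤ 4 / 3 * t ^ β := by
        rw [pow_succ] at h1
        linarith
      refine h3.trans ?_
      apply mul_le_mul_of_nonneg_right _ (by positivity)
      rw [div_le_div_iff₀ (by norm_num) (by positivity)]
      linarith
    · refine ⟨K, le_rfl, hj2.trans (pow_le_pow_of_le_one hr.le hr1.le hjK.le), ?_⟩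
      have h1 := pow_le_rpow hr (by norm_num) hb K
      have h2 : (r₀ ^ K) ^ β ≤ (t / c) ^ β := by
        refine Real.rpow_le_rpow (by positivity) ?_ hβ.le
        rw [le_div_iff₀ hc]
        linarith
      rw [Real.div_rpow ht.le hc.le] at h2
      have h3 : t ^ β / c ^ β ≤ t ^ β / c := div_le_div_of_nonneg_left (by positivity) hc hcβ
      have h4 : t ^ β / c ≤ 4 / (3 * c) * t ^ β := by
        have : 0 ≤ t ^ β / c := by positivity
        have e : 4 / (3 * c) * t ^ β = 4 / 3 * (t ^ β / c) := by field_simp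
        rw [e]
        linarith
      linarith
  obtain ⟨i, hiK, hti, hbi⟩ := key
  have h1 := (hK i hiK).abs_bound (y := y) (by
    rw [htρ]
    exact mul_le_mul_of_nonneg_right hti hρ.le)
  refine h1.trans ?_
  rw [htρ, Real.rpow_add ht, Real.rpow_one]
  have h2 := mul_le_mul_of_nonneg_right hbi (by positivity : 0 ≤ L * (t * ρ))
  calc (3 / 4 : ℝ) ^ i * L * (t * ρ) = (3 / 4 : ℝ) ^ i * (L * (t * ρ)) := by ring
    _ ≤ 4 / (3 * c) * t ^ β * (L * (t * ρ)) := h2
    _ = 4 / (3 * c) * L * ρ * (t * t ^ β) := by ring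

/-- pointwise expansion at every point -/
theorem pointwise (d : ℕ) (hB : AffineThm (Eu d)) :
    ∃ α C : ℝ, 0 < α ∧ α ≤ 1 ∧ 0 < C ∧
    ∀ (u : Eu d → ℝ) (Ω : Set (Eu d)), IsInfinityHarmonicOn u Ω → ∀ (x : Eu d) (ρ L : ℝ), 0 < ρ →
      0 < L → closedBall x ρ ⊆ Ω →
      (∀ y ∈ closedBall x ρ, ∀ z ∈ closedBall x ρ, u y - u z ≤ L * ‖y - z‖) →
      ∃ P : Eu d, ∀ y : Eu d, ‖y - x‖ ≤ ρ →
        |u y - u x - ⟪P, y - x⟫| ≤ C * L * ρ * (‖y - x‖ / ρ) ^ (1 + α) := by
  obtain ⟨α, C, c, r₀, hα, hα1, hC, hc, hc1, hr, hr2, hdich⟩ := dichotomy d hB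
  have hr1 : r₀ < 1 := by linarith
  obtain ⟨β, hβ, hβα, hb⟩ := exists_exponent (b := 3 / 4) hr hr1 hα (by norm_num) (by norm_num)
  have hβ1 : β ≤ 1 := hβα.trans hα1
  refine ⟨β, C + 4 / (3 * c) + (1 + C) / c, hβ, hβ1, by positivity, ?_⟩
  intro u Ω hu x ρ L hρ hL hsub hlip
  have hlev0 : Lev u x ρ L r₀ 0 := by
    intro y hy z hz
    rw [pow_zero, one_mul] at hy hz ⊢
    exact hlip y hy z hz
  by_cases hall : ∀ j, Lev u x ρ L r₀ j
  · refine ⟨0, fun y hy => ?_⟩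
    rcases eq_or_ne y x with rfl | hyx
    · simp
      positivity
    have ht : 0 < ‖y - x‖ / ρ := div_pos (norm_pos_iff.2 (sub_ne_zero.2 hyx)) hρ
    obtain ⟨K, hK⟩ := exists_pow_lt_of_lt_one ht hr1
    have h1 := osc_bound hρ hL hr hr1 hc hc1 hβ hβ1 hb (K := K) (fun j _ => hall j) hy (by
      have : 0 < r₀ ^ K := by positivity
      nlinarith)
    rw [inner_zero_left, sub_zero]
    refine h1.trans ?_
    have h2 : 0 ≤ (C + (1 + C) / c) * (L * ρ * (‖y - x‖ / ρ) ^ (1 + β)) := by positivity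
    linarith
  · push Not at hall
    classical
    set N := Nat.find hall with hN
    have hNspec : ¬ Lev u x ρ L r₀ N := Nat.find_spec hall
    have hNmin : ∀ j < N, Lev u x ρ L r₀ j := fun j hj => by
      have := Nat.find_min hall hj
      push Not at this
      exact this
    have hN0 : N ≠ 0 := fun h => hNspec (h ▸ hlev0)
    obtain ⟨k, hk⟩ := Nat.exists_eq_succ_of_ne_zero hN0
    have hlev : ∀ j ≤ k, Lev u x ρ L r₀ j := fun j hj => hNmin j (by omega)
    have hrk : 0 < r₀ ^ k := by positivity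
    have hrk1 : r₀ ^ k ≤ 1 := pow_le_one₀ hr.le hr1.le
    have hbk : (0 : ℝ) < (3 / 4) ^ k := by positivity
    have hsubk : closedBall x (r₀ ^ k * ρ) ⊆ Ω :=
      (closedBall_subset_closedBall (by nlinarith)).trans hsub
    have hbb := pow_le_rpow hr (by norm_num : (0 : ℝ) < 3 / 4) hb k
    rcases hdich u Ω hu x (r₀ ^ k * ρ) ((3 / 4) ^ k * L) (by positivity) (by positivity) hsubk
      (hlev k le_rfl) with h | ⟨P, hP⟩
    · exfalso
      apply hNspec
      rw [hk]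
      intro y hy z hz
      have e1 : r₀ ^ (k + 1) * ρ = r₀ * (r₀ ^ k * ρ) := by ring
      rw [e1] at hy hz
      have := h y hy z hz
      have e2 : (3 / 4 : ℝ) ^ (k + 1) * L = 3 / 4 * ((3 / 4) ^ k * L) := by ring
      rw [e2]
      exact this
    · -- bound for `P`
      have hPn : ‖P‖ ≤ (3 / 4) ^ k * L + C * ((3 / 4) ^ k * L) := by
        apply norm_le_of_expansion (v := u) (p := P) (x := x) (R := c * (r₀ ^ k * ρ))
          (by positivity) (by positivity) (by positivity)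
        · intro y hy
          have hy1 : ‖y - x‖ ≤ r₀ ^ k * ρ := hy.trans (by
            have : 0 < r₀ ^ k * ρ := by positivity
            nlinarith)
          exact (le_abs_self _).trans ((hlev k le_rfl).abs_bound hy1)
        · intro y hy
          refine (hP y hy).trans ?_
          have h1 : ‖y - x‖ / (r₀ ^ k * ρ) ≤ c := by
            rw [div_le_iff₀ (by positivity)]
            exact hy
          have h2 : (‖y - x‖ / (r₀ ^ k * ρ)) ^ (1 + α) ≤ c := by
            refine (Real.rpow_le_rpow (by positivity) h1 (by linarith)).trans ?_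
            have := Real.rpow_le_rpow_of_exponent_ge hc hc1 (by linarith : (1 : ℝ) ≤ 1 + α)
            rwa [Real.rpow_one] at this
          have h3 := mul_le_mul_of_nonneg_left h2
            (by positivity : 0 ≤ C * ((3 / 4) ^ k * L) * (r₀ ^ k * ρ))
          linarith
      refine ⟨P, fun y hy => ?_⟩
      rcases eq_or_ne y x with rfl | hyx
      · simp
        positivity
      set t := ‖y - x‖ / ρ with ht_def
      have ht : 0 < t := div_pos (norm_pos_iff.2 (sub_ne_zero.2 hyx)) hρ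
      have htρ : ‖y - x‖ = t * ρ := by rw [ht_def]; field_simp
      rcases le_or_gt t (c * r₀ ^ k) with htc | htc
      · have h1 := hP y (by
          rw [htρ]
          have := mul_le_mul_of_nonneg_right htc hρ.le
          linarith)
        refine h1.trans ?_
        have e1 : ‖y - x‖ / (r₀ ^ k * ρ) = t / r₀ ^ k := by
          rw [htρ]
          field_simp
        have h2 : t / r₀ ^ k ≤ 1 := by
          rw [div_le_one hrk]
          nlinarith
        have h3 : (t / r₀ ^ k) ^ (1 + α) ≤ (t / r₀ ^ k) ^ (1 + β) :=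
          Real.rpow_le_rpow_of_exponent_ge (by positivity) h2 (by linarith)
        rw [e1]
        have h4 : (t / r₀ ^ k) ^ (1 + β) = t ^ (1 + β) / (r₀ ^ k * (r₀ ^ k) ^ β) := by
          rw [Real.div_rpow ht.le hrk.le, Real.rpow_add hrk, Real.rpow_one]
        have h5 : C * ((3 / 4) ^ k * L) * (r₀ ^ k * ρ) * (t / r₀ ^ k) ^ (1 + α)
            ≤ C * ((3 / 4) ^ k * L) * (r₀ ^ k * ρ) * (t ^ (1 + β) / (r₀ ^ k * (r₀ ^ k) ^ β)) := by
          rw [← h4]
          exact mul_le_mul_of_nonneg_left h3 (by positivity)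
        refine h5.trans ?_
        have hrβ : 0 < (r₀ ^ k) ^ β := by positivity
        have e2 : C * ((3 / 4) ^ k * L) * (r₀ ^ k * ρ) * (t ^ (1 + β) / (r₀ ^ k * (r₀ ^ k) ^ β))
            = C * L * ρ * t ^ (1 + β) * ((3 / 4) ^ k / (r₀ ^ k) ^ β) := by
          field_simp
        rw [e2]
        have h6 : (3 / 4 : ℝ) ^ k / (r₀ ^ k) ^ β ≤ 1 := by
          rw [div_le_one hrβ]
          exact hbb
        have h7 : C * L * ρ * t ^ (1 + β) * ((3 / 4) ^ k / (r₀ ^ k) ^ β)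
            ≤ C * L * ρ * t ^ (1 + β) * 1 := mul_le_mul_of_nonneg_left h6 (by positivity)
        have h8 : 0 ≤ (4 / (3 * c) + (1 + C) / c) * (L * ρ * t ^ (1 + β)) := by positivity
        linarith
      · have h1 := osc_bound hρ hL hr hr1 hc hc1 hβ hβ1 hb (K := k) hlev hy htc
        have h2 : |⟪P, y - x⟫| ≤ (1 + C) / c * (L * ρ * t ^ (1 + β)) := by
          refine (abs_real_inner_le_norm _ _).trans ?_
          have h3 : (3 / 4 : ℝ) ^ k ≤ t ^ β / c := by
            refine hbb.trans ?_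
            have h4 : (r₀ ^ k) ^ β ≤ (t / c) ^ β := by
              refine Real.rpow_le_rpow (by positivity) ?_ hβ.le
              rw [le_div_iff₀ hc]
              linarith
            rw [Real.div_rpow ht.le hc.le] at h4
            refine h4.trans (div_le_div_of_nonneg_left (by positivity) hc ?_)
            have := Real.rpow_le_rpow_of_exponent_ge hc hc1 hβ1
            rwa [Real.rpow_one] at this
          have h5 : ‖P‖ ≤ (1 + C) * L * (t ^ β / c) := by
            refine hPn.trans ?_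
            have := mul_le_mul_of_nonneg_left h3 (by positivity : 0 ≤ (1 + C) * L)
            linarith
          have h6 := mul_le_mul_of_nonneg_right h5 (norm_nonneg (y - x))
          refine h6.trans_eq ?_
          rw [htρ, Real.rpow_add ht, Real.rpow_one]
          field_simp
        have h3 : |u y - u x - ⟪P, y - x⟫| ≤ |u y - u x| + |⟪P, y - x⟫| := abs_sub _ _
        have h4 : 0 ≤ C * (L * ρ * t ^ (1 + β)) := by positivity
        linarith

theorem const_case {d : ℕ} {u : Eu d → ℝ} {x₀ : Eu d} {ρ : ℝ} (hρ : 0 < ρ)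
    (h : ∀ y ∈ closedBall x₀ ρ, ∀ z ∈ closedBall x₀ ρ, u y - u z ≤ 0) {x : Eu d}
    (hx : x ∈ closedBall x₀ (ρ / 2)) : HasFDerivAt u (0 : Eu d →L[ℝ] ℝ) x := by
  have he : u =ᶠ[𝓝 x] fun _ => u x₀ := by
    filter_upwards [ball_mem_nhds x (half_pos hρ)] with y hy
    have hy' : y ∈ closedBall x₀ ρ := by
      rw [mem_ball] at hy
      rw [mem_closedBall] at hx ⊢
      have := dist_triangle y x x₀
      linarith
    have h1 := h y hy' x₀ (mem_closedBall_self hρ.le)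
    have h2 := h x₀ (mem_closedBall_self hρ.le) y hy'
    linarith
  exact (hasFDerivAt_const (u x₀) x).congr_of_eventuallyEq he

/-- main theorem, quantitative form -/
theorem c1alpha (d : ℕ) (hB : AffineThm (Eu d)) :
    ∃ α C : ℝ, 0 < α ∧ 0 < C ∧
    ∀ (u : Eu d → ℝ) (Ω : Set (Eu d)), IsInfinityHarmonicOn u Ω → ∀ (x₀ : Eu d) (ρ M : ℝ),
      0 < ρ → closedBall x₀ ρ ⊆ Ω →
      (∀ y ∈ closedBall x₀ ρ, ∀ z ∈ closedBall x₀ ρ, u y - u z ≤ M) →
      (∀ x ∈ closedBall x₀ (ρ / 2), DifferentiableAt ℝ u x) ∧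
      ∀ x ∈ closedBall x₀ (ρ / 2), ∀ y ∈ closedBall x₀ (ρ / 2),
        ‖fderiv ℝ u x - fderiv ℝ u y‖ ≤ C * (M / ρ) * (‖x - y‖ / ρ) ^ α := by
  obtain ⟨α, C, hα, hα1, hC, hpt⟩ := pointwise d hB
  refine ⟨α, 96 * C + 64, hα, by positivity, ?_⟩
  intro u Ω hu x₀ ρ M hρ hsub hosc
  have hM0 : 0 ≤ M := by
    have := hosc x₀ (mem_closedBall_self hρ.le) x₀ (mem_closedBall_self hρ.le)
    linarith
  rcases hM0.eq_or_lt with hM | hM
  · rw [← hM] at hosc ⊢
    refine ⟨fun x hx => (const_case hρ hosc hx).differentiableAt, fun x hx y hy => ?_⟩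
    rw [(const_case hρ hosc hx).fderiv, (const_case hρ hosc hy).fderiv]
    simp
  set L := 4 * M / ρ with hL_def
  have hL : 0 < L := by positivity
  have hρ4 : 0 < ρ / 4 := by positivity
  -- Lipschitz bound
  have hlip : ∀ x ∈ closedBall x₀ (ρ / 2), ∀ y ∈ closedBall x (ρ / 4),
      ∀ z ∈ closedBall x (ρ / 4), u y - u z ≤ L * ‖y - z‖ := by
    intro x hx y hy z hz
    have hs : closedBall x (ρ / 2) ⊆ closedBall x₀ ρ := by
      apply closedBall_subset_closedBall'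
      rw [mem_closedBall] at hx
      linarith
    rw [mem_closedBall, dist_eq_norm] at hy hz
    have := lip_of_osc hu (half_pos hρ) (hs.trans hsub)
      (fun y hy z hz => hosc y (hs hy) z (hs hz)) (y := y) (z := z) (by linarith) (by linarith)
    refine this.trans_eq ?_
    have e : 2 * M / (ρ / 2) = L := by
      rw [hL_def]
      field_simp
      norm_num
    rw [e]
  have hsub' : ∀ x ∈ closedBall x₀ (ρ / 2), closedBall x (ρ / 4) ⊆ Ω := by
    intro x hx
    refine Subset.trans ?_ hsub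
    apply closedBall_subset_closedBall'
    rw [mem_closedBall] at hx
    linarith
  have hex : ∀ x : Eu d, ∃ P : Eu d, x ∈ closedBall x₀ (ρ / 2) → ∀ y : Eu d, ‖y - x‖ ≤ ρ / 4 →
      |u y - u x - ⟪P, y - x⟫| ≤ C * L * (ρ / 4) * (‖y - x‖ / (ρ / 4)) ^ (1 + α) := by
    intro x
    by_cases hx : x ∈ closedBall x₀ (ρ / 2)
    · obtain ⟨P, hP⟩ := hpt u Ω hu x (ρ / 4) L hρ4 hL (hsub' x hx) (hlip x hx)
      exact ⟨P, fun _ => hP⟩
    · exact ⟨0, fun h => absurd h hx⟩
  choose P hP using hex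
  set C' := C * L * (ρ / 4) / (ρ / 4) ^ (1 + α) with hC'
  have hC'0 : 0 ≤ C' := by positivity
  have hP' : ∀ x ∈ closedBall x₀ (ρ / 2), ∀ y : Eu d, ‖y - x‖ ≤ ρ / 4 →
      |u y - u x - ⟪P x, y - x⟫| ≤ C' * ‖y - x‖ ^ (1 + α) := by
    intro x hx y hy
    refine (hP x hx y hy).trans_eq ?_
    rw [Real.div_rpow (norm_nonneg _) hρ4.le, hC']
    ring
  have hder : ∀ x ∈ closedBall x₀ (ρ / 2), HasFDerivAt u (innerSL ℝ (P x)) x := fun x hx =>
    hasFDerivAt_of_expansion hα hρ4 (hP' x hx)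
  have hPn : ∀ x ∈ closedBall x₀ (ρ / 2), ‖P x‖ ≤ L := by
    intro x hx
    refine norm_le_of_lip hL.le (hder x hx) hρ4 fun a ha => ?_
    have ha' : a ∈ closedBall x (ρ / 4) := by
      rw [mem_closedBall, dist_eq_norm]
      exact ha.le
    have hxx : x ∈ closedBall x (ρ / 4) := mem_closedBall_self hρ4.le
    have h1 := hlip x hx a ha' x hxx
    have h2 := hlip x hx x hxx a ha'
    rw [norm_sub_rev] at h2
    rw [abs_le]
    constructor <;> linarith
  refine ⟨fun x hx => (hder x hx).differentiableAt, fun x hx y hy => ?_⟩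
  rw [(hder x hx).fderiv, (hder y hy).fderiv, ← map_sub, innerSL_apply_norm]
  have h4α : (4 : ℝ) ^ α ≤ 4 := by
    have := Real.rpow_le_rpow_of_exponent_le (by norm_num : (1 : ℝ) ≤ 4) hα1
    rwa [Real.rpow_one] at this
  have h8α : (8 : ℝ) ^ α ≤ 8 := by
    have := Real.rpow_le_rpow_of_exponent_le (by norm_num : (1 : ℝ) ≤ 8) hα1
    rwa [Real.rpow_one] at this
  set T := (‖x - y‖ / ρ) ^ α with hT
  have hT0 : 0 ≤ T := by positivity
  have hMρ : 0 < M / ρ := by positivity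
  rcases le_or_gt ‖x - y‖ (ρ / 4 / 2) with hxy | hxy
  · have h1 := holder_of_expansion hα hα1 hC'0 hρ4 hP' hx hy hxy
    refine h1.trans ?_
    have e1 : 6 * C' * ‖x - y‖ ^ α = 24 * C * (M / ρ) * (4 ^ α * T) := by
      have e2 : ‖x - y‖ ^ α = (ρ / 4) ^ α * (4 ^ α * T) := by
        rw [hT, ← Real.mul_rpow (by norm_num) (by positivity),
          ← Real.mul_rpow (by positivity) (by positivity)]
        congr 1
        field_simp
      rw [e2, hC', Real.rpow_add hρ4, Real.rpow_one, hL_def]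
      field_simp
      ring
    rw [e1]
    have h2 : 4 ^ α * T ≤ 4 * T := mul_le_mul_of_nonneg_right h4α hT0
    have h3 := mul_le_mul_of_nonneg_left h2 (by positivity : 0 ≤ 24 * C * (M / ρ))
    have h4 : 0 ≤ 64 * (M / ρ) * T := by positivity
    linarith
  · have h1 : ‖P x - P y‖ ≤ 2 * L := by
      refine (norm_sub_le _ _).trans ?_
      linarith [hPn x hx, hPn y hy]
    refine h1.trans ?_
    have h2 : 1 ≤ 8 * T := by
      have h3 : 1 ≤ 8 * (‖x - y‖ / ρ) := by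
        rw [← mul_div_assoc, le_div_iff₀ hρ]
        linarith
      have h4 : 1 ≤ (8 * (‖x - y‖ / ρ)) ^ α := Real.one_le_rpow h3 hα.le
      rw [Real.mul_rpow (by norm_num) (by positivity)] at h4
      exact h4.trans (mul_le_mul_of_nonneg_right h8α hT0)
    have h3 : 2 * L ≤ 2 * L * (8 * T) := by nlinarith
    have e : 2 * L * (8 * T) = 64 * (M / ρ) * T := by
      rw [hL_def]
      ring
    have h4 : 0 ≤ 96 * C * (M / ρ) * T := by positivity
    linarith

theorem contDiffOn_one (d : ℕ) (hB : AffineThm (Eu d)) (u : Eu d → ℝ) (Ω : Set (Eu d))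
    (hΩ : IsOpen Ω) (hu : IsInfinityHarmonicOn u Ω) : ContDiffOn ℝ 1 u Ω := by
  obtain ⟨α, C, hα, hC, h⟩ := c1alpha d hB
  apply contDiffOn_of_pointwise hΩ
  intro x₀ hx₀
  obtain ⟨ρ, hρ, hsub⟩ := Metric.nhds_basis_closedBall.mem_iff.1 (hΩ.mem_nhds hx₀)
  obtain ⟨B, hB⟩ := (isCompact_closedBall x₀ ρ).exists_bound_of_continuousOn (hu.1.mono hsub)
  have hosc : ∀ y ∈ closedBall x₀ ρ, ∀ z ∈ closedBall x₀ ρ, u y - u z ≤ 2 * B := by
    intro y hy z hz
    have h1 := hB y hy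
    have h2 := hB z hz
    rw [Real.norm_eq_abs] at h1 h2
    have h3 := (abs_le.1 h1).2
    have h4 := (abs_le.1 h2).1
    linarith
  obtain ⟨hd, hh⟩ := h u Ω hu x₀ ρ (2 * B) hρ hsub hosc
  have hx : x₀ ∈ closedBall x₀ (ρ / 2) := mem_closedBall_self (by positivity)
  refine ⟨hd x₀ hx, ?_⟩
  rw [ContinuousAt, tendsto_iff_norm_sub_tendsto_zero]
  have hlim : Tendsto (fun x : Eu d => C * (2 * B / ρ) * (‖x - x₀‖ / ρ) ^ α) (𝓝 x₀) (𝓝 0) := by
    have hcont : Continuous fun x : Eu d => C * (2 * B / ρ) * (‖x - x₀‖ / ρ) ^ α := by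
      apply Continuous.mul continuous_const
      apply Continuous.rpow_const (by fun_prop)
      intro x
      exact Or.inr hα.le
    have := hcont.tendsto x₀
    simpa [Real.zero_rpow hα.ne'] using this
  refine squeeze_zero' (Eventually.of_forall fun x => norm_nonneg _) ?_ hlim
  filter_upwards [closedBall_mem_nhds x₀ (half_pos hρ)] with x hx'
  exact hh x hx' x₀ hx

end Vale.Agent.P080
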