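import Vale.Agent.P080M.Defs

/-! Module ADAPT: steps (1)-(4) of the notes. -/

open Metric Set Filter Topology
open scoped RealInnerProductSpace

namespace Vale.Agent.P080M

variable {E : Type*} [NormedAddCommGroup E] [InnerProductSpace ℝ E]

/-- (1) -/
theorem Adapted.cmp_scale {K : ℝ} (hK : 1 ≤ K) {W : E → ℝ → ℝ} {x : E} {z ρ ρ' : ℝ} {v v' : E}
    {s s' : ℝ} (hρ : 0 < ρ) (h1 : ρ / 2 ≤ ρ') (h2 : ρ' ≤ ρ) (h : Adapted K W x z ρ v s)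
    (h' : Adapted K W x z ρ' v' s') :
    ‖v - v'‖ ≤ 3 * K ∧ |ff v s - ff v' s'| ≤ 14 * K ^ 2 := sorry

/-- (2) -/
theorem Adapted.cmp_point {K : ℝ} (hK : 1 ≤ K) {W : E → ℝ → ℝ} {x y : E} {z z' ρ : ℝ} {v v' : E}
    {s s' : ℝ} (hρ : 0 < ρ) (h : Adapted K W x z ρ v s) (hz : |z' - z| ≤ ρ / 2)
    (hy : ‖y - x - (z' - z) • v‖ ≤ ρ / 2) (h' : Adapted K W y z' ρ v' s') :
    ‖v - v'‖ ≤ 6 * K ∧ |ff v s - ff v' s'| ≤ 54 * K ^ 2 := sorry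

/-- (3) same point, `ρ' ∈ [ρ, 2^k ρ]` -/
theorem MCls.cmp_dyadic {K : ℝ} (hK : 1 ≤ K) {W : E → ℝ → ℝ} (hW : MCls K W) {x : E}
    {z ρ ρ' : ℝ} {v v' : E} {s s' : ℝ} (k : ℕ) (hρ : 0 < ρ) (h1 : ρ ≤ ρ') (h2 : ρ' ≤ 2 ^ k * ρ)
    (h : Adapted K W x z ρ v s) (h' : Adapted K W x z ρ' v' s') :
    ‖v - v'‖ ≤ 3 * K * (k + 1) ∧ |ff v s - ff v' s'| ≤ 14 * K ^ 2 * (k + 1) := sorry

/-- (3) general comparison -/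
theorem MCls.cmp_gen (K : ℝ) (hK : 1 ≤ K) : ∃ C : ℝ, 0 < C ∧
    ∀ (W : E → ℝ → ℝ), MCls K W → ∀ (x y : E) (z z' ρ ρ' A : ℝ) (v v' : E) (s s' : ℝ),
      0 < ρ' → ρ' ≤ ρ → 1 ≤ A → Adapted K W x z ρ v s → Adapted K W y z' ρ' v' s' →
      |z' - z| ≤ A * ρ → ‖y - x - (z' - z) • v‖ ≤ A * ρ →
      ‖v - v'‖ ≤ C * (1 + Real.log A + Real.log (ρ / ρ')) ∧
      |ff v s - ff v' s'| ≤ C * (1 + Real.log A + Real.log (ρ / ρ')) := sorry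

/-- (4) growth -/
theorem MCls.growth (K : ℝ) (hK : 1 ≤ K) {ε : ℝ} (hε : 0 < ε) : ∃ C : ℝ, 0 < C ∧
    ∀ (W : E → ℝ → ℝ), MCls K W → ∀ (x : E) (z ρ : ℝ) (v : E) (s : ℝ), 0 < ρ →
      Adapted K W x z ρ v s → ∀ (y : E) (z' : ℝ),
      |W y z' - W x z - ⟪v, y - x⟫ - s * (z' - z)| ≤
        ρ * (C + ε * ((|z' - z| + ‖y - x - (z' - z) • v‖) / ρ) ^ 2) := sorry

end Vale.Agent.P080M
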