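import Vale.Agent.P080.Cone

/-! Part C, module CC: cone comparison on compact sets (step (26)) and its scale invariance. -/

open Metric Set Filter Topology
open scoped RealInnerProductSpace

namespace Vale.Agent.P080

/-- comparison with cones from above on compact subsets of `S` -/
def ConeAbove {E : Type*} [NormedAddCommGroup E] (u : E → ℝ) (S : Set E) : Prop :=
  ∀ (K G : Set E), IsCompact K → IsOpen G → G ⊆ K → K ⊆ S → ∀ y ∈ K, ∀ b : ℝ, 0 ≤ b →
    (∀ x ∈ K, x ∉ G → u x ≤ u y + b * ‖x - y‖) → ∀ x ∈ K, u x ≤ u y + b * ‖x - y‖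

/-- (26). Proof: as `cone_upper`, from `comparison_upper` with
`φ = cone (u y) (b + 2 c R) c y`, `G \ {y}`, `c → 0`. -/
theorem IsInfinityHarmonicOn.coneAbove {d : ℕ} {u : Eu d → ℝ} {Ω : Set (Eu d)}
    (hu : IsInfinityHarmonicOn u Ω) : ConeAbove u Ω := by
  intro K G hK hG hGK hKΩ y hy b hb hbd x hx
  obtain ⟨R, hR0, hR⟩ : ∃ R : ℝ, 0 < R ∧ ∀ z ∈ K, ‖z - y‖ < R := by
    obtain ⟨R, hR⟩ := hK.isBounded.subset_closedBall y
    refine ⟨max R 0 + 1, by positivity, fun z hz => ?_⟩
    have h1 := hR hz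
    rw [mem_closedBall, dist_eq_norm] at h1
    have h2 := le_max_left R 0
    linarith
  have key : ∀ c : ℝ, 0 < c → u x ≤ u y + (b + 2 * c * R) * ‖x - y‖ - c * ‖x - y‖ ^ 2 := by
    intro c hc
    have := comparison_upper (φ := cone (u y) (b + 2 * c * R) c y) (K := K)
      (G := G \ {y}) hu hK (hG.sdiff isClosed_singleton)
      (sdiff_subset.trans hGK) hKΩ ?_ ?_ ?_ ?_ x hx
    · exact this
    · apply Continuous.continuousOn
      unfold cone
      fun_prop
    · intro z hz
      exact cone_contDiffAt _ _ _ _ _ (by simpa using hz.2)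
    · intro z hz
      have hzy : z ≠ y := by simpa using hz.2
      rw [cone_infLaplacian _ _ _ _ _ hzy]
      have h1 : ‖z - y‖ < R := hR z (hGK hz.1)
      have h2 : 0 < b + 2 * c * R - 2 * c * ‖z - y‖ := by nlinarith
      have h3 : 0 < (b + 2 * c * R - 2 * c * ‖z - y‖) ^ 2 := by positivity
      nlinarith
    · intro z hz hzG
      by_cases hzy : z = y
      · subst hzy
        simp [cone]
      · have hzG' : z ∉ G := fun h => hzG ⟨h, by simpa using hzy⟩
        have h1 := hbd z hz hzG'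
        have h2 := hR z hz
        have h3 := norm_nonneg (z - y)
        unfold cone
        nlinarith [mul_nonneg (mul_nonneg hc.le h3) (by linarith : 0 ≤ 2 * R - ‖z - y‖)]
  refine le_of_forall_pos_le_add fun ε hε => ?_
  have hx' : ‖x - y‖ ≤ R := (hR x hx).le
  have h := key (ε / (2 * R * R)) (by positivity)
  have hn := norm_nonneg (x - y)
  have h1 : 2 * (ε / (2 * R * R)) * R * ‖x - y‖ ≤ ε := by
    have : 2 * (ε / (2 * R * R)) * R * ‖x - y‖ = ε * (‖x - y‖ / R) := by field_simp
    rw [this]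
    have : ‖x - y‖ / R ≤ 1 := (div_le_one hR0).2 hx'
    nlinarith
  have h2 : 0 ≤ ε / (2 * R * R) * ‖x - y‖ ^ 2 := by positivity
  nlinarith

theorem ConeAbove.mono {E : Type*} [NormedAddCommGroup E] {u : E → ℝ} {S S' : Set E}
    (h : ConeAbove u S) (hS : S' ⊆ S) : ConeAbove u S' :=
  fun K G hK hG hGK hKS => h K G hK hG hGK (hKS.trans hS)

/-- invariance under `y ↦ c (u(a + r y) - b₀)` -/
theorem ConeAbove.scale {E : Type*} [NormedAddCommGroup E] [NormedSpace ℝ E] {u : E → ℝ}
    {S : Set E} (h : ConeAbove u S) (a : E) {r c : ℝ} (hr : 0 < r) (hc : 0 < c) (b₀ : ℝ) :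
    ConeAbove (fun y => c * (u (a + r • y) - b₀)) ((fun y => a + r • y) ⁻¹' S) := by
  intro K G hK hG hGK hKS y hy b hb hbd x hx
  have hcont : Continuous (fun y : E => a + r • y) := by fun_prop
  have hopen : IsOpen ((fun y : E => a + r • y) '' G) := by
    have h1 : (fun y : E => a + r • y) '' G = (fun y : E => (1 / r) • (y - a)) ⁻¹' G := by
      ext z
      constructor
      · rintro ⟨w, hw, rfl⟩
        simp only [mem_preimage, add_sub_cancel_left, smul_smul, one_div_mul_cancel hr.ne', one_smul]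
        exact hw
      · intro hz
        refine ⟨(1 / r) • (z - a), hz, ?_⟩
        simp only [smul_smul, mul_one_div_cancel hr.ne', one_smul, add_sub_cancel]
    rw [h1]
    exact hG.preimage (by fun_prop)
  have hnorm : ∀ z w : E, ‖(a + r • z) - (a + r • w)‖ = r * ‖z - w‖ := by
    intro z w
    rw [add_sub_add_left_eq_sub, ← smul_sub, norm_smul, Real.norm_eq_abs, abs_of_pos hr]
  have key := h ((fun y : E => a + r • y) '' K) ((fun y : E => a + r • y) '' G) (hK.image hcont) hopen
    (image_mono hGK) (by rintro _ ⟨w, hw, rfl⟩; exact hKS hw) (a + r • y) ⟨y, hy, rfl⟩ (b / (c * r)) (by positivity) ?_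
    (a + r • x) ⟨x, hx, rfl⟩
  · rw [hnorm] at key
    have e : b / (c * r) * (r * ‖x - y‖) = b * ‖x - y‖ / c := by field_simp
    rw [e] at key
    have h2 : c * u (a + r • x) ≤ c * (u (a + r • y) + b * ‖x - y‖ / c) := mul_le_mul_of_nonneg_left key hc.le
    have e2 : c * (u (a + r • y) + b * ‖x - y‖ / c) = c * u (a + r • y) + b * ‖x - y‖ := by field_simp
    simp only
    linarith
  · rintro _ ⟨w, hw, rfl⟩ hwG
    have hwG' : w ∉ G := fun h => hwG ⟨w, h, rfl⟩
    have h1 := hbd w hw hwG'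
    simp only at h1
    rw [hnorm]
    have e : b / (c * r) * (r * ‖w - y‖) = b * ‖w - y‖ / c := by field_simp
    rw [e]
    have h2 : c * (u (a + r • w) - u (a + r • y)) ≤ b * ‖w - y‖ := by linarith
    have h3 : u (a + r • w) - u (a + r • y) ≤ b * ‖w - y‖ / c := by
      rw [le_div_iff₀ hc]
      linarith
    linarith

/-- invariance under `y ↦ -y` (needed for the reflection) -/
theorem ConeAbove.comp_neg {E : Type*} [NormedAddCommGroup E] [NormedSpace ℝ E] {u : E → ℝ}
    {S : Set E} (h : ConeAbove u S) : ConeAbove (fun y => u (-y)) (Neg.neg ⁻¹' S) := by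
  intro K G hK hG hGK hKS y hy b hb hbd x hx
  have hnorm : ∀ z w : E, ‖(- z) - (- w)‖ = ‖z - w‖ := by
    intro z w
    rw [neg_sub_neg, norm_sub_rev]
  have key := h (Neg.neg '' K) (Neg.neg '' G) (hK.image continuous_neg) ((Homeomorph.neg E).isOpenMap G hG)
    (image_mono hGK) (by rintro _ ⟨w, hw, rfl⟩; exact hKS hw) (- y) ⟨y, hy, rfl⟩ b hb ?_
    (- x) ⟨x, hx, rfl⟩
  · rw [hnorm] at key
    exact key
  · rintro _ ⟨w, hw, rfl⟩ hwG
    have hwG' : w ∉ G := fun h => hwG ⟨w, h, rfl⟩
    have h1 := hbd w hw hwG'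
    rw [hnorm]
    exact h1

end Vale.Agent.P080
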