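import Mathlib

/-! Part C, module CN: natural flatness, comparison lemmas (steps (b1)-(b3)). -/

open Metric Set Filter Topology
open scoped RealInnerProductSpace

namespace Vale.Agent.P080

variable {E : Type*} [NormedAddCommGroup E] [InnerProductSpace ℝ E]

/-- the natural cylinder of direction `p`, length `r`, lateral radius `√m r`, centred at `x` -/
def Cyl (p x : E) (r m : ℝ) : Set E :=
  {y | |⟪p, y - x⟫| ≤ ‖p‖ * r ∧ ‖(y - x) - (⟪p, y - x⟫ / ‖p‖ ^ 2) • p‖ ≤ √m * r}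

/-- natural flatness: `|u - ℓ_p| ≤ κ m r` on the natural cylinder. -/
def NF (u : E → ℝ) (x : E) (r : ℝ) (p : E) (m κ : ℝ) : Prop :=
  ∀ y ∈ Cyl p x r m, |u y - u x - ⟪p, y - x⟫| ≤ κ * m * r

/-- the orthogonal projection minimizes the distance to the line -/
theorem nf_proj_le (p w : E) (c : ℝ) : ‖w - (⟪p, w⟫ / ‖p‖ ^ 2) • p‖ ≤ ‖w - c • p‖ := by
  rcases eq_or_ne p 0 with rfl | hp
  · simp
  have hp0 : 0 < ‖p‖ := norm_pos_iff.2 hp
  have e : ∀ t : ℝ, ‖w - t • p‖ ^ 2 = ‖w‖ ^ 2 - 2 * t * ⟪p, w⟫ + t ^ 2 * ‖p‖ ^ 2 := by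
    intro t
    rw [@norm_sub_sq_real, inner_smul_right, norm_smul, mul_pow, Real.norm_eq_abs, sq_abs,
      real_inner_comm w p]
    ring
  have h : ‖w - (⟪p, w⟫ / ‖p‖ ^ 2) • p‖ ^ 2 ≤ ‖w - c • p‖ ^ 2 := by
    rw [e, e]
    have h2 : ‖w‖ ^ 2 - 2 * c * ⟪p, w⟫ + c ^ 2 * ‖p‖ ^ 2 -
        (‖w‖ ^ 2 - 2 * (⟪p, w⟫ / ‖p‖ ^ 2) * ⟪p, w⟫ + (⟪p, w⟫ / ‖p‖ ^ 2) ^ 2 * ‖p‖ ^ 2) =
        (c - ⟪p, w⟫ / ‖p‖ ^ 2) ^ 2 * ‖p‖ ^ 2 := by
      field_simp
      ring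
    have h3 : 0 ≤ (c - ⟪p, w⟫ / ‖p‖ ^ 2) ^ 2 * ‖p‖ ^ 2 := by positivity
    linarith
  exact (abs_le_of_sq_le_sq' h (norm_nonneg _)).2

theorem nf_sqrt_le {m : ℝ} (hm1 : m ≤ 1) : √m ≤ 1 := Real.sqrt_le_one.2 hm1

theorem mem_cyl_of_ball {p x y : E} {r m : ℝ} (hr : 0 < r) (hm : 0 ≤ m) (hm1 : m ≤ 1)
    (h : ‖y - x‖ ≤ √m * r) : y ∈ Cyl p x r m := by
  refine ⟨?_, ?_⟩
  · refine (abs_real_inner_le_norm _ _).trans (mul_le_mul_of_nonneg_left ?_ (norm_nonneg _))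
    calc ‖y - x‖ ≤ √m * r := h
      _ ≤ 1 * r := mul_le_mul_of_nonneg_right (nf_sqrt_le hm1) hr.le
      _ = r := one_mul _
  · have h1 := nf_proj_le p (y - x) 0
    rw [zero_smul, sub_zero] at h1
    exact h1.trans h

/-- membership from closeness to any multiple of `p` -/
theorem mem_cyl_of_near {p x y : E} (hp : p ≠ 0) {r m c : ℝ} (h1 : |⟪p, y - x⟫| ≤ ‖p‖ * r)
    (h2 : ‖(y - x) - c • p‖ ≤ √m * r) : y ∈ Cyl p x r m :=
  ⟨h1, (nf_proj_le p (y - x) c).trans h2⟩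

theorem nf_self_mem {p x : E} {r m : ℝ} (hr : 0 ≤ r) : x ∈ Cyl p x r m := by
  refine ⟨?_, ?_⟩
  · rw [sub_self, inner_zero_right, abs_zero]; positivity
  · rw [sub_self, inner_zero_right, zero_div, zero_smul, sub_zero, norm_zero]; positivity

theorem nf_kappa_nonneg {u : E → ℝ} {x p : E} {r m κ : ℝ} (hm : 0 < m) (hr : 0 < r)
    (h : NF u x r p m κ) : 0 ≤ κ := by
  have h1 := h x (nf_self_mem hr.le)
  have h2 : 0 ≤ κ * m * r := (abs_nonneg _).trans h1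
  by_contra hcon
  push Not at hcon
  have h3 : κ * m * r < 0 := by
    rw [mul_assoc]
    exact mul_neg_of_neg_of_pos hcon (by positivity)
  linarith

/-- a bound for `⟪q, w⟫` on a ball gives a bound for `q` -/
theorem nf_norm_le {q : E} {ρ B : ℝ} (hρ : 0 < ρ) (hB : 0 ≤ B)
    (h : ∀ w : E, ‖w‖ ≤ ρ → |⟪q, w⟫| ≤ B) : ‖q‖ ≤ B / ρ := by
  rcases eq_or_ne q 0 with rfl | hq
  · rw [norm_zero]; positivity
  have hq0 : 0 < ‖q‖ := norm_pos_iff.2 hq
  have h1 := h ((ρ / ‖q‖) • q) (by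
    rw [norm_smul, Real.norm_eq_abs, abs_of_pos (by positivity)]
    rw [div_mul_cancel₀ _ hq0.ne'])
  rw [inner_smul_right, real_inner_self_eq_norm_sq] at h1
  have e : ρ / ‖q‖ * ‖q‖ ^ 2 = ρ * ‖q‖ := by field_simp
  rw [e, abs_of_nonneg (by positivity)] at h1
  rw [le_div_iff₀ hρ]
  linarith

/-- (b1) same centre, `r ≤ r'` -/
theorem NF.cmp_same {u : E → ℝ} {x p p' : E} {r r' m κ : ℝ} (hm : 0 < m) (hm1 : m ≤ 1)
    (hr : 0 < r) (hrr : r ≤ r') (h : NF u x r p m κ) (h' : NF u x r' p' m κ) :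
    ‖p - p'‖ ≤ κ * √m * (1 + r' / r) := by
  have hκ := nf_kappa_nonneg hm hr h
  have hr' : 0 < r' := hr.trans_le hrr
  have hs : 0 < √m := Real.sqrt_pos.2 hm
  have hss : √m * √m = m := Real.mul_self_sqrt hm.le
  have h1 : ‖p - p'‖ ≤ (κ * m * (r + r')) / (√m * r) := by
    apply nf_norm_le (by positivity) (by positivity)
    intro w hw
    have a1 := h (x + w) (mem_cyl_of_ball hr hm.le hm1 (by rwa [add_sub_cancel_left]))
    have a2 := h' (x + w) (mem_cyl_of_ball hr' hm.le hm1 (by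
      rw [add_sub_cancel_left]
      exact hw.trans (mul_le_mul_of_nonneg_left hrr hs.le)))
    rw [add_sub_cancel_left] at a1 a2
    rw [inner_sub_left]
    rw [abs_le] at a1 a2 ⊢
    constructor <;> linarith [a1.1, a1.2, a2.1, a2.2]
  refine h1.trans (le_of_eq ?_)
  nth_rewrite 1 [← hss]
  field_simp

/-- (b2) different centres -/
theorem NF.cmp {u : E → ℝ} {x x' p p' : E} {R r σ m κ : ℝ} (hm : 0 < m) (hm1 : m ≤ 1)
    (hσ : 0 < σ) (hσr : σ ≤ r) (hκ : 0 ≤ κ) (hR : 0 ≤ R) (h : NF u x R p m κ)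
    (h' : NF u x' r p' m κ)
    (hx : x' ∈ Cyl p x R m) (hb : ∀ w : E, ‖w‖ ≤ √m * σ → x' + w ∈ Cyl p x R m) :
    ‖p - p'‖ ≤ κ * √m * (2 * R + r) / σ := by
  have hr : 0 < r := hσ.trans_le hσr
  have hs : 0 < √m := Real.sqrt_pos.2 hm
  have hss : √m * √m = m := Real.mul_self_sqrt hm.le
  have h1 : ‖p - p'‖ ≤ (κ * m * (2 * R + r)) / (√m * σ) := by
    apply nf_norm_le (by positivity) (by positivity)
    intro w hw
    have a1 := h (x' + w) (hb w hw)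
    have a3 := h x' hx
    have a2 := h' (x' + w) (mem_cyl_of_ball hr hm.le hm1 (by
      rw [add_sub_cancel_left]
      exact hw.trans (mul_le_mul_of_nonneg_left hσr hs.le)))
    rw [add_sub_cancel_left] at a2
    have e : x' + w - x = (x' - x) + w := by abel
    rw [e, inner_add_right] at a1
    rw [inner_sub_left]
    rw [abs_le] at a1 a2 a3 ⊢
    constructor <;> linarith [a1.1, a1.2, a2.1, a2.2, a3.1, a3.2]
  refine h1.trans (le_of_eq ?_)
  nth_rewrite 1 [← hss]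
  field_simp

/-- (b3) the components along `w` (usually `w = h e`) when `x' + w` is in both cylinders -/
theorem NF.cmp_vert {u : E → ℝ} {x x' p p' w : E} {R r m κ : ℝ} (h : NF u x R p m κ)
    (h' : NF u x' r p' m κ) (hx : x' ∈ Cyl p x R m) (h1 : x' + w ∈ Cyl p x R m)
    (h2 : x' + w ∈ Cyl p' x' r m) : |⟪p - p', w⟫| ≤ κ * m * (2 * R + r) := by
  have a1 := h (x' + w) h1
  have a3 := h x' hx
  have a2 := h' (x' + w) h2
  rw [add_sub_cancel_left] at a2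
  have e : x' + w - x = (x' - x) + w := by abel
  rw [e, inner_add_right] at a1
  rw [inner_sub_left]
  rw [abs_le] at a1 a2 a3 ⊢
  constructor <;> linarith [a1.1, a1.2, a2.1, a2.2, a3.1, a3.2]

/-- scaling: `ũ y = c (u (a + ρ y) - b₀)` -/
theorem NF.scale {u : E → ℝ} {x p : E} {r m κ : ℝ} (h : NF u x r p m κ) (a : E) {ρ c : ℝ}
    (hρ : 0 < ρ) (hc : 0 < c) (b₀ : ℝ) :
    NF (fun y => c * (u (a + ρ • y) - b₀)) (ρ⁻¹ • (x - a)) (r / ρ) ((c * ρ) • p) m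
      (c * ρ * κ) := by
  intro y hy
  have hcρ : 0 < c * ρ := mul_pos hc hρ
  have ex : a + ρ • (ρ⁻¹ • (x - a)) = x := by
    rw [smul_smul, mul_inv_cancel₀ hρ.ne', one_smul]; abel
  have ed : a + ρ • y - x = ρ • (y - ρ⁻¹ • (x - a)) := by
    rw [smul_sub, smul_smul, mul_inv_cancel₀ hρ.ne', one_smul]; abel
  obtain ⟨hy1, hy2⟩ := hy
  set d := y - ρ⁻¹ • (x - a) with hd
  clear_value d
  have hmem : a + ρ • y ∈ Cyl p x r m := by
    refine ⟨?_, ?_⟩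
    · rw [ed, inner_smul_right, abs_mul, abs_of_pos hρ]
      rw [inner_smul_left, norm_smul, Real.norm_eq_abs, abs_of_pos hcρ, abs_mul] at hy1
      have e1 : |(starRingEnd ℝ) (c * ρ)| = c * ρ := by
        rw [show (starRingEnd ℝ) (c * ρ) = c * ρ from rfl, abs_of_pos hcρ]
      rw [e1, mul_assoc (c * ρ)] at hy1
      have h3 := le_of_mul_le_mul_left hy1 hcρ
      calc ρ * |⟪p, d⟫| ≤ ρ * (‖p‖ * (r / ρ)) := mul_le_mul_of_nonneg_left h3 hρ.le
        _ = ‖p‖ * r := by field_simp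
    · rw [ed, inner_smul_right]
      have e2 : ρ • d - (ρ * ⟪p, d⟫ / ‖p‖ ^ 2) • p = ρ • (d - (⟪p, d⟫ / ‖p‖ ^ 2) • p) := by
        rw [smul_sub, smul_smul]
        congr 2
        ring
      rw [e2, norm_smul, Real.norm_eq_abs, abs_of_pos hρ]
      have e3 : d - (⟪(c * ρ) • p, d⟫ / ‖(c * ρ) • p‖ ^ 2) • (c * ρ) • p =
          d - (⟪p, d⟫ / ‖p‖ ^ 2) • p := by
        rcases eq_or_ne p 0 with rfl | hp
        · simp
        have hp0 : 0 < ‖p‖ := norm_pos_iff.2 hp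
        rw [inner_smul_left, norm_smul, Real.norm_eq_abs, abs_of_pos hcρ, smul_smul]
        congr 2
        rw [show (starRingEnd ℝ) (c * ρ) = c * ρ from rfl]
        field_simp
      rw [e3] at hy2
      calc ρ * ‖d - (⟪p, d⟫ / ‖p‖ ^ 2) • p‖ ≤ ρ * (√m * (r / ρ)) :=
            mul_le_mul_of_nonneg_left hy2 hρ.le
        _ = √m * r := by field_simp
  have h4 := h _ hmem
  rw [ed, inner_smul_right] at h4
  simp only [ex]
  rw [inner_smul_left, show (starRingEnd ℝ) (c * ρ) = c * ρ from rfl]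
  have e5 : c * (u (a + ρ • y) - b₀) - c * (u x - b₀) - c * ρ * ⟪p, d⟫ =
      c * (u (a + ρ • y) - u x - ρ * ⟪p, d⟫) := by ring
  rw [e5, abs_mul, abs_of_pos hc]
  calc c * |u (a + ρ • y) - u x - ρ * ⟪p, d⟫| ≤ c * (κ * m * r) :=
        mul_le_mul_of_nonneg_left h4 hc.le
    _ = c * ρ * κ * m * (r / ρ) := by field_simp

theorem NF.neg {u : E → ℝ} {x p : E} {r m κ : ℝ} (h : NF u x r p m κ) :
    NF (fun y => -u y) x r (-p) m κ := by
  intro y hy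
  have hmem : y ∈ Cyl p x r m := by
    obtain ⟨h1, h2⟩ := hy
    refine ⟨?_, ?_⟩
    · rwa [inner_neg_left, abs_neg, norm_neg] at h1
    · rw [inner_neg_left, norm_neg, neg_div, neg_smul, smul_neg, neg_neg] at h2
      exact h2
  have h1 := h y hmem
  have e : -u y - -u x - ⟪-p, y - x⟫ = -(u y - u x - ⟪p, y - x⟫) := by
    rw [inner_neg_left]; ring
  rw [e, abs_neg]
  exact h1

theorem NF.mono {u : E → ℝ} {x p : E} {r m κ κ' : ℝ} (h : NF u x r p m κ) (hm : 0 ≤ m)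
    (hr : 0 ≤ r) (hκ : κ ≤ κ') : NF u x r p m κ' := by
  intro y hy
  refine (h y hy).trans ?_
  have : 0 ≤ m * r := mul_nonneg hm hr
  nlinarith

end Vale.Agent.P080
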