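import Vale.Agent.P080M.C_Growth
import Vale.Agent.P080M.C_Cone
import Vale.Agent.P080M.C_NF

/-! Part C: definitions for blow-up sequences. -/

open Metric Set Filter Topology
open scoped RealInnerProductSpace

namespace Vale.Agent.P080

variable {E : Type*} [NormedAddCommGroup E] [InnerProductSpace ℝ E]

/-- the chart `z e + √m π_e y` -/
noncomputable def chart (e : E) (m : ℝ) (y : E) (z : ℝ) : E :=
  z • e + √m • (y - ⟪e, y⟫ • e)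

/-- the blow-up `W(y,z) = (u(z e + √m π y) - z)/m` -/
noncomputable def blow (u : E → ℝ) (e : E) (m : ℝ) : E → ℝ → ℝ :=
  fun y z => (u (chart e m y z) - z) / m

/-- normalized blow-up sequences -/
structure BSeq (u : ℕ → E → ℝ) (m : ℕ → ℝ) (e : ℕ → E) : Prop where
  u0 : ∀ n, u n 0 = 0
  m_pos : ∀ n, 0 < m n
  m_le : ∀ n : ℕ, m n ≤ 1 / ((n : ℝ) + 1)
  e_norm : ∀ n, ‖e n‖ = 1
  nf0 : ∀ n, NF (u n) 0 1 (e n) (m n) 4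
  nf : ∀ (n : ℕ) (x' : E) (r' : ℝ), ‖x'‖ ≤ (n : ℝ) + 2 → 1 / ((n : ℝ) + 2) ≤ r' →
    r' ≤ (n : ℝ) + 2 → ∃ p' : E, 1 / 8 ≤ ‖p'‖ ∧ ‖p'‖ ≤ 8 ∧ NF (u n) x' r' p' (m n) 4
  up : ∀ n : ℕ, ConeAbove (u n) (closedBall 0 ((n : ℝ) + 2))
  dn : ∀ n : ℕ, ConeAbove (fun y => -u n y) (closedBall 0 ((n : ℝ) + 2))

/-- continuous convergence along an ultrafilter -/
def CConv (l : Ultrafilter ℕ) (W : ℕ → E → ℝ → ℝ) (V : E → ℝ → ℝ) : Prop :=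
  ∀ (y : ℕ → E) (z : ℕ → ℝ) (y₀ : E) (z₀ : ℝ), Tendsto y l (𝓝 y₀) → Tendsto z l (𝓝 z₀) →
    Tendsto (fun n => W n (y n) (z n)) l (𝓝 (V y₀ z₀))

end Vale.Agent.P080
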