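import Vale.Agent.P080M.C_Blow1

/-! Part C, module CB2: limit of blow-up sequences (step (27) (c)). Use `BSeq.flat`,
`BSeq.blow_bdd` (file `C_Blow1.lean`) as black boxes. -/

open Metric Set Filter Topology
open scoped RealInnerProductSpace

namespace Vale.Agent.P080

variable {E : Type*} [NormedAddCommGroup E] [InnerProductSpace ℝ E]

/-- eventually bounded real sequences converge along an ultrafilter -/
theorem cb2_real_limit (l : Ultrafilter ℕ) {f : ℕ → ℝ} {C : ℝ}
    (hf : ∀ᶠ n in (l : Filter ℕ), |f n| ≤ C) : ∃ a : ℝ, Tendsto f l (𝓝 a) := by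
  have h1 : ∀ᶠ n in (l : Filter ℕ), f n ∈ Icc (-C) C := by
    filter_upwards [hf] with n hn
    exact ⟨(abs_le.1 hn).1, (abs_le.1 hn).2⟩
  have h2 : ((l.map f : Ultrafilter ℝ) : Filter ℝ) ≤ 𝓟 (Icc (-C) C) := by
    rw [le_principal_iff]
    exact h1
  obtain ⟨a, -, ha⟩ := (isCompact_Icc (a := -C) (b := C)).ultrafilter_le_nhds (l.map f) h2
  exact ⟨a, ha⟩

/-- eventually bounded sequences of vectors converge along an ultrafilter -/
theorem cb2_vec_limit [FiniteDimensional ℝ E] (l : Ultrafilter ℕ) {f : ℕ → E} {C : ℝ}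
    (hf : ∀ᶠ n in (l : Filter ℕ), ‖f n‖ ≤ C) : ∃ a : E, Tendsto f l (𝓝 a) := by
  have : ProperSpace E := FiniteDimensional.proper_real E
  have h1 : ∀ᶠ n in (l : Filter ℕ), f n ∈ closedBall (0 : E) C := by
    filter_upwards [hf] with n hn
    rwa [mem_closedBall_zero_iff]
  have h2 : ((l.map f : Ultrafilter E) : Filter E) ≤ 𝓟 (closedBall (0 : E) C) := by
    rw [le_principal_iff]
    exact h1
  obtain ⟨a, -, ha⟩ := (isCompact_closedBall (0 : E) C).ultrafilter_le_nhds (l.map f) h2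
  exact ⟨a, ha⟩

/-- (c) -/
theorem BSeq.limit [FiniteDimensional ℝ E] {u : ℕ → E → ℝ} {m : ℕ → ℝ} {e : ℕ → E}
    (h : BSeq u m e) (l : Ultrafilter ℕ) (hl : (l : Filter ℕ) ≤ atTop) :
    ∃ V : E → ℝ → ℝ, V 0 0 = 0 ∧ Flt 8 V ∧
      CConv l (fun n => blow (u n) (e n) (m n)) V := by
  have hlim : ∀ (y : E) (z : ℝ), ∃ a : ℝ,
      Tendsto (fun n => blow (u n) (e n) (m n) y z) l (𝓝 a) := by
    intro y z
    obtain ⟨C, -, N, hN⟩ := h.blow_bdd (max ‖y‖ |z|)
    refine cb2_real_limit l (C := C) (hl ?_)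
    filter_upwards [eventually_ge_atTop N] with n hn
    exact hN n hn y z (le_max_left _ _) (le_max_right _ _)
  choose V hV using hlim
  have hconv : CConv l (fun n => blow (u n) (e n) (m n)) V := by
    intro y z y₀ z₀ hy hz
    rw [Metric.tendsto_nhds]
    intro ε hε
    obtain ⟨C, hC, N, hN⟩ := h.flat y₀ z₀ (ρ := ε / 32) (by positivity)
    have h1 : Tendsto (fun n => ‖y n - y₀‖ + |z n - z₀| * (1 + C)) l (𝓝 0) := by
      have h2 : Tendsto (fun n => ‖y n - y₀‖) l (𝓝 0) := tendsto_iff_norm_sub_tendsto_zero.1 hy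
      have h3 : Tendsto (fun n => |z n - z₀|) l (𝓝 0) := by
        have := tendsto_iff_norm_sub_tendsto_zero.1 hz
        simpa [Real.norm_eq_abs] using this
      have h4 := h2.add (h3.mul_const (1 + C))
      simpa using h4
    have h5 : ∀ᶠ n in (l : Filter ℕ), ‖y n - y₀‖ + |z n - z₀| * (1 + C)
        < min (ε / 32) (ε / (8 * (1 + C))) := h1.eventually_lt_const (by positivity)
    have h6 : ∀ᶠ n in (l : Filter ℕ), dist (blow (u n) (e n) (m n) y₀ z₀) (V y₀ z₀) < ε / 4 :=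
      (Metric.tendsto_nhds.1 (hV y₀ z₀)) (ε / 4) (by positivity)
    have h7 : ∀ᶠ n in (l : Filter ℕ), N ≤ n := hl (eventually_ge_atTop N)
    filter_upwards [h5, h6, h7] with n h5 h6 h7
    obtain ⟨v, s, hv, hs, had⟩ := hN n h7
    have hz0 : 0 ≤ |z n - z₀| := abs_nonneg _
    have hy0 : 0 ≤ ‖y n - y₀‖ := norm_nonneg _
    have h5a := lt_of_lt_of_le h5 (min_le_left _ _)
    have h5b := lt_of_lt_of_le h5 (min_le_right _ _)
    have hzC : 0 ≤ |z n - z₀| * C := by positivity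
    have h8 : |z n - z₀| ≤ ε / 32 := by linarith
    have h9 : ‖y n - y₀ - (z n - z₀) • v‖ ≤ ε / 32 := by
      calc ‖y n - y₀ - (z n - z₀) • v‖ ≤ ‖y n - y₀‖ + ‖(z n - z₀) • v‖ := norm_sub_le _ _
        _ ≤ ‖y n - y₀‖ + |z n - z₀| * C := by
            rw [norm_smul, Real.norm_eq_abs]
            have := mul_le_mul_of_nonneg_left hv hz0
            linarith
        _ ≤ ε / 32 := by linarith
    have h10 := had (y n) (z n) h8 h9
    have h11 : |⟪v, y n - y₀⟫| ≤ C * ‖y n - y₀‖ :=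
      (abs_real_inner_le_norm _ _).trans (mul_le_mul_of_nonneg_right hv hy0)
    have h12 : |s * (z n - z₀)| ≤ C * |z n - z₀| := by
      rw [abs_mul]
      exact mul_le_mul_of_nonneg_right hs hz0
    have h13 : C * (‖y n - y₀‖ + |z n - z₀|) ≤ ε / 8 := by
      have h14 : (1 + C) * (‖y n - y₀‖ + |z n - z₀| * (1 + C)) ≤ ε / 8 := by
        have := mul_le_mul_of_nonneg_left h5b.le (by positivity : (0:ℝ) ≤ 1 + C)
        refine this.trans (le_of_eq ?_)
        field_simp
      nlinarith [mul_nonneg hC.le hz0, mul_nonneg (mul_nonneg hC.le hC.le) hz0,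
        mul_nonneg hC.le hy0]
    rw [Real.dist_eq] at h6 ⊢
    have h15 := abs_le.1 h10
    have h16 := abs_le.1 h11
    have h17 := abs_le.1 h12
    have h18 := abs_lt.1 h6
    rw [abs_lt]
    constructor <;> nlinarith
  refine ⟨V, ?_, ?_, hconv⟩
  · have h0 : ∀ n, blow (u n) (e n) (m n) 0 0 = 0 := by
      intro n
      simp [blow, chart, h.u0 n]
    have h1 := hV 0 0
    simp only [h0] at h1
    exact (tendsto_nhds_unique h1 tendsto_const_nhds)
  · intro x z r hr
    obtain ⟨C, hC, N, hN⟩ := h.flat x z hr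
    have h7 : ∀ᶠ n in (l : Filter ℕ), N ≤ n := hl (eventually_ge_atTop N)
    have hex : ∀ n, ∃ (v : E) (s : ℝ), N ≤ n → (‖v‖ ≤ C ∧ |s| ≤ C ∧
        Adapted 8 (blow (u n) (e n) (m n)) x z r v s) := by
      intro n
      by_cases hn : N ≤ n
      · obtain ⟨v, s, h1, h2, h3⟩ := hN n hn
        exact ⟨v, s, fun _ => ⟨h1, h2, h3⟩⟩
      · exact ⟨0, 0, fun h => absurd h hn⟩
    choose v s hvs using hex
    obtain ⟨v₀, hv₀⟩ := cb2_vec_limit l (f := v) (C := C) (by
      filter_upwards [h7] with n hn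
      exact (hvs n hn).1)
    obtain ⟨s₀, hs₀⟩ := cb2_real_limit l (f := s) (C := C) (by
      filter_upwards [h7] with n hn
      exact (hvs n hn).2.1)
    refine ⟨v₀, s₀, fun y z' h1 h2 => ?_⟩
    have hy : Tendsto (fun n => y + (z' - z) • (v n - v₀)) l (𝓝 y) := by
      have h3 : Tendsto (fun n => y + (z' - z) • (v n - v₀)) l
          (𝓝 (y + (z' - z) • (v₀ - v₀))) :=
        tendsto_const_nhds.add ((hv₀.sub_const v₀).const_smul (z' - z))
      simpa using h3
    have h4 := hconv _ (fun _ => z') y z' hy tendsto_const_nhds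
    have h5 := hV x z
    have h6 : Tendsto (fun n => ⟪v n, (y + (z' - z) • (v n - v₀)) - x⟫) l
        (𝓝 ⟪v₀, y - x⟫) := hv₀.inner (hy.sub_const x)
    have h8 : Tendsto (fun n => s n * (z' - z)) l (𝓝 (s₀ * (z' - z))) := hs₀.mul_const _
    have h9 := (((h4.sub h5).sub h6).sub h8).abs
    refine le_of_tendsto h9 ?_
    filter_upwards [h7] with n hn
    refine (hvs n hn).2.2 _ z' h1 ?_
    have h10 : y + (z' - z) • (v n - v₀) - x - (z' - z) • v n = y - x - (z' - z) • v₀ := by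
      rw [smul_sub]
      abel
    rw [h10]
    exact h2

end Vale.Agent.P080
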