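import Vale.Agent.P080M.C_BDefs

/-! Part C, module CB1: blow-up sequences, bounds (step (27) (a)-(b)). -/

open Metric Set Filter Topology
open scoped RealInnerProductSpace

namespace Vale.Agent.P080

variable {E : Type*} [NormedAddCommGroup E] [InnerProductSpace ℝ E]

theorem BSeq.neg {u : ℕ → E → ℝ} {m : ℕ → ℝ} {e : ℕ → E} (h : BSeq u m e) :
    BSeq (fun n y => -u n y) m (fun n => -e n) := by
  refine ⟨fun n => by simp [h.u0 n], h.m_pos, h.m_le, fun n => by simp [h.e_norm n],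
    fun n => (h.nf0 n).neg, ?_, h.dn, ?_⟩
  · intro n x' r' h1 h2 h3
    obtain ⟨p', h4, h5, h6⟩ := h.nf n x' r' h1 h2 h3
    exact ⟨-p', by rwa [norm_neg], by rwa [norm_neg], h6.neg⟩
  · intro n
    simpa using h.up n

theorem chart_neg (e : E) (m : ℝ) (y : E) (z : ℝ) : chart (-e) m y z = chart e m y (-z) := by
  unfold chart
  simp only [inner_neg_left, smul_neg, neg_smul, neg_neg]

theorem blow_neg (u : E → ℝ) (e : E) (m : ℝ) :
    blow (fun y => -u y) (-e) m = refl (blow u e m) := by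
  funext y z
  simp only [blow, refl, chart_neg]
  rw [← neg_div]
  congr 1
  ring

/-- projection bound -/
theorem norm_proj_le {e : E} (he : ‖e‖ = 1) (y : E) : ‖y - ⟪e, y⟫ • e‖ ≤ ‖y‖ := by
  have h1 : ‖y - ⟪e, y⟫ • e‖ ^ 2 = ‖y‖ ^ 2 - ⟪e, y⟫ ^ 2 := by
    rw [norm_sub_sq_real, inner_smul_right, norm_smul, he, real_inner_comm, Real.norm_eq_abs,
      mul_one, sq_abs]
    ring
  have h2 : ‖y - ⟪e, y⟫ • e‖ ^ 2 ≤ ‖y‖ ^ 2 := by rw [h1]; nlinarith [sq_nonneg ⟪e, y⟫]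
  exact (pow_le_pow_iff_left₀ (norm_nonneg _) (norm_nonneg _) two_ne_zero).1 h2

theorem inner_proj {e : E} (he : ‖e‖ = 1) (y : E) : ⟪e, y - ⟪e, y⟫ • e⟫ = 0 := by
  rw [inner_sub_right, inner_smul_right, real_inner_self_eq_norm_sq, he]
  ring

theorem norm_chart_le {e : E} (he : ‖e‖ = 1) (m : ℝ) (y : E) (z : ℝ) :
    ‖chart e m y z‖ ≤ |z| + √m * ‖y‖ := by
  unfold chart
  refine (norm_add_le _ _).trans ?_
  rw [norm_smul, norm_smul, he, Real.norm_eq_abs, Real.norm_of_nonneg (Real.sqrt_nonneg m), mul_one]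
  have := mul_le_mul_of_nonneg_left (norm_proj_le he y) (Real.sqrt_nonneg m)
  linarith

theorem inner_e_chart {e : E} (he : ‖e‖ = 1) (m : ℝ) (y : E) (z : ℝ) :
    ⟪e, chart e m y z⟫ = z := by
  unfold chart
  rw [inner_add_right, inner_smul_right, inner_smul_right, inner_proj he,
    real_inner_self_eq_norm_sq, he]
  ring

theorem chart_sub (e : E) (m : ℝ) (y y' : E) (z z' : ℝ) :
    chart e m y' z' - chart e m y z
      = (z' - z) • e + √m • ((y' - y) - ⟪e, y' - y⟫ • e) := by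
  unfold chart
  rw [inner_sub_right]
  module

theorem BSeq.m_le_one {u : ℕ → E → ℝ} {m : ℕ → ℝ} {e : ℕ → E} (h : BSeq u m e) (n : ℕ) :
    m n ≤ 1 := by
  refine (h.m_le n).trans ?_
  rw [div_le_one (by positivity)]
  have : (0 : ℝ) ≤ n := Nat.cast_nonneg n
  linarith

theorem BSeq.chain {u : ℕ → E → ℝ} {m : ℕ → ℝ} {e : ℕ → E} (h : BSeq u m e) (n : ℕ) (k : ℕ)
    (hk : (2 : ℝ) ^ k ≤ (n : ℝ) + 2) (p : E) (hp : NF (u n) 0 (2 ^ k) p (m n) 4) :
    ‖p - e n‖ ≤ 12 * ((k : ℝ) + 1) * √(m n) := by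
  have hm := h.m_pos n
  have hm1 := h.m_le_one n
  have hs := Real.sqrt_nonneg (m n)
  induction k generalizing p with
  | zero =>
    have h1 := NF.cmp_same hm hm1 one_pos le_rfl (h.nf0 n) (by simpa using hp)
    rw [norm_sub_rev]
    norm_num at h1 ⊢
    nlinarith
  | succ k ih =>
    have hk' : (2 : ℝ) ^ k ≤ (n : ℝ) + 2 := by
      refine le_trans ?_ hk
      exact pow_le_pow_right₀ (by norm_num) (Nat.le_succ k)
    have hn0 : (0 : ℝ) ≤ n := Nat.cast_nonneg n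
    obtain ⟨p', -, -, hp'⟩ := h.nf n 0 (2 ^ k) (by rw [norm_zero]; positivity) (by
      refine le_trans ?_ (one_le_pow₀ (by norm_num : (1 : ℝ) ≤ 2))
      rw [div_le_one (by positivity)]
      linarith) hk'
    have h1 := ih hk' p' hp'
    have h2 := NF.cmp_same hm hm1 (by positivity : (0 : ℝ) < 2 ^ k)
      (pow_le_pow_right₀ (by norm_num) (Nat.le_succ k)) hp' hp
    have h3 : (2 : ℝ) ^ (k + 1) / 2 ^ k = 2 := by
      rw [pow_succ]
      field_simp
    rw [h3] at h2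
    have h4 : ‖p - e n‖ ≤ ‖p' - p‖ + ‖p' - e n‖ := by
      have : p - e n = -(p' - p) + (p' - e n) := by abel
      rw [this]
      refine (norm_add_le _ _).trans ?_
      rw [norm_neg]
    push_cast
    nlinarith

/-- existence of a large dyadic scale -/
theorem exists_dyadic (a b : ℝ) : ∃ k : ℕ, a * ((k : ℝ) + 1) + b ≤ 2 ^ k := by
  have h1 : Tendsto (fun k : ℕ => (a * ((k : ℝ) + 1) + b) / 2 ^ k) atTop (𝓝 0) := by
    have h2 : Tendsto (fun k : ℕ => (k : ℝ) * (1 / 2 : ℝ) ^ k) atTop (𝓝 0) :=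
      tendsto_self_mul_const_pow_of_lt_one (by norm_num) (by norm_num)
    have h3 : Tendsto (fun k : ℕ => (1 / 2 : ℝ) ^ k) atTop (𝓝 0) :=
      tendsto_pow_atTop_nhds_zero_of_lt_one (by norm_num) (by norm_num)
    have h4 := (h2.const_mul a).add (h3.const_mul (a + b))
    have e : (fun k : ℕ => (a * ((k : ℝ) + 1) + b) / 2 ^ k)
        = fun k : ℕ => a * ((k : ℝ) * (1 / 2 : ℝ) ^ k) + (a + b) * (1 / 2 : ℝ) ^ k := by
      funext k
      rw [one_div, inv_pow]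
      field_simp
      ring
    rw [e]
    simpa using h4
  have h5 := h1.eventually (gt_mem_nhds (show (0 : ℝ) < 1 by norm_num))
  obtain ⟨k, hk⟩ := h5.exists
  refine ⟨k, ?_⟩
  rw [div_lt_one (by positivity)] at hk
  exact hk.le

/-- vertical closeness of the direction at scale `2^k` -/
theorem BSeq.vert {u : ℕ → E → ℝ} {m : ℕ → ℝ} {e : ℕ → E} (h : BSeq u m e) (n : ℕ) (k : ℕ)
    (hk : (2 : ℝ) ^ k ≤ (n : ℝ) + 2) (p : E) (hp0 : p ≠ 0)
    (hp : NF (u n) 0 (2 ^ k) p (m n) 4) :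
    |⟪p - e n, e n⟫| ≤ 48 * ((k : ℝ) + 1) * (2 + 2 ^ k) * m n := by
  have hm := h.m_pos n
  have hm1 := h.m_le_one n
  have hs := Real.sqrt_nonneg (m n)
  have he := h.e_norm n
  have hc := h.chain n k hk p hp
  have hk0 : (0 : ℝ) ≤ k := Nat.cast_nonneg k
  set η : ℝ := 1 / (12 * ((k : ℝ) + 1)) with hη
  have hηpos : 0 < η := by positivity
  have hη1 : η ≤ 1 := by
    rw [hη, div_le_one (by positivity)]
    linarith
  have h2k : (1 : ℝ) ≤ 2 ^ k := one_le_pow₀ (by norm_num)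
  have hηk : η * (12 * ((k : ℝ) + 1)) = 1 := by
    rw [hη]
    field_simp
  have he0 : e n ≠ 0 := by
    intro h0
    rw [h0, norm_zero] at he
    norm_num at he
  have hpe : ‖p - e n‖ * η ≤ √(m n) := by
    calc ‖p - e n‖ * η ≤ 12 * ((k : ℝ) + 1) * √(m n) * η :=
          mul_le_mul_of_nonneg_right hc hηpos.le
      _ = √(m n) * (η * (12 * ((k : ℝ) + 1))) := by ring
      _ = √(m n) := by rw [hηk, mul_one]
  have hmem0 : (0 : E) ∈ Cyl (e n) 0 1 (m n) := by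
    refine ⟨?_, ?_⟩
    · simp
    · simp
  have hmem1 : (0 : E) + η • e n ∈ Cyl (e n) 0 1 (m n) := by
    refine mem_cyl_of_near he0 (c := η) ?_ ?_
    · rw [zero_add, sub_zero, inner_smul_right, real_inner_self_eq_norm_sq, he]
      rw [abs_of_nonneg (by positivity)]
      linarith
    · rw [zero_add, sub_zero, sub_self, norm_zero]
      positivity
  have hmem2 : (0 : E) + η • e n ∈ Cyl p 0 (2 ^ k) (m n) := by
    refine mem_cyl_of_near hp0 (c := η) ?_ ?_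
    · rw [zero_add, sub_zero, inner_smul_right]
      have h1 := abs_real_inner_le_norm p (e n)
      rw [he, mul_one] at h1
      rw [abs_mul, abs_of_pos hηpos]
      have h2 : 0 ≤ |⟪p, e n⟫| := abs_nonneg _
      nlinarith [norm_nonneg p]
    · rw [zero_add, sub_zero, ← smul_sub, norm_smul, Real.norm_of_nonneg hηpos.le, norm_sub_rev]
      nlinarith
  have h1 := NF.cmp_vert (h.nf0 n) hp hmem0 hmem1 hmem2
  rw [inner_smul_right, abs_mul, abs_of_pos hηpos, ← abs_neg, ← inner_neg_left, neg_sub] at h1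
  have h2 : |⟪p - e n, e n⟫| = (η * |⟪p - e n, e n⟫|) * (12 * ((k : ℝ) + 1)) := by
    calc |⟪p - e n, e n⟫| = |⟪p - e n, e n⟫| * (η * (12 * ((k : ℝ) + 1))) := by rw [hηk, mul_one]
      _ = _ := by ring
  rw [h2]
  calc η * |⟪p - e n, e n⟫| * (12 * ((k : ℝ) + 1))
      ≤ 4 * m n * (2 * 1 + 2 ^ k) * (12 * ((k : ℝ) + 1)) :=
        mul_le_mul_of_nonneg_right h1 (by positivity)
    _ = _ := by ring

/-- membership of points near the chart in the cylinder at scale `2^k` -/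
theorem BSeq.mem_big {u : ℕ → E → ℝ} {m : ℕ → ℝ} {e : ℕ → E} (h : BSeq u m e) (n : ℕ) (k : ℕ)
    (hk : (2 : ℝ) ^ k ≤ (n : ℝ) + 2) {p : E} (hp0 : p ≠ 0)
    (hp : NF (u n) 0 (2 ^ k) p (m n) 4) {R σ : ℝ} (hR : 0 ≤ R) (hσ : 0 ≤ σ)
    (hkR : 12 * (R + 1) * ((k : ℝ) + 1) + (2 * R + σ + 1) ≤ 2 ^ k) {y : E} {z : ℝ} (hy : ‖y‖ ≤ R)
    (hz : |z| ≤ R) {c : ℝ} (hc0 : 0 ≤ c) (hc1 : c ≤ 1) {w : E}
    (hw : ‖w - c • e n‖ ≤ √(m n) * σ) :
    chart (e n) (m n) y z + w ∈ Cyl p 0 (2 ^ k) (m n) := by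
  have hm := h.m_pos n
  have hm1 := h.m_le_one n
  have hs := Real.sqrt_nonneg (m n)
  have hs1 : √(m n) ≤ 1 := Real.sqrt_le_one.2 hm1
  have he := h.e_norm n
  have hcn := h.chain n k hk p hp
  have hk0 : (0 : ℝ) ≤ k := Nat.cast_nonneg k
  have hch := norm_chart_le he (m n) y z
  have hwn : ‖w‖ ≤ 1 + σ := by
    have h1 : ‖w‖ ≤ ‖w - c • e n‖ + ‖c • e n‖ := by
      have : w = (w - c • e n) + c • e n := by abel
      calc ‖w‖ = ‖(w - c • e n) + c • e n‖ := by rw [← this]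
        _ ≤ _ := norm_add_le _ _
    rw [norm_smul, he, Real.norm_of_nonneg hc0, mul_one] at h1
    nlinarith
  refine mem_cyl_of_near hp0 (c := z + c) ?_ ?_
  · rw [sub_zero]
    refine (abs_real_inner_le_norm _ _).trans ?_
    refine mul_le_mul_of_nonneg_left ?_ (norm_nonneg p)
    refine (norm_add_le _ _).trans ?_
    have h1 : √(m n) * ‖y‖ ≤ R := by nlinarith [norm_nonneg y]
    have h2 : 0 ≤ 12 * (R + 1) * ((k : ℝ) + 1) := by positivity
    linarith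
  · rw [sub_zero]
    have e1 : chart (e n) (m n) y z + w - (z + c) • p
        = (z + c) • (e n - p) + √(m n) • (y - ⟪e n, y⟫ • e n) + (w - c • e n) := by
      unfold chart
      module
    rw [e1]
    refine (norm_add_le _ _).trans ?_
    refine (add_le_add_left (norm_add_le _ _) _).trans ?_
    rw [norm_smul, norm_smul, Real.norm_of_nonneg hs, norm_sub_rev (e n) p, Real.norm_eq_abs]
    have h1 : |z + c| ≤ R + 1 := by
      refine (abs_add_le _ _).trans ?_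
      rw [abs_of_nonneg hc0]
      linarith
    have h2 : |z + c| * ‖p - e n‖ ≤ (R + 1) * (12 * ((k : ℝ) + 1) * √(m n)) :=
      mul_le_mul h1 hcn (norm_nonneg _) (by linarith)
    have h3 : √(m n) * ‖y - ⟪e n, y⟫ • e n‖ ≤ √(m n) * R :=
      mul_le_mul_of_nonneg_left ((norm_proj_le he y).trans hy) hs
    have h4 : √(m n) * (12 * (R + 1) * ((k : ℝ) + 1) + (2 * R + σ + 1)) ≤ √(m n) * 2 ^ k :=
      mul_le_mul_of_nonneg_left hkR hs
    nlinarith

theorem ne_zero_of_norm_ge {p : E} (h : 1 / 8 ≤ ‖p‖) : p ≠ 0 := by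
  intro h0
  rw [h0, norm_zero] at h
  norm_num at h

/-- (b), data of natural flatness are bounded -/
theorem BSeq.data_bdd {u : ℕ → E → ℝ} {m : ℕ → ℝ} {e : ℕ → E} (h : BSeq u m e) (R : ℝ) {ρ : ℝ}
    (hρ : 0 < ρ) : ∃ C : ℝ, 0 < C ∧ ∃ N : ℕ, ∀ n ≥ N, ∀ (y : E) (z : ℝ), ‖y‖ ≤ R → |z| ≤ R →
      ∀ p' : E, 1 / 8 ≤ ‖p'‖ → ‖p'‖ ≤ 8 → NF (u n) (chart (e n) (m n) y z) ρ p' (m n) 4 →
        ‖p' - e n‖ ≤ C * √(m n) ∧ |⟪p' - e n, e n⟫| ≤ C * m n := by
  set R₁ := max R 0 with hR₁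
  have hR0 : 0 ≤ R₁ := le_max_right _ _
  obtain ⟨k, hk⟩ := exists_dyadic (12 * (R₁ + 1)) (2 * R₁ + ρ + 1)
  have h2k : (0 : ℝ) < 2 ^ k := by positivity
  have hk0 : (0 : ℝ) ≤ k := Nat.cast_nonneg k
  set C₁ : ℝ := 4 * (2 * 2 ^ k + ρ) / ρ + 12 * ((k : ℝ) + 1) with hC₁
  have hC₁pos : 0 < C₁ := by positivity
  set η : ℝ := min 1 (min ρ (ρ / C₁)) with hη
  have hηpos : 0 < η := by
    rw [hη]
    refine lt_min one_pos (lt_min hρ (by positivity))
  have hη1 : η ≤ 1 := min_le_left _ _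
  have hηρ : η ≤ ρ := (min_le_right _ _).trans (min_le_left _ _)
  have hηC : η * C₁ ≤ ρ := by
    have h1 : η ≤ ρ / C₁ := (min_le_right _ _).trans (min_le_right _ _)
    rwa [le_div_iff₀ hC₁pos] at h1
  set C₂ : ℝ := 4 * (2 * 2 ^ k + ρ) / η + 48 * ((k : ℝ) + 1) * (2 + 2 ^ k) with hC₂
  have hC₂pos : 0 < C₂ := by positivity
  obtain ⟨N, hN⟩ := exists_nat_ge ((2 : ℝ) ^ k)
  refine ⟨max C₁ C₂, lt_max_of_lt_left hC₁pos, N, ?_⟩
  intro n hn y z hy hz p' hp1 hp2 hNF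
  have hy' : ‖y‖ ≤ R₁ := hy.trans (le_max_left _ _)
  have hz' : |z| ≤ R₁ := hz.trans (le_max_left _ _)
  have hnk : (2 : ℝ) ^ k ≤ (n : ℝ) + 2 := by
    have : (N : ℝ) ≤ n := by exact_mod_cast hn
    linarith
  have hm := h.m_pos n
  have hm1 := h.m_le_one n
  have hs := Real.sqrt_nonneg (m n)
  have hs0 : 0 < √(m n) := Real.sqrt_pos.2 hm
  have he := h.e_norm n
  have hn0 : (0 : ℝ) ≤ n := Nat.cast_nonneg n
  obtain ⟨p, hpa, hpb, hp⟩ := h.nf n 0 (2 ^ k) (by rw [norm_zero]; positivity) (by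
      refine le_trans ?_ (one_le_pow₀ (by norm_num : (1 : ℝ) ≤ 2))
      rw [div_le_one (by positivity)]
      linarith) hnk
  have hp0 : p ≠ 0 := ne_zero_of_norm_ge hpa
  have hp0' : p' ≠ 0 := ne_zero_of_norm_ge hp1
  have hc := h.chain n k hnk p hp
  have hv := h.vert n k hnk p hp0 hp
  set X := chart (e n) (m n) y z with hX
  have hmemX : ∀ w : E, ‖w‖ ≤ √(m n) * ρ → X + w ∈ Cyl p 0 (2 ^ k) (m n) := by
    intro w hw
    refine h.mem_big n k hnk hp0 hp hR0 hρ.le hk hy' hz' (c := 0) le_rfl zero_le_one ?_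
    rwa [zero_smul, sub_zero]
  have hX0 : X ∈ Cyl p 0 (2 ^ k) (m n) := by
    have := hmemX 0 (by rw [norm_zero]; positivity)
    rwa [add_zero] at this
  have h1 := NF.cmp hm hm1 hρ le_rfl (by norm_num : (0 : ℝ) ≤ 4) h2k.le hp hNF hX0 hmemX
  have h2 : ‖p' - e n‖ ≤ C₁ * √(m n) := by
    have h3 : ‖p' - e n‖ ≤ ‖p - p'‖ + ‖p - e n‖ := by
      have : p' - e n = -(p - p') + (p - e n) := by abel
      rw [this]
      refine (norm_add_le _ _).trans ?_
      rw [norm_neg]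
    have h4 : C₁ * √(m n) = 4 * √(m n) * (2 * 2 ^ k + ρ) / ρ + 12 * ((k : ℝ) + 1) * √(m n) := by
      rw [hC₁]
      ring
    rw [h4]
    linarith
  refine ⟨h2.trans (mul_le_mul_of_nonneg_right (le_max_left _ _) hs), ?_⟩
  have hw1 : X + η • e n ∈ Cyl p 0 (2 ^ k) (m n) := by
    refine h.mem_big n k hnk hp0 hp hR0 hρ.le hk hy' hz' (c := η) hηpos.le hη1 ?_
    rw [sub_self, norm_zero]
    positivity
  have hw2 : X + η • e n ∈ Cyl p' X ρ (m n) := by
    refine mem_cyl_of_near hp0' (c := η) ?_ ?_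
    · rw [add_sub_cancel_left, inner_smul_right, abs_mul, abs_of_pos hηpos]
      have h3 := abs_real_inner_le_norm p' (e n)
      rw [he, mul_one] at h3
      have h4 : 0 ≤ |⟪p', e n⟫| := abs_nonneg _
      nlinarith [norm_nonneg p']
    · rw [add_sub_cancel_left, ← smul_sub, norm_smul, Real.norm_of_nonneg hηpos.le,
        norm_sub_rev]
      calc η * ‖p' - e n‖ ≤ η * (C₁ * √(m n)) := mul_le_mul_of_nonneg_left h2 hηpos.le
        _ = √(m n) * (η * C₁) := by ring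
        _ ≤ √(m n) * ρ := mul_le_mul_of_nonneg_left hηC hs
  have h5 := NF.cmp_vert hp hNF hX0 hw1 hw2
  rw [inner_smul_right, abs_mul, abs_of_pos hηpos] at h5
  have h6 : |⟪p - p', e n⟫| ≤ 4 * (2 * 2 ^ k + ρ) / η * m n := by
    have : |⟪p - p', e n⟫| ≤ 4 * m n * (2 * 2 ^ k + ρ) / η := by
      rw [le_div_iff₀ hηpos]
      linarith
    refine this.trans (le_of_eq ?_)
    ring
  have h7 : |⟪p' - e n, e n⟫| ≤ C₂ * m n := by
    have e2 : ⟪p' - e n, e n⟫ = -⟪p - p', e n⟫ + ⟪p - e n, e n⟫ := by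
      rw [← inner_neg_left, ← inner_add_left]
      congr 1
      abel
    rw [e2]
    refine (abs_add_le _ _).trans ?_
    rw [abs_neg, hC₂, add_mul]
    exact add_le_add h6 hv
  exact h7.trans (mul_le_mul_of_nonneg_right (le_max_right _ _) hm.le)

theorem BSeq.blow_bdd {u : ℕ → E → ℝ} {m : ℕ → ℝ} {e : ℕ → E} (h : BSeq u m e) (R : ℝ) :
    ∃ C : ℝ, 0 < C ∧ ∃ N : ℕ, ∀ n ≥ N, ∀ (y : E) (z : ℝ), ‖y‖ ≤ R → |z| ≤ R →
      |blow (u n) (e n) (m n) y z| ≤ C := by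
  set R₁ := max R 0 with hR₁
  have hR0 : 0 ≤ R₁ := le_max_right _ _
  obtain ⟨k, hk⟩ := exists_dyadic (12 * (R₁ + 1)) (2 * R₁ + 0 + 1)
  have h2k : (0 : ℝ) < 2 ^ k := by positivity
  have hk0 : (0 : ℝ) ≤ k := Nat.cast_nonneg k
  set C₂ : ℝ := 48 * ((k : ℝ) + 1) * (2 + 2 ^ k) with hC₂
  have hC₂pos : 0 < C₂ := by positivity
  obtain ⟨N, hN⟩ := exists_nat_ge ((2 : ℝ) ^ k)
  refine ⟨4 * 2 ^ k + R₁ * C₂ + 12 * ((k : ℝ) + 1) * R₁, by positivity, N, ?_⟩
  intro n hn y z hy hz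
  have hy' : ‖y‖ ≤ R₁ := hy.trans (le_max_left _ _)
  have hz' : |z| ≤ R₁ := hz.trans (le_max_left _ _)
  have hnk : (2 : ℝ) ^ k ≤ (n : ℝ) + 2 := by
    have : (N : ℝ) ≤ n := by exact_mod_cast hn
    linarith
  have hm := h.m_pos n
  have hs := Real.sqrt_nonneg (m n)
  have hss : √(m n) * √(m n) = m n := Real.mul_self_sqrt hm.le
  have he := h.e_norm n
  have hn0 : (0 : ℝ) ≤ n := Nat.cast_nonneg n
  obtain ⟨p, hpa, hpb, hp⟩ := h.nf n 0 (2 ^ k) (by rw [norm_zero]; positivity) (by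
      refine le_trans ?_ (one_le_pow₀ (by norm_num : (1 : ℝ) ≤ 2))
      rw [div_le_one (by positivity)]
      linarith) hnk
  have hp0 : p ≠ 0 := ne_zero_of_norm_ge hpa
  have hc := h.chain n k hnk p hp
  have hv := h.vert n k hnk p hp0 hp
  have hX0 : chart (e n) (m n) y z ∈ Cyl p 0 (2 ^ k) (m n) := by
    have := h.mem_big n k hnk hp0 hp hR0 le_rfl hk hy' hz' (c := 0) le_rfl zero_le_one
      (w := 0) (by rw [zero_smul, sub_zero, norm_zero]; positivity)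
    rwa [add_zero] at this
  have h1 := hp _ hX0
  rw [h.u0 n, sub_zero, sub_zero] at h1
  have h2 : ⟪p, chart (e n) (m n) y z⟫ - z = z * ⟪p - e n, e n⟫
      + √(m n) * ⟪p - e n, y - ⟪e n, y⟫ • e n⟫ := by
    have h3 : ⟪p, chart (e n) (m n) y z⟫ - z = ⟪p - e n, chart (e n) (m n) y z⟫ := by
      rw [inner_sub_left, inner_e_chart he]
    rw [h3]
    unfold chart
    rw [inner_add_right, inner_smul_right, inner_smul_right]
  have h4 : |z * ⟪p - e n, e n⟫| ≤ R₁ * (C₂ * m n) := by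
    rw [abs_mul]
    exact mul_le_mul hz' hv (abs_nonneg _) hR0
  have h5 : |√(m n) * ⟪p - e n, y - ⟪e n, y⟫ • e n⟫| ≤ 12 * ((k : ℝ) + 1) * R₁ * m n := by
    rw [abs_mul, abs_of_nonneg hs]
    have h6 : |⟪p - e n, y - ⟪e n, y⟫ • e n⟫| ≤ 12 * ((k : ℝ) + 1) * √(m n) * R₁ := by
      refine (abs_real_inner_le_norm _ _).trans ?_
      exact mul_le_mul hc ((norm_proj_le he y).trans hy') (norm_nonneg _) (by positivity)
    calc √(m n) * |⟪p - e n, y - ⟪e n, y⟫ • e n⟫|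
        ≤ √(m n) * (12 * ((k : ℝ) + 1) * √(m n) * R₁) := mul_le_mul_of_nonneg_left h6 hs
      _ = 12 * ((k : ℝ) + 1) * R₁ * (√(m n) * √(m n)) := by ring
      _ = _ := by rw [hss]
  have h7 : |u n (chart (e n) (m n) y z) - z|
      ≤ (4 * 2 ^ k + R₁ * C₂ + 12 * ((k : ℝ) + 1) * R₁) * m n := by
    have e1 : u n (chart (e n) (m n) y z) - z
        = (u n (chart (e n) (m n) y z) - ⟪p, chart (e n) (m n) y z⟫)
          + (z * ⟪p - e n, e n⟫ + √(m n) * ⟪p - e n, y - ⟪e n, y⟫ • e n⟫) := by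
      rw [← h2]
      ring
    rw [e1]
    refine (abs_add_le _ _).trans ?_
    have h8 := (abs_add_le (z * ⟪p - e n, e n⟫) (√(m n) * ⟪p - e n, y - ⟪e n, y⟫ • e n⟫))
    have e2 : (4 * 2 ^ k + R₁ * C₂ + 12 * ((k : ℝ) + 1) * R₁) * m n
        = 4 * m n * 2 ^ k + (R₁ * (C₂ * m n) + 12 * ((k : ℝ) + 1) * R₁ * m n) := by ring
    rw [e2]
    linarith
  unfold blow
  rw [abs_div, abs_of_pos hm, div_le_iff₀ hm]
  exact h7

/-- (a)+(b): flatness of the blow-up in its own coordinates, with bounded data. -/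
theorem BSeq.flat {u : ℕ → E → ℝ} {m : ℕ → ℝ} {e : ℕ → E} (h : BSeq u m e) (y : E) (z : ℝ)
    {ρ : ℝ} (hρ : 0 < ρ) : ∃ C : ℝ, 0 < C ∧ ∃ N : ℕ, ∀ n ≥ N, ∃ (v : E) (s : ℝ),
      ‖v‖ ≤ C ∧ |s| ≤ C ∧ Adapted 8 (blow (u n) (e n) (m n)) y z ρ v s := by
  obtain ⟨C, hC, N, hN⟩ := h.data_bdd (max ‖y‖ |z|) (show (0 : ℝ) < 2 * ρ by positivity)
  obtain ⟨N₁, hN₁⟩ := exists_nat_ge (|z| + ‖y‖)
  obtain ⟨N₂, hN₂⟩ := exists_nat_ge (1 / (2 * ρ))
  obtain ⟨N₃, hN₃⟩ := exists_nat_ge (2 * ρ)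
  obtain ⟨N₄, hN₄⟩ := exists_nat_ge ((1 + C) ^ 2)
  refine ⟨C, hC, max N (max N₁ (max N₂ (max N₃ N₄))), ?_⟩
  intro n hn
  have hnN : N ≤ n := (le_max_left _ _).trans hn
  have hn1 : N₁ ≤ n := ((le_max_left _ _).trans (le_max_right _ _)).trans hn
  have hn2 : N₂ ≤ n := ((le_max_left _ _).trans ((le_max_right _ _).trans (le_max_right _ _))).trans hn
  have hn3 : N₃ ≤ n := ((le_max_left _ _).trans ((le_max_right _ _).trans ((le_max_right _ _).trans
    (le_max_right _ _)))).trans hn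
  have hn4 : N₄ ≤ n := ((le_max_right _ _).trans ((le_max_right _ _).trans ((le_max_right _ _).trans
    (le_max_right _ _)))).trans hn
  have hn1' : (N₁ : ℝ) ≤ n := by exact_mod_cast hn1
  have hn2' : (N₂ : ℝ) ≤ n := by exact_mod_cast hn2
  have hn3' : (N₃ : ℝ) ≤ n := by exact_mod_cast hn3
  have hn4' : (N₄ : ℝ) ≤ n := by exact_mod_cast hn4
  have hn0 : (0 : ℝ) ≤ n := Nat.cast_nonneg n
  have hm := h.m_pos n
  have hm1 := h.m_le_one n
  have hs := Real.sqrt_nonneg (m n)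
  have hs0 : 0 < √(m n) := Real.sqrt_pos.2 hm
  have hs1 : √(m n) ≤ 1 := Real.sqrt_le_one.2 hm1
  have hss : √(m n) * √(m n) = m n := Real.mul_self_sqrt hm.le
  have he := h.e_norm n
  -- smallness
  have hsC : √(m n) * (1 + C) ≤ 1 := by
    have h1 : m n * (1 + C) ^ 2 ≤ 1 := by
      calc m n * (1 + C) ^ 2 ≤ 1 / ((n : ℝ) + 1) * ((n : ℝ) + 1) := by
            refine mul_le_mul (h.m_le n) (by linarith) (by positivity) (by positivity)
        _ = 1 := by field_simp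
    have h2 : (√(m n) * (1 + C)) ^ 2 ≤ 1 := by
      rw [mul_pow, Real.sq_sqrt hm.le]
      exact h1
    nlinarith [sq_nonneg (√(m n) * (1 + C) - 1)]
  have hchn : ‖chart (e n) (m n) y z‖ ≤ (n : ℝ) + 2 := by
    have h1 := norm_chart_le he (m n) y z
    have h2 : √(m n) * ‖y‖ ≤ ‖y‖ := by nlinarith [norm_nonneg y]
    linarith
  obtain ⟨p', hpa, hpb, hp⟩ := h.nf n (chart (e n) (m n) y z) (2 * ρ) hchn (by
      rw [div_le_iff₀ (by positivity)]
      have h1 : 1 ≤ N₂ * (2 * ρ) := by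
        rwa [div_le_iff₀ (by positivity)] at hN₂
      nlinarith) (by linarith)
  obtain ⟨hd1, hd2⟩ := hN n hnN y z (le_max_left _ _) (le_max_right _ _) p' hpa hpb hp
  have hp0 : p' ≠ 0 := ne_zero_of_norm_ge hpa
  set v : E := (√(m n))⁻¹ • (p' - ⟪e n, p'⟫ • e n) with hv
  set s : ℝ := (⟪p', e n⟫ - 1) / m n with hs'
  have hev : ⟪e n, v⟫ = 0 := by
    rw [hv, inner_smul_right, inner_proj he, mul_zero]
  have hpv : p' = (1 + m n * s) • e n + √(m n) • v := by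
    rw [hv, hs', smul_smul, mul_inv_cancel₀ hs0.ne', one_smul, mul_div_cancel₀ _ hm.ne',
      real_inner_comm]
    module
  have hvC : ‖v‖ ≤ C := by
    have h1 : p' - ⟪e n, p'⟫ • e n = (p' - e n) - ⟪e n, p' - e n⟫ • e n := by
      rw [inner_sub_right, real_inner_self_eq_norm_sq, he]
      module
    rw [hv, norm_smul, norm_inv, Real.norm_of_nonneg hs, h1]
    rw [inv_mul_le_iff₀ hs0]
    refine (norm_proj_le he _).trans ?_
    linarith
  have hsm : m n * s = ⟪p' - e n, e n⟫ := by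
    rw [hs', mul_div_cancel₀ _ hm.ne', inner_sub_left, real_inner_self_eq_norm_sq, he]
    ring
  have hsC' : |s| ≤ C := by
    have h1 : m n * |s| ≤ m n * C := by
      rw [← abs_of_pos hm, ← abs_mul, abs_of_pos hm, hsm]
      linarith
    exact le_of_mul_le_mul_left h1 hm
  refine ⟨v, s, hvC, hsC', ?_⟩
  intro y' z' h1 h2
  set X := chart (e n) (m n) y z with hX
  set P := chart (e n) (m n) y' z' with hP
  have hPX : P - X = (z' - z) • e n + √(m n) • ((y' - y) - ⟪e n, y' - y⟫ • e n) :=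
    chart_sub (e n) (m n) y y' z z'
  have hyy : ‖y' - y‖ ≤ ρ * (1 + C) := by
    have e1 : y' - y = (y' - y - (z' - z) • v) + (z' - z) • v := by abel
    rw [e1]
    refine (norm_add_le _ _).trans ?_
    rw [norm_smul, Real.norm_eq_abs]
    have h3 : |z' - z| * ‖v‖ ≤ ρ * C := mul_le_mul h1 hvC (norm_nonneg _) hρ.le
    linarith
  have hmem : P ∈ Cyl p' X (2 * ρ) (m n) := by
    refine mem_cyl_of_near hp0 (c := z' - z) ?_ ?_
    · refine (abs_real_inner_le_norm _ _).trans ?_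
      refine mul_le_mul_of_nonneg_left ?_ (norm_nonneg _)
      rw [hPX]
      refine (norm_add_le _ _).trans ?_
      rw [norm_smul, norm_smul, he, Real.norm_eq_abs, Real.norm_of_nonneg hs, mul_one]
      have h3 : √(m n) * ‖(y' - y) - ⟪e n, y' - y⟫ • e n‖ ≤ √(m n) * (ρ * (1 + C)) :=
        mul_le_mul_of_nonneg_left ((norm_proj_le he _).trans hyy) hs
      have h4 : √(m n) * (ρ * (1 + C)) = ρ * (√(m n) * (1 + C)) := by ring
      have h5 : ρ * (√(m n) * (1 + C)) ≤ ρ * 1 := mul_le_mul_of_nonneg_left hsC hρ.le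
      linarith
    · have e1 : P - X - (z' - z) • p'
          = √(m n) • ((y' - y - (z' - z) • v) - ⟪e n, y' - y - (z' - z) • v⟫ • e n)
            + (-(z' - z) * (m n * s)) • e n := by
        rw [hPX, inner_sub_right (e n) (y' - y), inner_smul_right, hev]
        conv_lhs => rw [hpv]
        module
      rw [e1]
      refine (norm_add_le _ _).trans ?_
      rw [norm_smul, norm_smul, he, Real.norm_eq_abs, Real.norm_eq_abs, mul_one,
        abs_of_nonneg hs]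
      have h3 : √(m n) * ‖(y' - y - (z' - z) • v) - ⟪e n, y' - y - (z' - z) • v⟫ • e n‖
          ≤ √(m n) * ρ := mul_le_mul_of_nonneg_left ((norm_proj_le he _).trans h2) hs
      have h4 : |-(z' - z) * (m n * s)| ≤ √(m n) * ρ := by
        rw [abs_mul, abs_neg, abs_mul, abs_of_pos hm]
        calc |z' - z| * (m n * |s|) ≤ ρ * (m n * C) :=
              mul_le_mul h1 (mul_le_mul_of_nonneg_left hsC' hm.le) (by positivity) hρ.le
          _ = √(m n) * ρ * (√(m n) * C) := by linear_combination (-(ρ * C)) * hss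
          _ ≤ √(m n) * ρ * 1 := by
              refine mul_le_mul_of_nonneg_left ?_ (by positivity)
              nlinarith
          _ = √(m n) * ρ := mul_one _
      linarith
  have h3 := hp P hmem
  have h4 : ⟪p', P - X⟫ = (z' - z) * (1 + m n * s) + m n * ⟪v, y' - y⟫ := by
    rw [hPX, inner_add_right, inner_smul_right, inner_smul_right]
    have h5 : ⟪p', e n⟫ = 1 + m n * s := by
      rw [hs', mul_div_cancel₀ _ hm.ne']
      ring
    have h6 : ⟪p', (y' - y) - ⟪e n, y' - y⟫ • e n⟫ = √(m n) * ⟪v, y' - y⟫ := by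
      have h7 : ⟪e n, (y' - y) - ⟪e n, y' - y⟫ • e n⟫ = 0 := inner_proj he _
      have h8 : ⟪v, (y' - y) - ⟪e n, y' - y⟫ • e n⟫ = ⟪v, y' - y⟫ := by
        have hev' : ⟪v, e n⟫ = 0 := by rw [real_inner_comm]; exact hev
        rw [inner_sub_right, inner_smul_right, hev', mul_zero, sub_zero]
      conv_lhs => rw [hpv]
      rw [inner_add_left, inner_smul_left, inner_smul_left, h7, h8]
      simp
    rw [h5, h6, ← mul_assoc, hss]
  have h5 : blow (u n) (e n) (m n) y' z' - blow (u n) (e n) (m n) y z - ⟪v, y' - y⟫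
      - s * (z' - z) = (u n P - u n X - ⟪p', P - X⟫) / m n := by
    rw [h4]
    unfold blow
    rw [← hP, ← hX]
    field_simp
    ring
  rw [h5, abs_div, abs_of_pos hm, div_le_iff₀ hm]
  calc |u n P - u n X - ⟪p', P - X⟫| ≤ 4 * m n * (2 * ρ) := h3
    _ = 8 * ρ * m n := by ring

end Vale.Agent.P080
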