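import Vale.Agent.P080.MDefs

/-! Part C, module CG: growth of functions satisfying the flatness property (steps (1),(3),(4)). -/

open Metric Set Filter Topology
open scoped RealInnerProductSpace

namespace Vale.Agent.P080

variable {E : Type*} [NormedAddCommGroup E] [InnerProductSpace ℝ E]

/-- flatness at all points and scales -/
def Flt (K : ℝ) (W : E → ℝ → ℝ) : Prop :=
  ∀ (x : E) (z r : ℝ), 0 < r → ∃ (v : E) (s : ℝ), Adapted K W x z r v s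

theorem cg_norm_le {q : E} {ρ B : ℝ} (hρ : 0 < ρ) (hB : 0 ≤ B)
    (h : ∀ w : E, ‖w‖ ≤ ρ → |⟪q, w⟫| ≤ B) : ‖q‖ ≤ B / ρ := by
  rcases eq_or_ne q 0 with rfl | hq
  · rw [norm_zero]; positivity
  have hq0 : 0 < ‖q‖ := norm_pos_iff.2 hq
  have h1 := h ((ρ / ‖q‖) • q) (by
    rw [norm_smul, Real.norm_eq_abs, abs_of_pos (by positivity)]
    rw [div_mul_cancel₀ _ hq0.ne'])
  rw [inner_smul_right, real_inner_self_eq_norm_sq] at h1
  have e : ρ / ‖q‖ * ‖q‖ ^ 2 = ρ * ‖q‖ := by field_simp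
  rw [e, abs_of_nonneg (by positivity)] at h1
  rw [le_div_iff₀ hρ]
  linarith

/-- step (1): comparison of adapted data at the same point at scales `ρ` and `2ρ` -/
theorem cg_step {K : ℝ} (hK : 1 ≤ K) {W : E → ℝ → ℝ} {x : E} {z ρ : ℝ} (hρ : 0 < ρ) {v v' : E}
    {s s' : ℝ} (h : Adapted K W x z ρ v s) (h' : Adapted K W x z (2 * ρ) v' s') :
    ‖v - v'‖ ≤ 3 * K ∧ |(s + ‖v‖ ^ 2 / 2) - (s' + ‖v'‖ ^ 2 / 2)| ≤ 14 * K ^ 2 := by
  have h1 : ‖v - v'‖ ≤ (K * ρ + K * (2 * ρ)) / ρ := by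
    apply cg_norm_le hρ (by positivity)
    intro w hw
    have a1 := h (x + w) z (by rw [sub_self, abs_zero]; exact hρ.le)
      (by rw [sub_self, zero_smul, sub_zero, add_sub_cancel_left]; exact hw)
    have a2 := h' (x + w) z (by rw [sub_self, abs_zero]; positivity)
      (by rw [sub_self, zero_smul, sub_zero, add_sub_cancel_left]; linarith)
    rw [add_sub_cancel_left, sub_self, mul_zero, sub_zero] at a1 a2
    rw [inner_sub_left]
    rw [abs_le] at a1 a2 ⊢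
    constructor <;> linarith [a1.1, a1.2, a2.1, a2.2]
  have h2 : ‖v - v'‖ ≤ 3 * K := by
    refine h1.trans (le_of_eq ?_)
    field_simp; ring
  refine ⟨h2, ?_⟩
  set t : ℝ := ρ / (3 * K) with ht
  have ht0 : 0 < t := by positivity
  have htρ : t ≤ ρ := by
    rw [ht, div_le_iff₀ (by positivity)]; nlinarith
  have a1 := h (x + t • v) (z + t) (by rw [add_sub_cancel_left, abs_of_pos ht0]; exact htρ)
    (by rw [add_sub_cancel_left, add_sub_cancel_left, sub_self, norm_zero]; exact hρ.le)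
  have a2 := h' (x + t • v) (z + t) (by
      rw [add_sub_cancel_left, abs_of_pos ht0]; linarith)
    (by
      rw [add_sub_cancel_left, add_sub_cancel_left, ← smul_sub, norm_smul, Real.norm_eq_abs,
        abs_of_pos ht0]
      calc t * ‖v - v'‖ ≤ t * (3 * K) := mul_le_mul_of_nonneg_left h2 ht0.le
        _ = ρ := by rw [ht]; field_simp
        _ ≤ 2 * ρ := by linarith)
  rw [add_sub_cancel_left, add_sub_cancel_left, inner_smul_right] at a1 a2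
  have a3 : |t * (⟪v, v⟫ - ⟪v', v⟫ + (s - s'))| ≤ 3 * K * ρ := by
    have e : t * (⟪v, v⟫ - ⟪v', v⟫ + (s - s')) =
        (W (x + t • v) (z + t) - W x z - t * ⟪v', v⟫ - s' * t) -
        (W (x + t • v) (z + t) - W x z - t * ⟪v, v⟫ - s * t) := by ring
    rw [e]
    rw [abs_le] at a1 a2 ⊢
    constructor <;> linarith [a1.1, a1.2, a2.1, a2.2]
  rw [abs_mul, abs_of_pos ht0] at a3
  have a4 : |⟪v, v⟫ - ⟪v', v⟫ + (s - s')| ≤ 9 * K ^ 2 := by
    have e : 3 * K * ρ = t * (9 * K ^ 2) := by rw [ht]; field_simp; ring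
    rw [e] at a3
    exact le_of_mul_le_mul_left a3 ht0
  have e : (s + ‖v‖ ^ 2 / 2) - (s' + ‖v'‖ ^ 2 / 2) =
      (⟪v, v⟫ - ⟪v', v⟫ + (s - s')) - ‖v - v'‖ ^ 2 / 2 := by
    rw [@norm_sub_sq_real, real_inner_self_eq_norm_sq, real_inner_comm v v']
    ring
  have h3 : ‖v - v'‖ ^ 2 ≤ (3 * K) ^ 2 := pow_le_pow_left₀ (norm_nonneg _) h2 2
  have h4 : 0 ≤ ‖v - v'‖ ^ 2 := sq_nonneg _
  rw [e]
  rw [abs_le] at a4 ⊢
  constructor <;> nlinarith [a4.1, a4.2]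

/-- linear and quadratic bounds for the dyadic data -/
theorem cg_bounds {K : ℝ} (hK : 1 ≤ K) {W : E → ℝ → ℝ} (hW : Flt K W) (x : E) (z : ℝ) :
    ∃ (c : ℝ) (v : ℕ → E) (s : ℕ → ℝ), 1 ≤ c ∧ (∀ k, Adapted K W x z (2 ^ k) (v k) (s k)) ∧
      (∀ k : ℕ, 1 + ‖v k‖ ≤ c * ((k : ℝ) + 1)) ∧ (∀ k : ℕ, |s k| ≤ c * ((k : ℝ) + 1) ^ 2) := by
  have hex : ∀ k : ℕ, ∃ (v : E) (s : ℝ), Adapted K W x z (2 ^ k) v s := fun k =>
    hW x z (2 ^ k) (by positivity)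
  choose v s hvs using hex
  -- bounds for the data
  have hstep : ∀ k : ℕ, ‖v k - v (k + 1)‖ ≤ 3 * K ∧
      |(s k + ‖v k‖ ^ 2 / 2) - (s (k + 1) + ‖v (k + 1)‖ ^ 2 / 2)| ≤ 14 * K ^ 2 := by
    intro k
    have h2 := hvs (k + 1)
    rw [pow_succ, mul_comm] at h2
    exact cg_step hK (by positivity) (hvs k) h2
  have hv : ∀ k : ℕ, ‖v k‖ ≤ ‖v 0‖ + 3 * K * k := by
    intro k
    induction k with
    | zero => simp
    | succ k ih =>
      have h1 := (hstep k).1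
      have h2 : ‖v (k + 1)‖ ≤ ‖v k‖ + ‖v k - v (k + 1)‖ := by
        have := norm_sub_norm_le (v (k + 1)) (v k)
        rw [norm_sub_rev] at this
        linarith
      push_cast
      linarith
  have hf : ∀ k : ℕ, |s k + ‖v k‖ ^ 2 / 2| ≤ |s 0 + ‖v 0‖ ^ 2 / 2| + 14 * K ^ 2 * k := by
    intro k
    induction k with
    | zero => simp
    | succ k ih =>
      have h1 := (hstep k).2
      have h2 : |s (k + 1) + ‖v (k + 1)‖ ^ 2 / 2| ≤ |s k + ‖v k‖ ^ 2 / 2| +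
          |(s k + ‖v k‖ ^ 2 / 2) - (s (k + 1) + ‖v (k + 1)‖ ^ 2 / 2)| := by
        have := abs_sub_abs_le_abs_sub (s (k + 1) + ‖v (k + 1)‖ ^ 2 / 2) (s k + ‖v k‖ ^ 2 / 2)
        rw [abs_sub_comm] at this
        linarith
      push_cast
      linarith
  -- a common constant
  have hV0 : 0 ≤ ‖v 0‖ + 3 * K := by positivity
  have hF0 : 0 ≤ |s 0 + ‖v 0‖ ^ 2 / 2| + 14 * K ^ 2 := by positivity
  obtain ⟨V, hV⟩ : ∃ V : ℝ, V = ‖v 0‖ + 3 * K := ⟨_, rfl⟩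
  obtain ⟨F, hF⟩ : ∃ F : ℝ, F = |s 0 + ‖v 0‖ ^ 2 / 2| + 14 * K ^ 2 := ⟨_, rfl⟩
  rw [← hV] at hV0
  rw [← hF] at hF0
  have hvV : ∀ k : ℕ, ‖v k‖ ≤ V * ((k : ℝ) + 1) := by
    intro k
    have h1 := hv k
    have hk : (0 : ℝ) ≤ k := Nat.cast_nonneg k
    have h2 : 0 ≤ ‖v 0‖ * k := by positivity
    have h3 : V * ((k : ℝ) + 1) = ‖v 0‖ + 3 * K * k + ‖v 0‖ * k + 3 * K := by rw [hV]; ring
    rw [h3]; linarith
  refine ⟨1 + V + (F + V ^ 2), v, s, ?_, hvs, ?_, ?_⟩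
  · have : 0 ≤ V ^ 2 := sq_nonneg _
    linarith
  · intro k
    have h2 := hvV k
    have hk : (0 : ℝ) ≤ k := Nat.cast_nonneg k
    have h3 : 0 ≤ (F + V ^ 2) * ((k : ℝ) + 1) := by positivity
    have e : (1 + V + (F + V ^ 2)) * ((k : ℝ) + 1) =
        (k : ℝ) + 1 + V * ((k : ℝ) + 1) + (F + V ^ 2) * ((k : ℝ) + 1) := by ring
    rw [e]; linarith
  · intro k
    have hk : (0 : ℝ) ≤ k := Nat.cast_nonneg k
    have h1 := hf k
    have h3 : ‖v k‖ ^ 2 ≤ (V * ((k : ℝ) + 1)) ^ 2 := pow_le_pow_left₀ (norm_nonneg _) (hvV k) 2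
    have h4 : |s k| ≤ |s k + ‖v k‖ ^ 2 / 2| + ‖v k‖ ^ 2 / 2 := by
      have := abs_sub (s k + ‖v k‖ ^ 2 / 2) (‖v k‖ ^ 2 / 2)
      rw [add_sub_cancel_right, abs_of_nonneg (by positivity : 0 ≤ ‖v k‖ ^ 2 / 2)] at this
      exact this
    have h5 : |s k + ‖v k‖ ^ 2 / 2| ≤ F * ((k : ℝ) + 1) ^ 2 := by
      refine h1.trans ?_
      have b1 : 0 ≤ |s 0 + ‖v 0‖ ^ 2 / 2| := abs_nonneg _
      have b2 : (1 : ℝ) ≤ ((k : ℝ) + 1) ^ 2 := by nlinarith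
      have b3 : (k : ℝ) ≤ ((k : ℝ) + 1) ^ 2 := by nlinarith
      have b4 := mul_le_mul_of_nonneg_left b2 b1
      have b5 := mul_le_mul_of_nonneg_left b3 (by positivity : 0 ≤ 14 * K ^ 2)
      have e : F * ((k : ℝ) + 1) ^ 2 = |s 0 + ‖v 0‖ ^ 2 / 2| * ((k : ℝ) + 1) ^ 2 +
          14 * K ^ 2 * ((k : ℝ) + 1) ^ 2 := by rw [hF]; ring
      rw [e]; linarith
    have h6 : 0 ≤ (1 + V) * ((k : ℝ) + 1) ^ 2 := by positivity
    have h7 : 0 ≤ (V * ((k : ℝ) + 1)) ^ 2 := sq_nonneg _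
    have e : (1 + V + (F + V ^ 2)) * ((k : ℝ) + 1) ^ 2 = (1 + V) * ((k : ℝ) + 1) ^ 2 +
        F * ((k : ℝ) + 1) ^ 2 + (V * ((k : ℝ) + 1)) ^ 2 := by ring
    rw [e]
    linarith

/-- the estimate on the `k`-th cylinder -/
theorem cg_cyl {K : ℝ} {W : E → ℝ → ℝ} {x : E} {z c a P : ℝ} {v : E}
    {s : ℝ} (hc1 : 1 ≤ c) (ha : 1 ≤ a) (h : Adapted K W x z P v s)
    (hv : 1 + ‖v‖ ≤ c * a) (hs : |s| ≤ c * a ^ 2) (y : E) (z' : ℝ)
    (hk1 : (|z' - z| + ‖y - x‖) * (c * a) ≤ P) :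
    |W y z' - W x z| ≤ 2 * c * a ^ 2 * (|z' - z| + ‖y - x‖) + K * P := by
  obtain ⟨D, hD⟩ : ∃ D : ℝ, D = |z' - z| + ‖y - x‖ := ⟨_, rfl⟩
  rw [← hD] at hk1 ⊢
  have hc0 : 0 < c := by linarith
  have hD0 : 0 ≤ D := by rw [hD]; positivity
  have hDz : |z' - z| ≤ D := by
    have := norm_nonneg (y - x)
    linarith
  have hDy : ‖y - x‖ ≤ D := by
    have := abs_nonneg (z' - z)
    linarith
  have hca : 1 ≤ c * a := by nlinarith
  have hcyl : |W y z' - W x z - ⟪v, y - x⟫ - s * (z' - z)| ≤ K * P := by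
    apply h
    · calc |z' - z| ≤ D * 1 := by rw [mul_one]; exact hDz
        _ ≤ D * (c * a) := mul_le_mul_of_nonneg_left hca hD0
        _ ≤ P := hk1
    · have h1 : ‖y - x - (z' - z) • v‖ ≤ ‖y - x‖ + |z' - z| * ‖v‖ := by
        refine (norm_sub_le _ _).trans ?_
        rw [norm_smul, Real.norm_eq_abs]
      have h2 : |z' - z| * ‖v‖ ≤ D * ‖v‖ := mul_le_mul_of_nonneg_right hDz (norm_nonneg _)
      calc ‖y - x - (z' - z) • v‖ ≤ D * (1 + ‖v‖) := by linarith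
        _ ≤ D * (c * a) := mul_le_mul_of_nonneg_left hv hD0
        _ ≤ P := hk1
  have h1 : |⟪v, y - x⟫| ≤ c * a ^ 2 * D := by
    refine (abs_real_inner_le_norm _ _).trans ?_
    have h2 : ‖v‖ ≤ c * a ^ 2 := by
      have h3 : c * a ≤ c * a ^ 2 := by
        apply mul_le_mul_of_nonneg_left _ hc0.le
        nlinarith
      linarith
    exact mul_le_mul h2 hDy (norm_nonneg _) (by positivity)
  have h2 : |s * (z' - z)| ≤ c * a ^ 2 * D := by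
    rw [abs_mul]
    exact mul_le_mul hs hDz (abs_nonneg _) (by positivity)
  rw [abs_le] at hcyl h1 h2 ⊢
  constructor <;> linarith [hcyl.1, hcyl.2, h1.1, h1.2, h2.1, h2.2]

theorem cg_lim : Tendsto (fun n : ℕ => ((n : ℝ) + 1) ^ 3 / 2 ^ n) atTop (𝓝 0) := by
  have h1 := (tendsto_add_atTop_iff_nat 1).2
    (tendsto_pow_const_div_const_pow_of_one_lt 3 (one_lt_two : (1 : ℝ) < 2))
  have h2 := h1.const_mul 2
  rw [mul_zero] at h2
  refine h2.congr fun n => ?_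
  push_cast
  rw [pow_succ (2 : ℝ) n]
  field_simp

/-- the elementary choice of the scale -/
theorem cg_choice {K c ε : ℝ} (hK : 1 ≤ K) (hc1 : 1 ≤ c) (hε : 0 < ε) :
    ∃ C : ℝ, 0 < C ∧ ∀ D : ℝ, 0 ≤ D → ∃ k : ℕ, D * (c * ((k : ℝ) + 1)) ≤ 2 ^ k ∧
      2 * c * ((k : ℝ) + 1) ^ 2 * D + K * 2 ^ k ≤ C + ε * D ^ 2 := by
  have hc0 : 0 < c := by linarith
  have hε2 : 0 < ε / 2 := by positivity
  obtain ⟨c1, hc1def⟩ : ∃ c1 : ℝ, c1 = 2 * c + 2 * K * c := ⟨_, rfl⟩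
  have hc10 : 0 < c1 := by rw [hc1def]; positivity
  obtain ⟨k0, hk0⟩ : ∃ k0 : ℕ, ∀ k ≥ k0, 2 * c * c1 * ((k : ℝ) + 1) ^ 3 ≤ ε / 2 * 2 ^ k := by
    have h1 := (cg_lim.const_mul (2 * c * c1))
    rw [mul_zero] at h1
    have h2 := h1.eventually_le_const hε2
    obtain ⟨k0, hk0⟩ := eventually_atTop.1 h2
    refine ⟨k0, fun k hk => ?_⟩
    have h3 := hk0 k hk
    rw [← mul_div_assoc, div_le_iff₀ (by positivity)] at h3
    exact h3
  obtain ⟨C', hC'⟩ : ∃ C' : ℝ, C' = c1 * ((k0 : ℝ) + 1) ^ 2 := ⟨_, rfl⟩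
  have hC'0 : 0 < C' := by rw [hC']; positivity
  refine ⟨2 + K + C' ^ 2 / (2 * ε), by positivity, fun D hD0 => ?_⟩
  have hexk : ∃ k : ℕ, D * (c * ((k : ℝ) + 1)) ≤ 2 ^ k := by
    have h1 := cg_lim.const_mul (D * c)
    rw [mul_zero] at h1
    obtain ⟨k, hk⟩ := eventually_atTop.1 (h1.eventually_le_const one_pos)
    refine ⟨k, ?_⟩
    have h3 := hk k le_rfl
    rw [← mul_div_assoc, div_le_iff₀ (by positivity), one_mul] at h3
    refine le_trans ?_ h3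
    have hk' : (1 : ℝ) ≤ (k : ℝ) + 1 := by
      have : (0 : ℝ) ≤ k := Nat.cast_nonneg k
      linarith
    have h4 : (k : ℝ) + 1 ≤ ((k : ℝ) + 1) ^ 3 := by
      calc (k : ℝ) + 1 = ((k : ℝ) + 1) ^ 1 := (pow_one _).symm
        _ ≤ ((k : ℝ) + 1) ^ 3 := pow_le_pow_right₀ hk' (by norm_num)
    have h5 := mul_le_mul_of_nonneg_left h4 (by positivity : 0 ≤ D * c)
    linarith
  classical
  have hk1 : D * (c * (((Nat.find hexk : ℕ) : ℝ) + 1)) ≤ 2 ^ (Nat.find hexk) := Nat.find_spec hexk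
  have hmin' : ∀ j : ℕ, j < Nat.find hexk → ¬ (D * (c * ((j : ℝ) + 1)) ≤ 2 ^ j) :=
    fun j hj => Nat.find_min hexk hj
  generalize Nat.find hexk = k at hk1 hmin'
  refine ⟨k, hk1, ?_⟩
  have hkn : (0 : ℝ) ≤ k := Nat.cast_nonneg k
  have hCD : C' * D ≤ C' ^ 2 / (2 * ε) + ε / 2 * D ^ 2 := by
    have e : C' ^ 2 / (2 * ε) + ε / 2 * D ^ 2 - C' * D = (C' - ε * D) ^ 2 / (2 * ε) := by
      field_simp; ring
    have : 0 ≤ (C' - ε * D) ^ 2 / (2 * ε) := by positivity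
    linarith
  have hCC : 0 ≤ C' ^ 2 / (2 * ε) := by positivity
  rcases Nat.eq_zero_or_pos k with hk0' | hkpos
  · -- `k = 0`
    subst hk0'
    simp only [Nat.cast_zero, zero_add, mul_one, one_pow, pow_zero] at hk1 ⊢
    have h3 : 0 ≤ ε * D ^ 2 := by positivity
    linarith
  · -- minimality
    have hmin := hmin' (k - 1) (by omega)
    push Not at hmin
    have hcast : ((k - 1 : ℕ) : ℝ) + 1 = k := by
      rw [Nat.cast_sub hkpos]; push_cast; ring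
    have hpow : (2 : ℝ) ^ k = 2 * 2 ^ (k - 1) := by
      rw [← pow_succ']
      congr 1
      omega
    rw [hcast] at hmin
    have h1 : (2 : ℝ) ^ k ≤ 2 * (D * (c * ((k : ℝ) + 1))) := by
      have h2 : D * (c * (k : ℝ)) ≤ D * (c * ((k : ℝ) + 1)) := by
        apply mul_le_mul_of_nonneg_left _ hD0
        apply mul_le_mul_of_nonneg_left _ hc0.le
        linarith
      rw [hpow]; linarith
    have h2 : 2 * c * ((k : ℝ) + 1) ^ 2 * D + K * 2 ^ k ≤ c1 * ((k : ℝ) + 1) ^ 2 * D := by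
      have h3 : K * 2 ^ k ≤ K * (2 * (D * (c * ((k : ℝ) + 1)))) :=
        mul_le_mul_of_nonneg_left h1 (by positivity)
      have h4 : K * (2 * (D * (c * ((k : ℝ) + 1)))) ≤ 2 * K * c * ((k : ℝ) + 1) ^ 2 * D := by
        have h5 : (k : ℝ) + 1 ≤ ((k : ℝ) + 1) ^ 2 := by nlinarith
        have h6 := mul_le_mul_of_nonneg_left h5 (by positivity : 0 ≤ 2 * K * c * D)
        linarith
      rw [hc1def]
      linarith
    rcases lt_or_ge k k0 with hlt | hge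
    · have h3 : c1 * ((k : ℝ) + 1) ^ 2 ≤ C' := by
        rw [hC']
        apply mul_le_mul_of_nonneg_left _ hc10.le
        apply pow_le_pow_left₀ (by positivity)
        have : (k : ℝ) ≤ k0 := by exact_mod_cast hlt.le
        linarith
      have h4 := mul_le_mul_of_nonneg_right h3 hD0
      have h5 : 0 ≤ ε / 2 * D ^ 2 := by positivity
      linarith
    · have h3 := hk0 k hge
      -- `c1 (k+1)^2 ≤ ε/2 * D`
      have h4 : c1 * ((k : ℝ) + 1) ^ 2 ≤ ε / 2 * D := by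
        have h5 : 2 * c * ((k : ℝ) + 1) * (c1 * ((k : ℝ) + 1) ^ 2) ≤
            2 * c * ((k : ℝ) + 1) * (ε / 2 * D) := by
          calc 2 * c * ((k : ℝ) + 1) * (c1 * ((k : ℝ) + 1) ^ 2) =
              2 * c * c1 * ((k : ℝ) + 1) ^ 3 := by ring
            _ ≤ ε / 2 * 2 ^ k := h3
            _ ≤ ε / 2 * (2 * (D * (c * ((k : ℝ) + 1)))) := mul_le_mul_of_nonneg_left h1 hε2.le
            _ = 2 * c * ((k : ℝ) + 1) * (ε / 2 * D) := by ring
        exact le_of_mul_le_mul_left h5 (by positivity)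
      have h5 := mul_le_mul_of_nonneg_right h4 hD0
      have h7 : 0 ≤ ε / 2 * D ^ 2 := by positivity
      have h8 : ε / 2 * D * D = ε / 2 * D ^ 2 := by ring
      linarith

/-- Subquadratic growth at a fixed point: for every `ε` there is `C` such that
`|W(y,z') - W(x,z)| ≤ C + ε (|z'-z| + |y-x|)^2`. Proof: `(v_k,s_k)` `2^k`-adapted at `(x,z)`;
comparing on the `2^k`-cylinder gives `|v_{k+1}-v_k| ≤ 3K`, `|f_{k+1}-f_k| ≤ 14K^2` with
`f = s + |v|^2/2` (steps (1), (4) of the notes). -/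
theorem Flt.growth {K : ℝ} (hK : 1 ≤ K) {W : E → ℝ → ℝ} (hW : Flt K W) (x : E) (z : ℝ) {ε : ℝ}
    (hε : 0 < ε) : ∃ C : ℝ, 0 < C ∧ ∀ (y : E) (z' : ℝ),
      |W y z' - W x z| ≤ C + ε * (|z' - z| + ‖y - x‖) ^ 2 := by
  obtain ⟨c, v, s, hc1, hvs, hvb, hsb⟩ := cg_bounds hK hW x z
  obtain ⟨C, hC, h⟩ := cg_choice (K := K) hK hc1 hε
  refine ⟨C, hC, fun y z' => ?_⟩
  obtain ⟨k, hk1, hk2⟩ := h (|z' - z| + ‖y - x‖) (by positivity)
  have ha : (1 : ℝ) ≤ (k : ℝ) + 1 := by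
    have : (0 : ℝ) ≤ k := Nat.cast_nonneg k
    linarith
  exact (cg_cyl hc1 ha (hvs k) (hvb k) (hsb k) y z' hk1).trans hk2

end Vale.Agent.P080
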