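import Vale.Agent.P080M.C_Iter

/-! Part C, module CH: Hoelder estimate in the non-degenerate case (step (32)). -/

open Metric Set Filter Topology
open scoped RealInnerProductSpace

namespace Vale.Agent.P080

variable {E : Type*} [NormedAddCommGroup E] [InnerProductSpace ℝ E]

/-- Hoelder continuity of the gradient from pointwise expansions. -/
theorem holder_of_expansion {u : E → ℝ} {P : E → E} {A : Set E} {C c α : ℝ} (hα : 0 < α)
    (hα1 : α ≤ 1) (hC : 0 ≤ C) (hc : 0 < c)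
    (h : ∀ x ∈ A, ∀ y : E, ‖y - x‖ ≤ c → |u y - u x - ⟪P x, y - x⟫| ≤ C * ‖y - x‖ ^ (1 + α))
    {x y : E} (hx : x ∈ A) (hy : y ∈ A) (hxy : ‖x - y‖ ≤ c / 2) :
    ‖P x - P y‖ ≤ 6 * C * ‖x - y‖ ^ α := by
  rcases eq_or_lt_of_le (norm_nonneg (x - y)) with h0 | h0
  · have h1 : x = y := sub_eq_zero.1 (norm_eq_zero.1 h0.symm)
    rw [h1, sub_self, norm_zero]
    positivity
  set ρ := ‖x - y‖ with hρ
  have hyx : ‖y - x‖ = ρ := by rw [norm_sub_rev]
  have h2 : (2 * ρ) ^ (1 + α) ≤ 4 * ρ ^ (1 + α) := by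
    rw [Real.mul_rpow (by norm_num) h0.le]
    refine mul_le_mul_of_nonneg_right ?_ (by positivity)
    calc (2 : ℝ) ^ (1 + α) ≤ 2 ^ (2 : ℝ) :=
          Real.rpow_le_rpow_of_exponent_le (by norm_num) (by linarith)
      _ = 4 := by norm_num
  have hbf1 : C2.BF u y ρ (P y) (C * ρ ^ (1 + α)) := by
    intro w hw
    refine (h y hy w (by linarith)).trans ?_
    exact mul_le_mul_of_nonneg_left (Real.rpow_le_rpow (norm_nonneg _) hw (by linarith)) hC
  have hbf2 : C2.BF u y ρ (P x) (5 * C * ρ ^ (1 + α)) := by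
    intro w hw
    have h3 : ‖w - x‖ ≤ 2 * ρ := by
      calc ‖w - x‖ = ‖(w - y) + (y - x)‖ := by congr 1; abel
        _ ≤ ‖w - y‖ + ‖y - x‖ := norm_add_le _ _
        _ ≤ 2 * ρ := by linarith
    have h4 := h x hx w (by linarith)
    have h5 := h x hx y (by rw [hyx]; linarith)
    rw [hyx] at h5
    have h6 : C * ‖w - x‖ ^ (1 + α) ≤ C * (4 * ρ ^ (1 + α)) :=
      mul_le_mul_of_nonneg_left ((Real.rpow_le_rpow (norm_nonneg _) h3 (by linarith)).trans h2) hC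
    have h7 : ⟪P x, w - y⟫ = ⟪P x, w - x⟫ - ⟪P x, y - x⟫ := by
      rw [← inner_sub_right]
      congr 1
      abel
    rw [h7]
    calc |u w - u y - (⟪P x, w - x⟫ - ⟪P x, y - x⟫)|
        = |(u w - u x - ⟪P x, w - x⟫) - (u y - u x - ⟪P x, y - x⟫)| := by
          congr 1; ring
      _ ≤ |u w - u x - ⟪P x, w - x⟫| + |u y - u x - ⟪P x, y - x⟫| := abs_sub _ _
      _ ≤ 5 * C * ρ ^ (1 + α) := by linarith
  have h8 := hbf2.sub_le hbf1 h0.le
  have h9 : ‖P x - P y‖ * ρ ≤ 6 * C * ρ ^ α * ρ := by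
    refine h8.trans (le_of_eq ?_)
    rw [Real.rpow_add h0, Real.rpow_one]
    ring
  exact le_of_mul_le_mul_right h9 h0

theorem hasFDerivAt_of_expansion {u : E → ℝ} {x P : E} {C c α : ℝ} (hα : 0 < α) (hc : 0 < c)
    (h : ∀ y : E, ‖y - x‖ ≤ c → |u y - u x - ⟪P, y - x⟫| ≤ C * ‖y - x‖ ^ (1 + α)) :
    HasFDerivAt u (innerSL ℝ P) x := by
  rw [hasFDerivAt_iff_isLittleO, Asymptotics.isLittleO_iff]
  intro ε hε
  have h1 : Tendsto (fun y : E => C * ‖y - x‖ ^ α) (𝓝 x) (𝓝 0) := by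
    have h2 : ContinuousAt (fun y : E => C * ‖y - x‖ ^ α) x := by
      refine continuousAt_const.mul ?_
      refine ContinuousAt.rpow_const ?_ (Or.inr hα.le)
      fun_prop
    have h3 := h2.tendsto
    simp only [sub_self, norm_zero, Real.zero_rpow hα.ne', mul_zero] at h3
    exact h3
  have h4 : ∀ᶠ y in 𝓝 x, C * ‖y - x‖ ^ α < ε := h1.eventually_lt_const hε
  have h5 : ∀ᶠ y in 𝓝 x, ‖y - x‖ ≤ c := by
    filter_upwards [closedBall_mem_nhds x hc] with y hy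
    rwa [mem_closedBall, dist_eq_norm] at hy
  filter_upwards [h4, h5] with y h6 h7
  rw [innerSL_apply_apply, Real.norm_eq_abs]
  refine (h y h7).trans ?_
  rw [Real.rpow_add' (norm_nonneg _) (by linarith), Real.rpow_one]
  have h8 := norm_nonneg (y - x)
  calc C * (‖y - x‖ * ‖y - x‖ ^ α) = C * ‖y - x‖ ^ α * ‖y - x‖ := by ring
    _ ≤ ε * ‖y - x‖ := mul_le_mul_of_nonneg_right h6.le h8

end Vale.Agent.P080
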