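import Vale.Agent.P080M.C_Lio
import Vale.Agent.P080.C2c

/-! Part C, module CI: iteration on scales (steps (28)-(32)). -/

open Metric Set Filter Topology
open scoped RealInnerProductSpace

namespace Vale.Agent.P080

variable {E : Type*} [NormedAddCommGroup E] [InnerProductSpace ℝ E]

/-- absolute flatness at all points of `closedBall x₀ 3` and scales `≤ 1`, and at `x₀`, scale 8 -/
structure AbsFlat (u : E → ℝ) (x₀ q₀ : E) (q : E → ℝ → E) (ε : ℝ) : Prop where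
  top : ∀ y : E, ‖y - x₀‖ ≤ 8 → |u y - u x₀ - ⟪q₀, y - x₀⟫| ≤ 8 * ε
  flat : ∀ (x : E) (r : ℝ), ‖x - x₀‖ ≤ 3 → 0 < r → r ≤ 1 → ∀ y : E, ‖y - x‖ ≤ 2 * r →
    |u y - u x - ⟪q x r, y - x⟫| ≤ ε * r

/-- the two definitions of the cylinder agree -/
theorem cyl_iff {p x y : E} {r m : ℝ} (hr : 0 ≤ r) : y ∈ Cyl p x r m ↔ C2.Cyl x r p m y := by
  have h2 : ⟪C2.dir p, y - x⟫ • C2.dir p = (⟪p, y - x⟫ / ‖p‖ ^ 2) • p := by
    rw [C2.dir, real_inner_smul_left, smul_smul]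
    congr 1
    rw [div_eq_mul_inv, ← inv_pow]
    ring
  have h1 : |⟪C2.dir p, y - x⟫| ≤ r ↔ |⟪p, y - x⟫| ≤ ‖p‖ * r := by
    by_cases hp : p = 0
    · subst hp
      simp [C2.dir, hr]
    · have hn : 0 < ‖p‖ := norm_pos_iff.2 hp
      rw [C2.dir, real_inner_smul_left, abs_mul, abs_inv, abs_norm, inv_mul_le_iff₀ hn]
  constructor
  · intro h
    refine ⟨h1.2 h.1, ?_⟩
    rw [h2]
    exact h.2
  · intro h
    refine ⟨h1.1 h.1, ?_⟩
    have h3 := h.2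
    rw [h2] at h3
    exact h3

theorem nf_iff {u : E → ℝ} {p x : E} {r m : ℝ} (hr : 0 ≤ r) :
    NF u x r p m 1 ↔ C2.NF u x r p m := by
  constructor
  · intro h y hy
    have := h y ((cyl_iff hr).2 hy)
    rwa [one_mul] at this
  · intro h y hy
    have := h y ((cyl_iff hr).1 hy)
    rwa [one_mul]

theorem Impr.imp {u : E → ℝ} {M ε : ℝ} {x₀ : E} (hM : 2 ≤ M)
    (h : Impr u M ε (closedBall x₀ 8)) : C2.Imp u x₀ M ε := by
  intro x r m hx hr hMr hm hmε hn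
  obtain ⟨p, -, hp⟩ := h x r m hr hm hmε (by
    intro y hy
    rw [mem_closedBall, dist_eq_norm] at hy ⊢
    calc ‖y - x₀‖ = ‖(y - x) + (x - x₀)‖ := by congr 1; abel
      _ ≤ ‖y - x‖ + ‖x - x₀‖ := norm_add_le _ _
      _ ≤ 8 := by linarith) (by
    intro x' r' h1 h2 h3
    obtain ⟨p', h4, h5, h6⟩ := hn x' r' h1 h2 h3
    exact ⟨p', h4, h5, (nf_iff (le_trans (by positivity) h2)).2 h6⟩)
  exact ⟨p, fun y hy => hp y ((cyl_iff hr.le).2 hy)⟩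

/-- (28)-(32) -/
theorem c2 [CompleteSpace E] {M ε : ℝ} (hM : 2 ≤ M) (hε : 0 < ε) : ∃ ε₀ α C : ℝ, 0 < ε₀ ∧
    ε₀ ≤ 1 ∧ 0 < α ∧ α ≤ 1 ∧ 0 < C ∧
    ∀ (u : E → ℝ) (x₀ q₀ : E) (q : E → ℝ → E) (ε₁ : ℝ), Impr u M ε (closedBall x₀ 8) →
      AbsFlat u x₀ q₀ q ε₁ → 0 < ε₁ → ε₁ ≤ ε₀ → 1 / 2 ≤ ‖q₀‖ → ‖q₀‖ ≤ 3 / 2 →
      ∀ x : E, ‖x - x₀‖ ≤ 1 → ∃ P : E, ‖P - q₀‖ ≤ C * √ε₁ ∧
        ∀ y : E, ‖y - x‖ ≤ 2 → |u y - u x - ⟪P, y - x⟫| ≤ C * ‖y - x‖ ^ (1 + α) := by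
  have hM0 : 0 < M := by linarith
  have hM4 : 1 ≤ M ^ 4 := one_le_pow₀ (by linarith)
  set a : ℝ := 1 / (1548 * M ^ 4) with ha
  have ha0 : 0 < a := by positivity
  have ha1 : a ≤ 1 := by
    rw [ha, div_le_one (by positivity)]
    linarith
  refine ⟨min (a ^ 2) ε, C2.al M, 100 * M ^ 3, lt_min (by positivity) hε, ?_, C2.al_pos hM,
    C2.al_le hM, by positivity, ?_⟩
  · exact (min_le_left _ _).trans (pow_le_one₀ ha0.le ha1)
  intro u x₀ q₀ q ε₁ hI hA h0 h1 hq1 hq2 x hx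
  have hs0 : 0 < √ε₁ := Real.sqrt_pos.2 h0
  have hs2 : √ε₁ ^ 2 = ε₁ := Real.sq_sqrt h0.le
  have hsa : √ε₁ ≤ a := by
    rw [← Real.sqrt_sq ha0.le]
    exact Real.sqrt_le_sqrt (h1.trans (min_le_left _ _))
  have D : C2.Data u x₀ q₀ M ε (√ε₁) q :=
    { hM := hM
      hσ := hs0
      hσe := by
        rw [hs2]
        exact h1.trans (min_le_right _ _)
      hσM := by
        have h2 : 1548 * M ^ 4 * √ε₁ ≤ 1548 * M ^ 4 * a :=
          mul_le_mul_of_nonneg_left hsa (by positivity)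
        refine h2.trans (le_of_eq ?_)
        rw [ha]
        field_simp
      imp := hI.imp hM
      flat := fun x r hx hr hr1 y hy => by
        rw [hs2]
        exact hA.flat x r hx hr hr1 y hy
      glob := fun y hy => by
        rw [hs2]
        exact hA.top y (by linarith)
      q0l := hq1
      q0u := hq2 }
  exact D.expansion hx

end Vale.Agent.P080
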