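import Vale.Agent.P080M.C_Up

/-! Part C, module CL: the improvement of natural flatness (step (27), end).
`affineThm` is Theorem B (proved in Part B). -/

open Metric Set Filter Topology
open scoped RealInnerProductSpace

namespace Vale.Agent.P080

/-- Theorem B as a hypothesis (it is `MCls.affine` of Part B). -/
def AffineThm (E : Type*) [NormedAddCommGroup E] [InnerProductSpace ℝ E] : Prop :=
  ∀ (K : ℝ), 1 ≤ K → ∀ (W : E → ℝ → ℝ), MCls K W →
    ∃ (v : E) (s : ℝ), ∀ (y : E) (z : ℝ), W y z = W 0 0 + ⟪v, y⟫ + s * z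

/-- continuous convergence is uniform on bounded sets -/
theorem CConv.unif {E : Type*} [NormedAddCommGroup E] [InnerProductSpace ℝ E]
    [FiniteDimensional ℝ E] {l : Ultrafilter ℕ} {W : ℕ → E → ℝ → ℝ} {V : E → ℝ → ℝ}
    (hc : CConv l W V) (hV : Continuous fun q : E × ℝ => V q.1 q.2) (R : ℝ) {ε : ℝ}
    (hε : 0 < ε) :
    ∀ᶠ n in (l : Filter ℕ), ∀ (y : E) (z : ℝ), ‖y‖ ≤ R → |z| ≤ R → |W n y z - V y z| ≤ ε := by
  by_contra hcon
  rw [← Ultrafilter.eventually_not] at hcon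
  have hch : ∀ n : ℕ, ∃ q : E × ℝ, (¬ ∀ (y : E) (z : ℝ), ‖y‖ ≤ R → |z| ≤ R →
      |W n y z - V y z| ≤ ε) → (‖q.1‖ ≤ R ∧ |q.2| ≤ R ∧ ε < |W n q.1 q.2 - V q.1 q.2|) := by
    intro n
    by_cases h : ∀ (y : E) (z : ℝ), ‖y‖ ≤ R → |z| ≤ R → |W n y z - V y z| ≤ ε
    · exact ⟨0, fun h' => absurd h h'⟩
    · push Not at h
      obtain ⟨y, z, h1, h2, h3⟩ := h
      exact ⟨(y, z), fun _ => ⟨h1, h2, h3⟩⟩
  choose q hq using hch
  have hev : ∀ᶠ n in (l : Filter ℕ), ‖(q n).1‖ ≤ R ∧ |(q n).2| ≤ R ∧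
      ε < |W n (q n).1 (q n).2 - V (q n).1 (q n).2| := hcon.mono fun n hn => hq n hn
  have hcpt : IsCompact (closedBall (0 : E) R ×ˢ Icc (-R) R) :=
    (isCompact_closedBall 0 R).prod isCompact_Icc
  have hmem : ((l.map q : Ultrafilter (E × ℝ)) : Filter (E × ℝ)) ≤
      𝓟 (closedBall (0 : E) R ×ˢ Icc (-R) R) := by
    rw [Filter.le_principal_iff, Ultrafilter.mem_coe, Ultrafilter.mem_map]
    refine hev.mono fun n hn => ?_
    refine ⟨?_, ?_⟩
    · rw [mem_closedBall, dist_zero_right]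
      exact hn.1
    · exact abs_le.1 hn.2.1
  obtain ⟨q₀, -, hq₀⟩ := hcpt.ultrafilter_le_nhds _ hmem
  have ht : Tendsto q l (𝓝 q₀) := hq₀
  have h1 : Tendsto (fun n => (q n).1) l (𝓝 q₀.1) := (continuous_fst.tendsto q₀).comp ht
  have h2 : Tendsto (fun n => (q n).2) l (𝓝 q₀.2) := (continuous_snd.tendsto q₀).comp ht
  have h3 := hc _ _ _ _ h1 h2
  have h4 : Tendsto (fun n => V (q n).1 (q n).2) l (𝓝 (V q₀.1 q₀.2)) :=
    (hV.tendsto q₀).comp ht
  have h5 : Tendsto (fun n => |W n (q n).1 (q n).2 - V (q n).1 (q n).2|) l (𝓝 0) := by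
    have := (h3.sub h4).abs
    rw [sub_self, abs_zero] at this
    exact this
  have h6 : ∀ᶠ n in (l : Filter ℕ), |W n (q n).1 (q n).2 - V (q n).1 (q n).2| < ε :=
    h5.eventually (gt_mem_nhds hε)
  obtain ⟨n, hn1, hn2⟩ := (hev.and h6).exists
  exact absurd hn2 (not_lt.2 hn1.2.2.le)

/-- the geometry of the last step: coordinates of a point of the natural cylinder of
`p = (1 + m s) e + √m (v - ⟪e, v⟫ e)` -/
theorem cl_coord {E : Type*} [NormedAddCommGroup E] [InnerProductSpace ℝ E] {e v y : E}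
    {m s : ℝ} (he : ‖e‖ = 1) (hm : 0 < m) (hm1 : m ≤ 1) (hms : |m * s| ≤ 1 / 2)
    (hy : y ∈ Cyl ((1 + m * s) • e + √m • (v - ⟪e, v⟫ • e)) 0 1 m) :
    ∃ (y' : E) (z : ℝ), y = chart e m y' z ∧ ‖y'‖ ≤ 4 * ‖v‖ + 3 ∧ |z| ≤ 4 * ‖v‖ + 3 ∧
      ⟪(1 + m * s) • e + √m • (v - ⟪e, v⟫ • e), y⟫ = z + m * (⟪v, y'⟫ + s * z) := by
  set p : E := (1 + m * s) • e + √m • (v - ⟪e, v⟫ • e) with hp
  have hsm : 0 < √m := Real.sqrt_pos.2 hm
  have hsm1 : √m ≤ 1 := by
    rw [show (1 : ℝ) = √1 by simp]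
    exact Real.sqrt_le_sqrt hm1
  have hsq : √m * √m = m := Real.mul_self_sqrt hm.le
  have hee : ⟪e, e⟫ = (1 : ℝ) := by rw [real_inner_self_eq_norm_sq, he]; norm_num
  have hep : ⟪e, p⟫ = 1 + m * s := by
    rw [hp, inner_add_right, inner_smul_right, inner_smul_right, inner_sub_right,
      inner_smul_right, hee]
    ring
  have hpn : 1 / 2 ≤ ‖p‖ := by
    have h1 : |⟪e, p⟫| ≤ ‖e‖ * ‖p‖ := abs_real_inner_le_norm e p
    rw [he, one_mul, hep] at h1
    have h2 : 1 / 2 ≤ |1 + m * s| := by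
      have := abs_le.1 hms
      rw [abs_of_nonneg (by linarith)]
      linarith
    linarith
  have hp0 : (0 : ℝ) < ‖p‖ := by linarith
  obtain ⟨hc1, hc2⟩ := hy
  rw [sub_zero, mul_one] at hc1
  rw [sub_zero, mul_one] at hc2
  set c : ℝ := ⟪p, y⟫ / ‖p‖ ^ 2 with hc
  set w : E := y - c • p with hw
  have hyw : y = c • p + w := by rw [hw]; abel
  have hcb : |c| ≤ 2 := by
    rw [hc, abs_div, abs_of_nonneg (by positivity : (0 : ℝ) ≤ ‖p‖ ^ 2), div_le_iff₀ (by positivity)]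
    have : ‖p‖ ≤ 2 * ‖p‖ ^ 2 := by nlinarith
    linarith
  have hPiv : ‖v - ⟪e, v⟫ • e‖ ≤ 2 * ‖v‖ := by
    have h1 : ‖⟪e, v⟫ • e‖ ≤ ‖v‖ := by
      rw [norm_smul, he, mul_one, Real.norm_eq_abs]
      calc |⟪e, v⟫| ≤ ‖e‖ * ‖v‖ := abs_real_inner_le_norm e v
        _ = ‖v‖ := by rw [he, one_mul]
    have h2 := norm_sub_le v (⟪e, v⟫ • e)
    linarith
  have hPiw : ‖w - ⟪e, w⟫ • e‖ ≤ 2 * √m := by
    have h1 : ‖⟪e, w⟫ • e‖ ≤ ‖w‖ := by
      rw [norm_smul, he, mul_one, Real.norm_eq_abs]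
      calc |⟪e, w⟫| ≤ ‖e‖ * ‖w‖ := abs_real_inner_le_norm e w
        _ = ‖w‖ := by rw [he, one_mul]
    have h2 := norm_sub_le w (⟪e, w⟫ • e)
    linarith
  refine ⟨c • (v - ⟪e, v⟫ • e) + (√m)⁻¹ • (w - ⟪e, w⟫ • e), ⟪e, y⟫, ?_, ?_, ?_, ?_⟩
  · have h1 : ⟪e, c • (v - ⟪e, v⟫ • e) + (√m)⁻¹ • (w - ⟪e, w⟫ • e)⟫ = 0 := by
      rw [inner_add_right, inner_smul_right, inner_smul_right, inner_sub_right, inner_sub_right,
        inner_smul_right, inner_smul_right, hee]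
      ring
    have h2 : ⟪e, y⟫ = c * (1 + m * s) + ⟪e, w⟫ := by
      rw [hyw, inner_add_right, inner_smul_right, hep]
    unfold chart
    rw [h1, zero_smul, sub_zero, smul_add, smul_smul (√m) (√m)⁻¹, mul_inv_cancel₀ hsm.ne',
      one_smul, h2]
    conv_lhs => rw [hyw]
    rw [hp]
    module
  · have h1 : ‖c • (v - ⟪e, v⟫ • e)‖ ≤ 2 * (2 * ‖v‖) := by
      rw [norm_smul, Real.norm_eq_abs]
      exact mul_le_mul hcb hPiv (norm_nonneg _) (by norm_num)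
    have h2 : ‖(√m)⁻¹ • (w - ⟪e, w⟫ • e)‖ ≤ 2 := by
      rw [norm_smul, Real.norm_eq_abs, abs_of_pos (inv_pos.2 hsm), inv_mul_le_iff₀ hsm]
      linarith
    have h3 := norm_add_le (c • (v - ⟪e, v⟫ • e)) ((√m)⁻¹ • (w - ⟪e, w⟫ • e))
    linarith
  · have h1 : |⟪e, y⟫| ≤ ‖y‖ := by
      have := abs_real_inner_le_norm e y
      rwa [he, one_mul] at this
    have h2 : ‖c • p‖ ≤ 1 := by
      rw [norm_smul, Real.norm_eq_abs, hc, abs_div,
        abs_of_nonneg (by positivity : (0 : ℝ) ≤ ‖p‖ ^ 2), div_mul_eq_mul_div,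
        div_le_iff₀ (by positivity)]
      nlinarith
    have h3 : ‖y‖ ≤ ‖c • p‖ + ‖w‖ := by
      conv_lhs => rw [hyw]
      exact norm_add_le _ _
    have h4 := norm_nonneg v
    linarith
  · have h2 : ⟪e, y⟫ = c * (1 + m * s) + ⟪e, w⟫ := by
      rw [hyw, inner_add_right, inner_smul_right, hep]
    have h5 : ⟪v, e⟫ = ⟪e, v⟫ := real_inner_comm _ _
    have h6 : ⟪v, p⟫ = (1 + m * s) * ⟪e, v⟫ + √m * (⟪v, v⟫ - ⟪e, v⟫ * ⟪e, v⟫) := by
      rw [hp, inner_add_right, inner_smul_right, inner_smul_right, inner_sub_right,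
        inner_smul_right, h5]
    have h7 : ⟪v, y⟫ = c * ⟪v, p⟫ + ⟪v, w⟫ := by
      rw [hyw, inner_add_right, inner_smul_right]
    have h8 : ⟪v, c • (v - ⟪e, v⟫ • e) + (√m)⁻¹ • (w - ⟪e, w⟫ • e)⟫
        = c * (⟪v, v⟫ - ⟪e, v⟫ * ⟪e, v⟫) + (√m)⁻¹ * (⟪v, w⟫ - ⟪e, w⟫ * ⟪e, v⟫) := by
      rw [inner_add_right, inner_smul_right, inner_smul_right, inner_sub_right, inner_sub_right,
        inner_smul_right, inner_smul_right, h5]
    have h9 : ⟪p, y⟫ = (1 + m * s) * ⟪e, y⟫ + √m * (⟪v, y⟫ - ⟪e, v⟫ * ⟪e, y⟫) := by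
      rw [hp, inner_add_left, inner_smul_left, inner_smul_left, inner_sub_left,
        inner_smul_left]
      simp
    have h10 : m * (√m)⁻¹ = √m := by
      rw [← div_eq_mul_inv, div_eq_iff hsm.ne', hsq]
    rw [h8, h9, h7, h6, h2]
    linear_combination (c * (⟪v, v⟫ - ⟪e, v⟫ * ⟪e, v⟫)) * hsq
      - (⟪v, w⟫ - ⟪e, w⟫ * ⟪e, v⟫) * h10

theorem BSeq.conclude {E : Type*} [NormedAddCommGroup E] [InnerProductSpace ℝ E]
    [FiniteDimensional ℝ E] (hB : AffineThm E) {u : ℕ → E → ℝ} {m : ℕ → ℝ} {e : ℕ → E}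
    (h : BSeq u m e) (l : Ultrafilter ℕ) (hl : (l : Filter ℕ) ≤ atTop) :
    ∀ᶠ n in (l : Filter ℕ), ∃ p : E, p ≠ 0 ∧
      ∀ y ∈ Cyl p 0 1 (m n), |u n y - ⟪p, y⟫| ≤ m n / 8 := by
  obtain ⟨V, hV0, hVf, hconv⟩ := h.limit l hl
  have hM : MCls 8 V := h.mcls l hl hVf hconv
  obtain ⟨v, s, hvs⟩ := hB 8 (by norm_num) V hM
  simp only [hV0, zero_add] at hvs
  have hVc : Continuous fun q : E × ℝ => V q.1 q.2 := by
    have : (fun q : E × ℝ => V q.1 q.2) = fun q => ⟪v, q.1⟫ + s * q.2 := by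
      funext q; exact hvs q.1 q.2
    rw [this]
    fun_prop
  have hun := hconv.unif hVc (4 * ‖v‖ + 3) (ε := 1 / 8) (by norm_num)
  have hm0 : Tendsto m l (𝓝 0) := by
    have h1 : Tendsto m atTop (𝓝 0) :=
      squeeze_zero (fun n => (h.m_pos n).le) h.m_le tendsto_one_div_add_atTop_nhds_zero_nat
    exact h1.mono_left hl
  have hms : ∀ᶠ n in (l : Filter ℕ), |m n * s| ≤ 1 / 2 := by
    have h1 : Tendsto (fun n => |m n * s|) l (𝓝 0) := by
      have := (hm0.mul_const s).abs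
      rwa [zero_mul, abs_zero] at this
    exact (h1.eventually (gt_mem_nhds (by norm_num : (0 : ℝ) < 1 / 2))).mono fun n hn => hn.le
  filter_upwards [hun, hms] with n hn1 hn2
  have hmn := h.m_pos n
  have hmn1 : m n ≤ 1 := (h.m_le n).trans (by
    rw [div_le_one (by positivity)]
    have : (0 : ℝ) ≤ n := n.cast_nonneg
    linarith)
  refine ⟨(1 + m n * s) • e n + √(m n) • (v - ⟪e n, v⟫ • e n), ?_, fun y hy => ?_⟩
  · intro h0
    have hee : ⟪e n, e n⟫ = (1 : ℝ) := by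
      rw [real_inner_self_eq_norm_sq, h.e_norm n]; norm_num
    have h1 : ⟪e n, (1 + m n * s) • e n + √(m n) • (v - ⟪e n, v⟫ • e n)⟫ = 1 + m n * s := by
      rw [inner_add_right, inner_smul_right, inner_smul_right, inner_sub_right,
        inner_smul_right, hee]
      ring
    rw [h0, inner_zero_right] at h1
    have := abs_le.1 hn2
    linarith
  · obtain ⟨y', z, h1, h2, h3, h4⟩ := cl_coord (h.e_norm n) hmn hmn1 hn2 hy
    have h5 := hn1 y' z h2 h3
    have h6 : u n y = z + m n * blow (u n) (e n) (m n) y' z := by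
      rw [h1]
      unfold blow
      rw [mul_div_cancel₀ _ hmn.ne']
      ring
    rw [h4, h6, hvs] at *
    have h7 : z + m n * blow (u n) (e n) (m n) y' z - (z + m n * (⟪v, y'⟫ + s * z))
        = m n * (blow (u n) (e n) (m n) y' z - (⟪v, y'⟫ + s * z)) := by ring
    rw [h7, abs_mul, abs_of_pos hmn]
    calc m n * |blow (u n) (e n) (m n) y' z - (⟪v, y'⟫ + s * z)| ≤ m n * (1 / 8) :=
          mul_le_mul_of_nonneg_left h5 hmn.le
      _ = m n / 8 := by ring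

/-- improvement property on a set `S` -/
def Impr {E : Type*} [NormedAddCommGroup E] [InnerProductSpace ℝ E] (u : E → ℝ) (M ε : ℝ)
    (S : Set E) : Prop :=
  ∀ (x : E) (r m : ℝ), 0 < r → 0 < m → m ≤ ε → closedBall x (M * r) ⊆ S →
    (∀ (x' : E) (r' : ℝ), ‖x' - x‖ ≤ M * r → r / M ≤ r' → r' ≤ M * r →
      ∃ p' : E, 1 / 4 ≤ ‖p'‖ ∧ ‖p'‖ ≤ 2 ∧ NF u x' r' p' m 1) →
    ∃ p : E, p ≠ 0 ∧ ∀ y ∈ Cyl p x r m, |u y - u x - ⟪p, y - x⟫| ≤ m / 4 * r

/-- scaling of the natural cylinder -/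
theorem cl_cyl_scale {E : Type*} [NormedAddCommGroup E] [InnerProductSpace ℝ E] {p x y : E}
    {r m P : ℝ} (hr : 0 < r) (hP : 0 < P) (h : y ∈ Cyl (P • p) x r m) :
    r⁻¹ • (y - x) ∈ Cyl p 0 1 m := by
  obtain ⟨h1, h2⟩ := h
  have e1 : ⟪P • p, y - x⟫ = P * ⟪p, y - x⟫ := by rw [inner_smul_left]; simp
  have e2 : ‖P • p‖ = P * ‖p‖ := by rw [norm_smul, Real.norm_eq_abs, abs_of_pos hP]
  rw [e1, e2] at h1
  rw [e1, e2] at h2
  have e3 : ⟪p, r⁻¹ • (y - x)⟫ = r⁻¹ * ⟪p, y - x⟫ := inner_smul_right _ _ _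
  refine ⟨?_, ?_⟩
  · rw [sub_zero, mul_one, e3, abs_mul, abs_of_pos (inv_pos.2 hr), inv_mul_le_iff₀ hr]
    rw [abs_mul, abs_of_pos hP, mul_assoc] at h1
    have := le_of_mul_le_mul_left h1 hP
    linarith
  · rw [sub_zero, mul_one, e3]
    have e4 : (P * ⟪p, y - x⟫ / (P * ‖p‖) ^ 2) • P • p = (⟪p, y - x⟫ / ‖p‖ ^ 2) • p := by
      rw [smul_smul]
      congr 1
      rcases eq_or_ne (‖p‖) 0 with h0 | h0
      · rw [h0]; simp
      · field_simp
    rw [e4] at h2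
    have e5 : r⁻¹ • (y - x) - (r⁻¹ * ⟪p, y - x⟫ / ‖p‖ ^ 2) • p
        = r⁻¹ • (y - x - (⟪p, y - x⟫ / ‖p‖ ^ 2) • p) := by
      rw [smul_sub r⁻¹ (y - x), smul_smul]
      congr 2
      ring
    rw [e5, norm_smul, Real.norm_eq_abs, abs_of_pos (inv_pos.2 hr), inv_mul_le_iff₀ hr]
    linarith

/-- (27). By contradiction: `M = n + 2`, `ε = 1/(n+1)`; normalize by
`ũ y = (u (x + r y) - u x)/(r P)`, `P = ‖p'(x, r)‖`. -/
theorem impr_of_cone (E : Type*) [NormedAddCommGroup E] [InnerProductSpace ℝ E]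
    [FiniteDimensional ℝ E] (hB : AffineThm E) :
    ∃ M ε : ℝ, 2 ≤ M ∧ 0 < ε ∧ ε ≤ 1 ∧ ∀ (u : E → ℝ) (S : Set E), ConeAbove u S →
      ConeAbove (fun y => -u y) S → Impr u M ε S := by
  by_contra hcon
  push Not at hcon
  have hex : ∀ n : ℕ, ∃ (u : E → ℝ) (S : Set E), ConeAbove u S ∧ ConeAbove (fun y => -u y) S ∧
      ¬ Impr u ((n : ℝ) + 2) (1 / ((n : ℝ) + 1)) S := by
    intro n
    have hn : (0 : ℝ) ≤ n := n.cast_nonneg
    obtain ⟨u, S, h1, h2, h3⟩ := hcon ((n : ℝ) + 2) (1 / ((n : ℝ) + 1)) (by linarith)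
      (by positivity) (by rw [div_le_one (by positivity)]; linarith)
    exact ⟨u, S, h1, h2, h3⟩
  choose u S hup hdn hni using hex
  unfold Impr at hni
  push Not at hni
  choose x r m hr hm hmε hball hnf hno using hni
  have hP : ∀ n, ∃ p' : E, 1 / 4 ≤ ‖p'‖ ∧ ‖p'‖ ≤ 2 ∧ NF (u n) (x n) (r n) p' (m n) 1 := by
    intro n
    have hn : (0 : ℝ) ≤ n := n.cast_nonneg
    refine hnf n (x n) (r n) ?_ ?_ ?_
    · rw [sub_self, norm_zero]
      have := (hr n).le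
      positivity
    · exact div_le_self (hr n).le (by linarith)
    · have := hr n
      nlinarith
  choose p₀ hp1 hp2 hp3 using hP
  have hPpos : ∀ n, 0 < ‖p₀ n‖ := fun n => by have := hp1 n; linarith
  -- normalization
  let c : ℕ → ℝ := fun n => (r n * ‖p₀ n‖)⁻¹
  have hc : ∀ n, 0 < c n := fun n => inv_pos.2 (mul_pos (hr n) (hPpos n))
  have hcr : ∀ n, c n * r n = ‖p₀ n‖⁻¹ := by
    intro n
    simp only [c]
    rw [mul_inv, mul_comm (r n)⁻¹, mul_assoc, inv_mul_cancel₀ (hr n).ne', mul_one]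
  have hinv : ∀ n, ‖p₀ n‖⁻¹ ≤ 4 := by
    intro n
    rw [inv_le_comm₀ (hPpos n) (by norm_num)]
    have := hp1 n
    linarith
  have hinv2 : ∀ n, 1 / 2 ≤ ‖p₀ n‖⁻¹ := by
    intro n
    rw [le_inv_comm₀ (by norm_num) (hPpos n)]
    have := hp2 n
    linarith
  let w : ℕ → E → ℝ := fun n y => c n * (u n (x n + r n • y) - u n (x n))
  have hB' : BSeq w m (fun n => ‖p₀ n‖⁻¹ • p₀ n) := by
    refine ⟨?_, hm, hmε, ?_, ?_, ?_, ?_, ?_⟩
    · intro n
      simp only [w]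
      rw [smul_zero, add_zero, sub_self, mul_zero]
    · intro n
      rw [norm_smul, Real.norm_eq_abs, abs_of_pos (inv_pos.2 (hPpos n)),
        inv_mul_cancel₀ (hPpos n).ne']
    · intro n
      have h1 := (hp3 n).scale (x n) (hr n) (hc n) (u n (x n))
      rw [sub_self, smul_zero, div_self (hr n).ne', hcr, mul_one] at h1
      exact h1.mono (hm n).le zero_le_one (hinv n)
    · intro n x' r' hx' hr1 hr2
      have hrn := hr n
      have hn : (0 : ℝ) ≤ n := n.cast_nonneg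
      obtain ⟨p', h1, h2, h3⟩ := hnf n (x n + r n • x') (r n * r') (by
        rw [add_sub_cancel_left, norm_smul, Real.norm_eq_abs, abs_of_pos hrn, mul_comm]
        exact mul_le_mul_of_nonneg_right hx' hrn.le) (by
        rw [div_eq_mul_one_div]
        exact mul_le_mul_of_nonneg_left hr1 hrn.le) (by
        rw [mul_comm]
        exact mul_le_mul_of_nonneg_right hr2 hrn.le)
      have h4 := h3.scale (x n) hrn (hc n) (u n (x n))
      rw [add_sub_cancel_left, smul_smul, inv_mul_cancel₀ hrn.ne', one_smul,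
        mul_div_cancel_left₀ _ hrn.ne', hcr, mul_one] at h4
      refine ⟨‖p₀ n‖⁻¹ • p', ?_, ?_, ?_⟩
      · rw [norm_smul, Real.norm_eq_abs, abs_of_pos (inv_pos.2 (hPpos n))]
        have := mul_le_mul (hinv2 n) h1 (by norm_num) (inv_pos.2 (hPpos n)).le
        linarith
      · rw [norm_smul, Real.norm_eq_abs, abs_of_pos (inv_pos.2 (hPpos n))]
        have := mul_le_mul (hinv n) h2 (norm_nonneg _) (by norm_num)
        linarith
      · have hr'0 : 0 ≤ r' := le_trans (by positivity) hr1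
        exact h4.mono (hm n).le hr'0 (hinv n)
    · intro n
      have h1 := (hup n).scale (x n) (hr n) (hc n) (u n (x n))
      refine h1.mono fun y hy => ?_
      refine hball n ?_
      rw [mem_closedBall, dist_zero_right] at hy
      rw [mem_closedBall, dist_eq_norm, add_sub_cancel_left, norm_smul, Real.norm_eq_abs,
        abs_of_pos (hr n), mul_comm]
      exact mul_le_mul_of_nonneg_right hy (hr n).le
    · intro n
      have h1 := (hdn n).scale (x n) (hr n) (hc n) (-u n (x n))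
      have h2 : (fun y => -w n y) = fun y => c n * (-u n (x n + r n • y) - -u n (x n)) := by
        funext y
        simp only [w]
        ring
      rw [h2]
      refine h1.mono fun y hy => ?_
      refine hball n ?_
      rw [mem_closedBall, dist_zero_right] at hy
      rw [mem_closedBall, dist_eq_norm, add_sub_cancel_left, norm_smul, Real.norm_eq_abs,
        abs_of_pos (hr n), mul_comm]
      exact mul_le_mul_of_nonneg_right hy (hr n).le
  let l : Ultrafilter ℕ := Ultrafilter.of atTop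
  obtain ⟨n, p, hp0, hp⟩ := (hB'.conclude hB l (Ultrafilter.of_le _)).exists
  obtain ⟨y, hy, hlt⟩ := hno n (‖p₀ n‖ • p) (smul_ne_zero (hPpos n).ne' hp0)
  have hrn := hr n
  have h1 := hp _ (cl_cyl_scale hrn (hPpos n) hy)
  simp only [w] at h1
  rw [smul_smul, mul_inv_cancel₀ hrn.ne', one_smul, add_sub_cancel, inner_smul_right] at h1
  have h2 : u n y - u n (x n) - ⟪‖p₀ n‖ • p, y - x n⟫
      = (r n * ‖p₀ n‖) * (c n * (u n y - u n (x n)) - (r n)⁻¹ * ⟪p, y - x n⟫) := by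
    have e1 : ⟪‖p₀ n‖ • p, y - x n⟫ = ‖p₀ n‖ * ⟪p, y - x n⟫ := by
      rw [inner_smul_left]; simp
    rw [e1]
    simp only [c]
    have := (hPpos n).ne'
    field_simp
  rw [h2, abs_mul, abs_of_pos (mul_pos hrn (hPpos n))] at hlt
  have h3 : r n * ‖p₀ n‖ * |c n * (u n y - u n (x n)) - (r n)⁻¹ * ⟪p, y - x n⟫|
      ≤ r n * 2 * (m n / 8) :=
    mul_le_mul (mul_le_mul_of_nonneg_left (hp2 n) hrn.le) h1 (abs_nonneg _) (by positivity)
  linarith

end Vale.Agent.P080
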