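import Vale.Agent.P080M.C_Blow
import Vale.Agent.P080.Compact
import Vale.Agent.P080.C2

/-! Part C, module CU: the limit satisfies (C+), (C-) (step (27)(d)). -/

open Metric Set Filter Topology
open scoped RealInnerProductSpace

namespace Vale.Agent.P080

section chart

variable {E : Type*} [NormedAddCommGroup E] [InnerProductSpace ℝ E]

theorem norm_split {e w : E} (he : ‖e‖ = 1) (hw : ⟪e, w⟫ = 0) {m : ℝ} (hm : 0 ≤ m) (h : ℝ) :
    ‖h • e + √m • w‖ = √(h ^ 2 + m * ‖w‖ ^ 2) := by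
  rw [← Real.sqrt_sq (norm_nonneg (h • e + √m • w))]
  congr 1
  rw [norm_add_sq_real, norm_smul, norm_smul, inner_smul_left, inner_smul_right, hw, he,
    mul_pow, mul_pow, Real.norm_eq_abs, Real.norm_eq_abs, sq_abs, sq_abs, Real.sq_sqrt hm]
  simp

theorem inner_perp {e : E} (he : ‖e‖ = 1) (w : E) : ⟪e, w - ⟪e, w⟫ • e⟫ = 0 := by
  rw [inner_sub_right, inner_smul_right, real_inner_self_eq_norm_sq, he]
  ring

theorem eval_chart (u : E → ℝ) (e : E) {m : ℝ} (hm : 0 < m) (y : E) (z : ℝ) :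
    u (chart e m y z) = z + m * blow u e m y z := by
  rw [blow]
  field_simp
  ring

/-- every point near `P₀` is in the image of the chart -/
theorem exists_chart {e : E} (he : ‖e‖ = 1) {m : ℝ} (hm : 0 < m) (x : E) (z₀ : ℝ) (P : E) :
    ∃ (y : E) (z : ℝ), chart e m y z = P ∧ ⟪e, y - x⟫ = 0 ∧ z - z₀ = ⟪e, P - chart e m x z₀⟫ ∧
      √m * ‖y - x‖ = ‖P - chart e m x z₀ - ⟪e, P - chart e m x z₀⟫ • e‖ := by
  have hs : 0 < √m := Real.sqrt_pos.2 hm
  set P₀ := chart e m x z₀ with hP₀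
  set w : E := (√m)⁻¹ • (P - P₀ - ⟪e, P - P₀⟫ • e) with hw
  have hew : ⟪e, w⟫ = 0 := by
    rw [hw, inner_smul_right, inner_perp he, mul_zero]
  have hyx : x + w - x = w := by abel
  refine ⟨x + w, z₀ + ⟪e, P - P₀⟫, ?_, ?_, ?_, ?_⟩
  · have h1 := chart_sub e m x (x + w) z₀ (z₀ + ⟪e, P - P₀⟫)
    rw [hyx, hew, zero_smul, sub_zero, add_sub_cancel_left, ← hP₀] at h1
    have h2 : √m • w = P - P₀ - ⟪e, P - P₀⟫ • e := by
      rw [hw, smul_smul, mul_inv_cancel₀ hs.ne', one_smul]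
    rw [h2] at h1
    have h3 : chart e m (x + w) (z₀ + ⟪e, P - P₀⟫) = P₀ + (chart e m (x + w) (z₀ + ⟪e, P - P₀⟫) - P₀) := by
      abel
    rw [h3, h1]
    abel
  · rw [hyx, hew]
  · ring
  · rw [hyx, hw, norm_smul, norm_inv, Real.norm_of_nonneg hs.le, ← mul_assoc,
      mul_inv_cancel₀ hs.ne', one_mul]

end chart

variable {E : Type*} [NormedAddCommGroup E] [InnerProductSpace ℝ E] [FiniteDimensional ℝ E]

theorem BSeq.m_tendsto {u : ℕ → E → ℝ} {m : ℕ → ℝ} {e : ℕ → E} (h : BSeq u m e)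
    (l : Ultrafilter ℕ) (hl : (l : Filter ℕ) ≤ atTop) : Tendsto m l (𝓝 0) := by
  have h1 : Tendsto (fun n : ℕ => 1 / ((n : ℝ) + 1)) l (𝓝 0) :=
    tendsto_one_div_add_atTop_nhds_zero_nat.mono_left hl
  exact squeeze_zero (fun n => (h.m_pos n).le) h.m_le h1

/-- the scalar inequality at a bad point -/
theorem bad_ineq {m h T ρ D κ : ℝ} (hm : 0 < m) (hT : 0 < T) (hh : |h| ≤ T)
    (hbad : (1 + m * κ) * √(h ^ 2 + m * ρ ^ 2) < h + m * D) :
    ρ ^ 2 / (√(h ^ 2 + m * ρ ^ 2) + T) + κ * √(h ^ 2 + m * ρ ^ 2) ≤ D := by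
  set q := √(h ^ 2 + m * ρ ^ 2) with hq
  have hq2 : q ^ 2 = h ^ 2 + m * ρ ^ 2 := Real.sq_sqrt (by positivity)
  have hq0 : 0 ≤ q := Real.sqrt_nonneg _
  have hqh : |h| ≤ q := Real.abs_le_sqrt (by nlinarith [mul_nonneg hm.le (sq_nonneg ρ)])
  have h1 := abs_le.1 hh
  have h2 := abs_le.1 hqh
  have h3 : m * ρ ^ 2 ≤ (q - h) * (q + T) := by
    have : (q - h) * (q + h) = m * ρ ^ 2 := by nlinarith
    rw [← this]
    exact mul_le_mul_of_nonneg_left (by linarith) (by linarith)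
  have hqT : 0 < q + T := by linarith
  have h4 : m * (ρ ^ 2 / (q + T)) ≤ q - h := by
    rw [mul_div_assoc', div_le_iff₀ hqT]
    exact h3
  have h5 : m * (ρ ^ 2 / (q + T) + κ * q) ≤ m * D := by nlinarith
  exact le_of_mul_le_mul_left h5 hm

theorem BSeq.par_aux {u : ℕ → E → ℝ} {m : ℕ → ℝ} {e : ℕ → E} (h : BSeq u m e)
    (l : Ultrafilter ℕ) (hl : (l : Filter ℕ) ≤ atTop) {V : E → ℝ → ℝ} (hV : Flt 8 V)
    (hconv : CConv l (fun n => blow (u n) (e n) (m n)) V) {x : E} {z₀ T κ : ℝ} (hT : 0 < T)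
    (htop : ∀ w : E, V w (z₀ + T) < V x z₀ + κ * T + ‖w - x‖ ^ 2 / (2 * T)) (a : E) {t : ℝ}
    (ht : 0 < t) (htT : t ≤ T) :
    V a (z₀ + t) ≤ V x z₀ + κ * t + ‖a - x‖ ^ 2 / (2 * t) := by
  have hm0 := h.m_tendsto l hl
  obtain ⟨C, hC, hgr⟩ := hV.growth (by norm_num) x z₀ (ε := 1 / (32 * T)) (by positivity)
  -- the radius
  set X := C + T / 16 + |κ| * T with hX
  have hX0 : 0 < X := by positivity
  set R := 1 + ‖a - x‖ + 16 * T * X with hR
  have hR1 : 1 ≤ R := by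
    have := norm_nonneg (a - x)
    have : 0 < 16 * T * X := by positivity
    linarith
  have hRa : ‖a - x‖ ≤ R := by
    have : 0 < 16 * T * X := by positivity
    linarith
  have hRX : 16 * T * X ≤ R := by
    have := norm_nonneg (a - x)
    linarith
  have hRkey : C + 1 / (32 * T) * (T + R) ^ 2 < R ^ 2 / (2 * T) - |κ| * T := by
    have h1 : 1 / (32 * T) * (T + R) ^ 2 ≤ T / 16 + R ^ 2 / (16 * T) := by
      have h2 : (T + R) ^ 2 ≤ 2 * T ^ 2 + 2 * R ^ 2 := by nlinarith [sq_nonneg (T - R)]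
      calc 1 / (32 * T) * (T + R) ^ 2 ≤ 1 / (32 * T) * (2 * T ^ 2 + 2 * R ^ 2) :=
            mul_le_mul_of_nonneg_left h2 (by positivity)
        _ = T / 16 + R ^ 2 / (16 * T) := by
          field_simp
          ring
    have h2 : X ≤ R ^ 2 / (16 * T) := by
      rw [le_div_iff₀ (by positivity)]
      nlinarith
    have h3 : R ^ 2 / (2 * T) = 8 * (R ^ 2 / (16 * T)) := by
      field_simp
      ring
    rw [h3]
    linarith
  -- the comparison region
  set P₀ : ℕ → E := fun n => chart (e n) (m n) x z₀ with hP₀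
  have hgood : ∀ᶠ n in (l : Filter ℕ), ∀ P : E, |⟪e n, P - P₀ n⟫| ≤ T →
      ‖P - P₀ n - ⟪e n, P - P₀ n⟫ • e n‖ ≤ √(m n) * R →
      ¬ (|⟪e n, P - P₀ n⟫| < T ∧ ‖P - P₀ n - ⟪e n, P - P₀ n⟫ • e n‖ < √(m n) * R) →
      u n P ≤ u n (P₀ n) + (1 + m n * κ) * ‖P - P₀ n‖ := by
    by_contra hcon
    rw [← Ultrafilter.eventually_not] at hcon
    have hbad : ∀ᶠ n in (l : Filter ℕ), ∃ p : E × ℝ, ‖p.1 - x‖ ≤ R ∧ |p.2 - z₀| ≤ T ∧
        (|p.2 - z₀| = T ∨ ‖p.1 - x‖ = R) ∧
        (1 + m n * κ) * √((p.2 - z₀) ^ 2 + m n * ‖p.1 - x‖ ^ 2) < (p.2 - z₀) +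
          m n * (blow (u n) (e n) (m n) p.1 p.2 - blow (u n) (e n) (m n) x z₀) := by
      filter_upwards [hcon] with n hn
      push Not at hn
      obtain ⟨P, h1, h2, h3, h4⟩ := hn
      have hs : 0 < √(m n) := Real.sqrt_pos.2 (h.m_pos n)
      obtain ⟨y, z, hP, hey, hz, hw⟩ := exists_chart (h.e_norm n) (h.m_pos n) x z₀ P
      simp only [hP₀] at h1 h2 h3 h4
      rw [← hz] at h1 h3
      rw [← hz] at h2
      rw [hz] at h2
      rw [← hw] at h2
      have h2' := le_of_mul_le_mul_left h2 hs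
      refine ⟨(y, z), h2', h1, ?_, ?_⟩
      · rcases lt_or_eq_of_le h1 with h5 | h5
        · right
          have h6 := h3 h5
          rw [hz, ← hw] at h6
          have h7 := le_of_mul_le_mul_left h6 hs
          exact le_antisymm h2' h7
        · exact Or.inl h5
      · have h5 : ‖P - chart (e n) (m n) x z₀‖ = √((z - z₀) ^ 2 + m n * ‖y - x‖ ^ 2) := by
          rw [← hP, chart_sub, hey, zero_smul, sub_zero]
          exact norm_split (h.e_norm n) hey (h.m_pos n).le _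
        rw [h5, ← hP, eval_chart (u n) (e n) (h.m_pos n) y z,
          eval_chart (u n) (e n) (h.m_pos n) x z₀] at h4
        linarith
    obtain ⟨p, hp⟩ := hbad.choice
    obtain ⟨⟨y₀, z₁⟩, -, hlim⟩ := exists_tendsto_of_bdd l (a := p)
      (R := max (‖x‖ + R) (|z₀| + T)) (by
        filter_upwards [hp] with n hn
        rw [Prod.norm_def]
        refine max_le_max ?_ ?_
        · calc ‖(p n).1‖ = ‖x + ((p n).1 - x)‖ := by congr 1; abel
            _ ≤ ‖x‖ + ‖(p n).1 - x‖ := norm_add_le _ _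
            _ ≤ ‖x‖ + R := by linarith [hn.1]
        · rw [Real.norm_eq_abs]
          calc |(p n).2| = |z₀ + ((p n).2 - z₀)| := by congr 1; ring
            _ ≤ |z₀| + |(p n).2 - z₀| := abs_add_le _ _
            _ ≤ |z₀| + T := by linarith [hn.2.1])
    have hy : Tendsto (fun n => (p n).1) l (𝓝 y₀) := (continuous_fst.tendsto _).comp hlim
    have hz : Tendsto (fun n => (p n).2) l (𝓝 z₁) := (continuous_snd.tendsto _).comp hlim
    have hρ : Tendsto (fun n => ‖(p n).1 - x‖) l (𝓝 ‖y₀ - x‖) := (hy.sub_const x).norm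
    have hh : Tendsto (fun n => (p n).2 - z₀) l (𝓝 (z₁ - z₀)) := hz.sub_const z₀
    have hD : Tendsto (fun n => blow (u n) (e n) (m n) (p n).1 (p n).2 -
        blow (u n) (e n) (m n) x z₀) l (𝓝 (V y₀ z₁ - V x z₀)) :=
      (hconv _ _ _ _ hy hz).sub (hconv _ _ _ _ tendsto_const_nhds tendsto_const_nhds)
    have hq : Tendsto (fun n => √(((p n).2 - z₀) ^ 2 + m n * ‖(p n).1 - x‖ ^ 2)) l
        (𝓝 |z₁ - z₀|) := by
      have h1 : Tendsto (fun n => ((p n).2 - z₀) ^ 2 + m n * ‖(p n).1 - x‖ ^ 2) l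
          (𝓝 ((z₁ - z₀) ^ 2 + 0 * ‖y₀ - x‖ ^ 2)) := (hh.pow 2).add (hm0.mul (hρ.pow 2))
      have h2 := h1.sqrt
      rwa [zero_mul, add_zero, Real.sqrt_sq_eq_abs] at h2
    have hρR : ‖y₀ - x‖ ≤ R := le_of_tendsto hρ (by filter_upwards [hp] with n hn using hn.1)
    have hhT : |z₁ - z₀| ≤ T :=
      le_of_tendsto hh.abs (by filter_upwards [hp] with n hn using hn.2.1)
    have hmain : ‖y₀ - x‖ ^ 2 / (|z₁ - z₀| + T) + κ * |z₁ - z₀| ≤ V y₀ z₁ - V x z₀ := by
      have h1 : Tendsto (fun n => ‖(p n).1 - x‖ ^ 2 /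
          (√(((p n).2 - z₀) ^ 2 + m n * ‖(p n).1 - x‖ ^ 2) + T) +
          κ * √(((p n).2 - z₀) ^ 2 + m n * ‖(p n).1 - x‖ ^ 2)) l
          (𝓝 (‖y₀ - x‖ ^ 2 / (|z₁ - z₀| + T) + κ * |z₁ - z₀|)) :=
        ((hρ.pow 2).div (hq.add_const T) (by positivity)).add (hq.const_mul κ)
      refine le_of_tendsto_of_tendsto h1 hD ?_
      filter_upwards [hp] with n hn
      exact bad_ineq (h.m_pos n) hT hn.2.1 hn.2.2.2
    have hcases : (∀ᶠ n in (l : Filter ℕ), |(p n).2 - z₀| = T) ∨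
        (∀ᶠ n in (l : Filter ℕ), ‖(p n).1 - x‖ = R) := by
      rw [← Ultrafilter.eventually_or]
      filter_upwards [hp] with n hn using hn.2.2.1
    rcases hcases with hc | hc
    · have hc' : (∀ᶠ n in (l : Filter ℕ), (p n).2 - z₀ = T) ∨
          (∀ᶠ n in (l : Filter ℕ), (p n).2 - z₀ = -T) := by
        rw [← Ultrafilter.eventually_or]
        filter_upwards [hc] with n hn
        exact (abs_eq hT.le).1 hn
      rcases hc' with hc' | hc'
      · -- top
        have h1 : z₁ - z₀ = T := by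
          have h2 : Tendsto (fun n => (p n).2 - z₀) l (𝓝 T) :=
            (tendsto_congr' (by filter_upwards [hc'] with n hn using hn)).2 tendsto_const_nhds
          exact tendsto_nhds_unique hh h2
        have h2 : z₁ = z₀ + T := by linarith
        rw [h1, abs_of_pos hT, h2] at hmain
        have h3 := htop y₀
        have h4 : T + T = 2 * T := by ring
        rw [h4] at hmain
        linarith
      · -- bottom
        have h1 : z₁ - z₀ = -T := by
          have h2 : Tendsto (fun n => (p n).2 - z₀) l (𝓝 (-T)) :=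
            (tendsto_congr' (by filter_upwards [hc'] with n hn using hn)).2 tendsto_const_nhds
          exact tendsto_nhds_unique hh h2
        have h2 : Tendsto (fun n => (1 + m n * κ) *
            √(((p n).2 - z₀) ^ 2 + m n * ‖(p n).1 - x‖ ^ 2)) l (𝓝 ((1 + 0 * κ) * |z₁ - z₀|)) :=
          ((hm0.mul_const κ).const_add 1).mul hq
        have h3 : Tendsto (fun n => ((p n).2 - z₀) +
            m n * (blow (u n) (e n) (m n) (p n).1 (p n).2 - blow (u n) (e n) (m n) x z₀)) l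
            (𝓝 ((z₁ - z₀) + 0 * (V y₀ z₁ - V x z₀))) := hh.add (hm0.mul hD)
        have h4 := le_of_tendsto_of_tendsto h2 h3
          (by filter_upwards [hp] with n hn using hn.2.2.2.le)
        rw [h1, abs_neg, abs_of_pos hT] at h4
        linarith
    · -- lateral
      have h1 : ‖y₀ - x‖ = R := by
        have h2 : Tendsto (fun n => ‖(p n).1 - x‖) l (𝓝 R) :=
          (tendsto_congr' (by filter_upwards [hc] with n hn using hn)).2 tendsto_const_nhds
        exact tendsto_nhds_unique hρ h2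
      have h2 := (abs_le.1 (hgr y₀ z₁)).2
      rw [h1] at hmain h2
      have h3 : 1 / (32 * T) * (|z₁ - z₀| + R) ^ 2 ≤ 1 / (32 * T) * (T + R) ^ 2 := by
        refine mul_le_mul_of_nonneg_left ?_ (by positivity)
        exact pow_le_pow_left₀ (by positivity) (by linarith) 2
      have h4 : R ^ 2 / (2 * T) ≤ R ^ 2 / (|z₁ - z₀| + T) :=
        div_le_div_of_nonneg_left (by positivity) (by positivity) (by linarith)
      have h5 : -(|κ| * T) ≤ κ * |z₁ - z₀| := by
        have h6 : abs (κ * |z₁ - z₀|) ≤ |κ| * T := by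
          rw [abs_mul, abs_abs]
          exact mul_le_mul_of_nonneg_left hhT (abs_nonneg _)
        exact (abs_le.1 h6).1
      linarith
  -- comparison with the cone
  have hfin : ∀ᶠ n in (l : Filter ℕ), blow (u n) (e n) (m n) a (z₀ + t) -
      blow (u n) (e n) (m n) x z₀ ≤
      ‖a - x‖ ^ 2 / (2 * t) + κ * √(t ^ 2 + m n * ‖(a - x) - ⟪e n, a - x⟫ • e n‖ ^ 2) := by
    have hlarge : ∀ᶠ n : ℕ in (l : Filter ℕ), |z₀| + ‖x‖ + T + R ≤ (n : ℝ) + 2 := by
      have h1 : ∀ᶠ n : ℕ in atTop, |z₀| + ‖x‖ + T + R ≤ (n : ℝ) := by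
        filter_upwards [eventually_ge_atTop ⌈|z₀| + ‖x‖ + T + R⌉₊] with n hn
        exact (Nat.le_ceil _).trans (by exact_mod_cast hn)
      filter_upwards [hl h1] with n hn
      linarith
    have hb : ∀ᶠ n in (l : Filter ℕ), 0 ≤ 1 + m n * κ := by
      have h1 : Tendsto (fun n => 1 + m n * κ) l (𝓝 (1 + 0 * κ)) :=
        (hm0.mul_const κ).const_add 1
      rw [zero_mul, add_zero] at h1
      filter_upwards [h1.eventually_const_lt (show (0 : ℝ) < 1 by norm_num)] with n hn using hn.le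
    filter_upwards [hgood, hlarge, hb] with n hg hN hbn
    have hmn := h.m_pos n
    have hmn1 : m n ≤ 1 := by
      refine (h.m_le n).trans ?_
      rw [div_le_one (by positivity)]
      have : (0 : ℝ) ≤ n := Nat.cast_nonneg n
      linarith
    have hs : 0 < √(m n) := Real.sqrt_pos.2 hmn
    have hs1 : √(m n) ≤ 1 := Real.sqrt_le_one.2 hmn1
    have hen := h.e_norm n
    set π : E := (a - x) - ⟪e n, a - x⟫ • e n with hπ
    have hπ0 : ⟪e n, π⟫ = 0 := inner_perp hen _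
    have hπn : ‖π‖ ≤ ‖a - x‖ := C2.perp_le _ hen.le
    set K : Set E := {P | |⟪e n, P - P₀ n⟫| ≤ T ∧
      ‖P - P₀ n - ⟪e n, P - P₀ n⟫ • e n‖ ≤ √(m n) * R} with hK
    set G : Set E := {P | |⟪e n, P - P₀ n⟫| < T ∧
      ‖P - P₀ n - ⟪e n, P - P₀ n⟫ • e n‖ < √(m n) * R} with hG
    have hc1 : Continuous fun P : E => |⟪e n, P - P₀ n⟫| := by fun_prop
    have hc2 : Continuous fun P : E => ‖P - P₀ n - ⟪e n, P - P₀ n⟫ • e n‖ := by fun_prop
    have hP₀n : ‖P₀ n‖ ≤ |z₀| + ‖x‖ := by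
      simp only [hP₀, chart]
      refine (norm_add_le _ _).trans (add_le_add ?_ ?_)
      · rw [norm_smul, hen, mul_one, Real.norm_eq_abs]
      · rw [norm_smul, Real.norm_of_nonneg hs.le]
        have h1 := C2.perp_le x hen.le
        have h2 := norm_nonneg (x - ⟪e n, x⟫ • e n)
        nlinarith
    have hKb : ∀ P ∈ K, ‖P - P₀ n‖ ≤ T + R := by
      intro P hP
      calc ‖P - P₀ n‖ = ‖(P - P₀ n - ⟪e n, P - P₀ n⟫ • e n) + ⟪e n, P - P₀ n⟫ • e n‖ := by
            congr 1; abel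
        _ ≤ ‖P - P₀ n - ⟪e n, P - P₀ n⟫ • e n‖ + ‖⟪e n, P - P₀ n⟫ • e n‖ := norm_add_le _ _
        _ ≤ √(m n) * R + T := by
          refine add_le_add hP.2 ?_
          rw [norm_smul, hen, mul_one, Real.norm_eq_abs]
          exact hP.1
        _ ≤ T + R := by nlinarith
    have hKS : K ⊆ closedBall 0 ((n : ℝ) + 2) := by
      intro P hP
      rw [mem_closedBall_zero_iff]
      calc ‖P‖ = ‖P₀ n + (P - P₀ n)‖ := by congr 1; abel
        _ ≤ ‖P₀ n‖ + ‖P - P₀ n‖ := norm_add_le _ _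
        _ ≤ (n : ℝ) + 2 := by linarith [hKb P hP]
    have hKc : IsCompact K := by
      refine (isCompact_closedBall (0 : E) ((n : ℝ) + 2)).of_isClosed_subset ?_ hKS
      exact (isClosed_le hc1 continuous_const).inter (isClosed_le hc2 continuous_const)
    have hGo : IsOpen G :=
      (isOpen_lt hc1 continuous_const).inter (isOpen_lt hc2 continuous_const)
    have hGK : G ⊆ K := fun P hP => ⟨hP.1.le, hP.2.le⟩
    have hPK : P₀ n ∈ K := by
      refine ⟨?_, ?_⟩
      · rw [sub_self, inner_zero_right, abs_zero]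
        exact hT.le
      · rw [sub_self, inner_zero_right, zero_smul, sub_zero, norm_zero]
        positivity
    have hcomp := h.up n K G hKc hGo hGK hKS (P₀ n) hPK (1 + m n * κ) hbn
      (fun P hP hPG => hg P hP.1 hP.2 hPG)
    have hQ : chart (e n) (m n) a (z₀ + t) - P₀ n = t • e n + √(m n) • π := by
      simp only [hP₀]
      rw [chart_sub, add_sub_cancel_left]
    have hQe : ⟪e n, chart (e n) (m n) a (z₀ + t) - P₀ n⟫ = t := by
      rw [hQ, inner_add_right, inner_smul_right, inner_smul_right, hπ0,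
        real_inner_self_eq_norm_sq, hen]
      ring
    have hQK : chart (e n) (m n) a (z₀ + t) ∈ K := by
      refine ⟨?_, ?_⟩
      · rw [hQe, abs_of_pos ht]
        exact htT
      · rw [hQe, hQ]
        have h1 : t • e n + √(m n) • π - t • e n = √(m n) • π := by abel
        rw [h1, norm_smul, Real.norm_of_nonneg hs.le]
        exact mul_le_mul_of_nonneg_left (hπn.trans hRa) hs.le
    have hfin := hcomp _ hQK
    rw [hQ, norm_split hen hπ0 hmn.le, eval_chart (u n) (e n) hmn a (z₀ + t)] at hfin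
    simp only [hP₀] at hfin
    rw [eval_chart (u n) (e n) hmn x z₀] at hfin
    set q := √(t ^ 2 + m n * ‖π‖ ^ 2) with hq
    have hq2 : q ^ 2 = t ^ 2 + m n * ‖π‖ ^ 2 := Real.sq_sqrt (by positivity)
    have hqt : t ≤ q := Real.le_sqrt_of_sq_le (by
      have : 0 ≤ m n * ‖π‖ ^ 2 := by positivity
      linarith)
    have h1 : q - t ≤ m n * (‖a - x‖ ^ 2 / (2 * t)) := by
      rw [mul_div_assoc', le_div_iff₀ (by positivity)]
      have h2 : (q - t) * (2 * t) ≤ (q - t) * (q + t) :=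
        mul_le_mul_of_nonneg_left (by linarith) (by linarith)
      have h3 : (q - t) * (q + t) = m n * ‖π‖ ^ 2 := by linarith [hq2, sq (q - t)]
      have h4 : ‖π‖ ^ 2 ≤ ‖a - x‖ ^ 2 := pow_le_pow_left₀ (norm_nonneg _) hπn 2
      have h5 : m n * ‖π‖ ^ 2 ≤ m n * ‖a - x‖ ^ 2 := mul_le_mul_of_nonneg_left h4 hmn.le
      linarith
    have h2 : m n * (blow (u n) (e n) (m n) a (z₀ + t) - blow (u n) (e n) (m n) x z₀) ≤
        m n * (‖a - x‖ ^ 2 / (2 * t) + κ * q) := by
      linarith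
    exact le_of_mul_le_mul_left h2 hmn
  have hL : Tendsto (fun n => blow (u n) (e n) (m n) a (z₀ + t) -
      blow (u n) (e n) (m n) x z₀) l (𝓝 (V a (z₀ + t) - V x z₀)) :=
    (hconv _ _ _ _ tendsto_const_nhds tendsto_const_nhds).sub
      (hconv _ _ _ _ tendsto_const_nhds tendsto_const_nhds)
  have hRt : Tendsto (fun n => ‖a - x‖ ^ 2 / (2 * t) +
      κ * √(t ^ 2 + m n * ‖(a - x) - ⟪e n, a - x⟫ • e n‖ ^ 2)) l
      (𝓝 (‖a - x‖ ^ 2 / (2 * t) + κ * t)) := by
    have h1 : Tendsto (fun n => m n * ‖(a - x) - ⟪e n, a - x⟫ • e n‖ ^ 2) l (𝓝 0) := by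
      have h2 : Tendsto (fun n => m n * ‖a - x‖ ^ 2) l (𝓝 (0 * ‖a - x‖ ^ 2)) :=
        hm0.mul_const _
      rw [zero_mul] at h2
      refine squeeze_zero (fun n => mul_nonneg (h.m_pos n).le (sq_nonneg _)) (fun n => ?_) h2
      exact mul_le_mul_of_nonneg_left (pow_le_pow_left₀ (norm_nonneg _)
        (C2.perp_le _ (h.e_norm n).le) 2) (h.m_pos n).le
    have h2 := ((h1.const_add (t ^ 2)).sqrt.const_mul κ).const_add (‖a - x‖ ^ 2 / (2 * t))
    rwa [add_zero, Real.sqrt_sq ht.le] at h2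
  have := le_of_tendsto_of_tendsto hL hRt hfin
  linarith

/-- comparison with parabolic cones for the limit: if on the top slice `z₀ + T` the limit lies
below the parabola of slope `κ`, then also at all intermediate times. -/
theorem BSeq.parabolic {u : ℕ → E → ℝ} {m : ℕ → ℝ} {e : ℕ → E} (h : BSeq u m e)
    (l : Ultrafilter ℕ) (hl : (l : Filter ℕ) ≤ atTop) {V : E → ℝ → ℝ} (hV : Flt 8 V)
    (hconv : CConv l (fun n => blow (u n) (e n) (m n)) V) {x : E} {z₀ T κ : ℝ} (hT : 0 < T)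
    (htop : ∀ w : E, V w (z₀ + T) ≤ V x z₀ + κ * T + ‖w - x‖ ^ 2 / (2 * T)) (a : E) {t : ℝ}
    (ht : 0 < t) (htT : t ≤ T) :
    V a (z₀ + t) ≤ V x z₀ + κ * t + ‖a - x‖ ^ 2 / (2 * t) := by
  refine le_of_forall_pos_le_add fun ε hε => ?_
  have h1 := h.par_aux l hl hV hconv hT (κ := κ + ε / T) (x := x) (z₀ := z₀) (fun w => by
    have h2 := htop w
    have h3 : (κ + ε / T) * T = κ * T + ε := by
      field_simp
    rw [h3]
    linarith) a ht htT
  have h2 : ε / T * t ≤ ε := by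
    rw [div_mul_eq_mul_div, div_le_iff₀ hT]
    exact mul_le_mul_of_nonneg_left htT hε.le
  linarith

theorem Flt.continuous_slice {K : ℝ} (hK : 0 < K) {V : E → ℝ → ℝ} (hV : Flt K V) (z : ℝ) :
    Continuous fun w => V w z := by
  rw [Metric.continuous_iff]
  intro w ε hε
  obtain ⟨v, s, hv⟩ := hV w z (ε / (4 * K)) (by positivity)
  refine ⟨min (ε / (4 * K)) (ε / (4 * (‖v‖ + 1))), lt_min (by positivity) (by positivity),
    fun y hy => ?_⟩
  rw [dist_eq_norm] at hy ⊢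
  have h1 : ‖y - w‖ ≤ ε / (4 * K) := (hy.trans_le (min_le_left _ _)).le
  have h2 : ‖y - w‖ ≤ ε / (4 * (‖v‖ + 1)) := (hy.trans_le (min_le_right _ _)).le
  have h3 := hv y z (by rw [sub_self, abs_zero]; positivity)
    (by rw [sub_self, zero_smul, sub_zero]; exact h1)
  rw [sub_self, mul_zero, sub_zero] at h3
  have h4 : K * (ε / (4 * K)) = ε / 4 := by
    field_simp
  rw [h4] at h3
  have h5 : |⟪v, y - w⟫| ≤ ε / 4 := by
    refine (abs_real_inner_le_norm _ _).trans ?_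
    have h6 : ‖v‖ * ‖y - w‖ ≤ (‖v‖ + 1) * (ε / (4 * (‖v‖ + 1))) :=
      mul_le_mul (by linarith) h2 (norm_nonneg _) (by positivity)
    refine h6.trans (le_of_eq ?_)
    field_simp
  rw [Real.norm_eq_abs]
  calc |V y z - V w z| = |(V y z - V w z - ⟪v, y - w⟫) + ⟪v, y - w⟫| := by congr 1; ring
    _ ≤ |V y z - V w z - ⟪v, y - w⟫| + |⟪v, y - w⟫| := abs_add_le _ _
    _ < ε := by linarith

/-- (C+) for the limit -/
theorem BSeq.up_limit {u : ℕ → E → ℝ} {m : ℕ → ℝ} {e : ℕ → E} (h : BSeq u m e)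
    (l : Ultrafilter ℕ) (hl : (l : Filter ℕ) ≤ atTop) {V : E → ℝ → ℝ} (hV : Flt 8 V)
    (hconv : CConv l (fun n => blow (u n) (e n) (m n)) V) (x a : E) {z t lam : ℝ} (ht : 0 < t)
    (hlam : 0 < lam) (hlam1 : lam ≤ 1) :
    ∃ w : E, V a (z + t) - ‖a - x‖ ^ 2 / (2 * t)
      ≤ (1 - lam) * V x z + lam * (V w (z + t / lam) - ‖w - x‖ ^ 2 / (2 * (t / lam))) := by
  set T := t / lam with hT
  have hT0 : 0 < T := by positivity
  have htT : t ≤ T := by
    rw [hT, le_div_iff₀ hlam]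
    nlinarith
  have hlT : lam * T = t := by
    rw [hT]
    field_simp
  set g : E → ℝ := fun w => V w (z + T) - ‖w - x‖ ^ 2 / (2 * T) with hg
  have hgc : Continuous g := by
    refine (hV.continuous_slice (by norm_num) _).sub ?_
    fun_prop
  obtain ⟨C, hC, hgr⟩ := hV.growth (by norm_num) x z (ε := 1 / (8 * T)) (by positivity)
  obtain ⟨w, hw⟩ := hgc.exists_forall_ge' x (by
    set R := 1 + 4 * T * (V x z - g x + C + T) + |4 * T * (V x z - g x + C + T)| with hR
    filter_upwards [(isCompact_closedBall x R).compl_mem_cocompact] with y hy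
    rw [mem_compl_iff, mem_closedBall, dist_eq_norm, not_le] at hy
    have h1 := (abs_le.1 (hgr y (z + T))).2
    rw [add_sub_cancel_left, abs_of_pos hT0] at h1
    have h2 : (T + ‖y - x‖) ^ 2 ≤ 2 * T ^ 2 + 2 * ‖y - x‖ ^ 2 := by
      nlinarith [sq_nonneg (T - ‖y - x‖)]
    have h3 : 1 / (8 * T) * (T + ‖y - x‖) ^ 2 ≤ T / 4 + ‖y - x‖ ^ 2 / (4 * T) := by
      calc 1 / (8 * T) * (T + ‖y - x‖) ^ 2 ≤ 1 / (8 * T) * (2 * T ^ 2 + 2 * ‖y - x‖ ^ 2) :=
            mul_le_mul_of_nonneg_left h2 (by positivity)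
        _ = T / 4 + ‖y - x‖ ^ 2 / (4 * T) := by
          field_simp
          ring
    have h4 : ‖y - x‖ ^ 2 / (2 * T) = 2 * (‖y - x‖ ^ 2 / (4 * T)) := by
      field_simp
      ring
    have hyR : 1 ≤ ‖y - x‖ := by
      have := neg_abs_le (4 * T * (V x z - g x + C + T))
      linarith
    have hyR' : 4 * T * (V x z - g x + C + T) ≤ ‖y - x‖ := by
      have := abs_nonneg (4 * T * (V x z - g x + C + T))
      linarith
    have h5 : V x z - g x + C + T ≤ ‖y - x‖ ^ 2 / (4 * T) := by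
      rw [le_div_iff₀ (by positivity)]
      nlinarith
    simp only [hg] at h5 ⊢
    linarith)
  refine ⟨w, ?_⟩
  have hkap : g w = V x z + (g w - V x z) / T * T := by
    field_simp
    ring
  have h1 := h.parabolic l hl hV hconv (x := x) (z₀ := z) (κ := (g w - V x z) / T) hT0 (fun w' => by
    have h2 := hw w'
    rw [← sub_le_iff_le_add, ← hkap]
    exact h2) a ht htT
  have h2 : (g w - V x z) / T * t = lam * (g w - V x z) := by
    rw [← hlT]
    field_simp
  rw [h2] at h1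
  have h3 : g w = V w (z + T) - ‖w - x‖ ^ 2 / (2 * T) := rfl
  rw [← h3]
  linarith

theorem BSeq.mcls {u : ℕ → E → ℝ} {m : ℕ → ℝ} {e : ℕ → E} (h : BSeq u m e)
    (l : Ultrafilter ℕ) (hl : (l : Filter ℕ) ≤ atTop) {V : E → ℝ → ℝ} (hV : Flt 8 V)
    (hconv : CConv l (fun n => blow (u n) (e n) (m n)) V) : MCls 8 V := by
  have hVr : Flt 8 (refl V) := by
    intro x z r hr
    obtain ⟨v, s, hv⟩ := hV x (-z) r hr
    refine ⟨-v, s, fun y z' h1 h2 => ?_⟩
    have h3 : |(-z') - (-z)| ≤ r := by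
      rw [show (-z') - (-z) = -(z' - z) by ring, abs_neg]; exact h1
    have h4 : ‖y - x - ((-z') - (-z)) • v‖ ≤ r := by
      have : y - x - ((-z') - (-z)) • v = y - x - (z' - z) • (-v) := by
        rw [smul_neg]; module
      rw [this]; exact h2
    have h5 := hv y (-z') h3 h4
    have e : Vale.Agent.P080.refl V y z' - Vale.Agent.P080.refl V x z - ⟪-v, y - x⟫
        - s * (z' - z) = -(V y (-z') - V x (-z) - ⟪v, y - x⟫ - s * ((-z') - (-z))) := by
      simp only [Vale.Agent.P080.refl, inner_neg_left]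
      ring
    rw [e, abs_neg]
    exact h5
  have hcr : CConv l (fun n => blow (fun y => -u n y) (-e n) (m n)) (refl V) := by
    intro y z y₀ z₀ hy hz
    have h1 := (hconv y (fun n => -z n) y₀ (-z₀) hy hz.neg).neg
    simp only [blow_neg]
    exact h1
  refine ⟨hV, fun x a z t lam ht hl0 hl1 => h.up_limit l hl hV hconv x a ht hl0 hl1, ?_⟩
  intro x a z t lam ht hl0 hl1
  obtain ⟨w, hw⟩ := h.neg.up_limit l hl hVr hcr x a (z := -z) ht hl0 hl1
  refine ⟨w, ?_⟩
  simp only [Vale.Agent.P080.refl, neg_add, neg_neg] at hw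
  have e1 : z + -t = z - t := by ring
  have e2 : z + -(t / lam) = z - t / lam := by ring
  rw [e1, e2] at hw
  linarith

end Vale.Agent.P080
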