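import Vale.Agent.P080M.Gamma

/-! Module DCP: steps (16), (17). -/

open Metric Set Filter Topology
open scoped RealInnerProductSpace

namespace Vale.Agent.P080M

variable {E : Type*} [NormedAddCommGroup E] [InnerProductSpace ℝ E] [FiniteDimensional ℝ E]

/-- (16) existence of a maximizer -/
theorem MCls.exists_max {K : ℝ} (hK : 1 ≤ K) {W : E → ℝ → ℝ} (hW : MCls K W) {n : ℕ} (α : Wt n)
    {δ μ t : ℝ} (hδ : 0 < δ) (hμ : 0 < μ) (ht : 0 < t) (za : ℝ) (xc : E) :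
    ∃ a : Fin n → E, (∀ b, Tfun W α δ za μ xc t b ≤ Tfun W α δ za μ xc t a) ∧
      Dfun W α δ za μ xc t = Tfun W α δ za μ xc t a := sorry

theorem MCls.Tfun_le_Dfun {K : ℝ} (hK : 1 ≤ K) {W : E → ℝ → ℝ} (hW : MCls K W) {n : ℕ} (α : Wt n)
    {δ μ t : ℝ} (hδ : 0 < δ) (hμ : 0 < μ) (ht : 0 < t) (za : ℝ) (xc : E) (a : Fin n → E) :
    Tfun W α δ za μ xc t a ≤ Dfun W α δ za μ xc t := sorry

/-- first order condition -/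
theorem MCls.first_order {K : ℝ} (hK : 1 ≤ K) {W : E → ℝ → ℝ} (hW : MCls K W) {n : ℕ} (α : Wt n)
    {δ μ t : ℝ} (hδ : 0 < δ) (hμ : 0 < μ) (ht : 0 < t) {za : ℝ} {xc : E} {a a' : Fin n → E}
    (hmax : ∀ b, Tfun W α δ za μ xc t b ≤ Tfun W α δ za μ xc t a)
    (ha' : ∀ i, IsArgP δ W (a i) (za + t) (a' i)) {c : E}
    (hc : IsArgM δ W (α.bar a) (za + t) c) :
    (α.bar a' - α.bar a) + (c - α.bar a) = (δ * μ) • (α.bar a - xc) := sorry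

/-- (16) discrete convexity -/
theorem MCls.dcp {K : ℝ} (hK : 1 ≤ K) {W : E → ℝ → ℝ} (hW : MCls K W) {n : ℕ} (α : Wt n)
    {δ μ t : ℝ} (hδ : 0 < δ) (hμ : 0 < μ) (hμδ : 2 * μ * δ ≤ 1) (ht : δ < t) {za : ℝ} {xc : E}
    {a : Fin n → E} (hmax : ∀ b, Tfun W α δ za μ xc t b ≤ Tfun W α δ za μ xc t a) {c : E}
    (hc : IsArgM δ W (α.bar a) (za + t) c) :
    2 * Dfun W α δ za μ xc t ≤ Dfun W α δ za μ xc (t + δ) + Dfun W α δ za μ xc (t - δ)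
      + 3 * δ * μ ^ 2 * ‖α.bar a - xc‖ ^ 2 + 3 * μ * ‖c - α.bar a‖ ^ 2 := sorry

/-- (17) -/
theorem MCls.D_le {K : ℝ} (hK : 1 ≤ K) {W : E → ℝ → ℝ} (hW : MCls K W) {c₀ : ℝ}
    (hc₀ : GamBd c₀ W) {n : ℕ} (α : Wt n)
    {δ μ t U₀ : ℝ} (hδ : 0 < δ) (hμ : 0 < μ) (ht : 0 < t) {za : ℝ} {xc : E}
    (hU : ∀ x : E, δ * (tau W x (za + t) δ + sig W x (za + t) δ) ≤ U₀ + μ * ‖x - xc‖ ^ 2 / 4)
    {a : Fin n → E} (hmax : ∀ b, Tfun W α δ za μ xc t b ≤ Tfun W α δ za μ xc t a) :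
    Dfun W α δ za μ xc t + μ * ‖α.bar a - xc‖ ^ 2 / 4 ≤ c₀ * (t + δ) + U₀ := sorry

end Vale.Agent.P080M
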