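import Mathlib

/-!
# The class `MCls` of limits of infinity-harmonic functions in natural coordinates

See `notes/P080_helper72_proof.md` (steps (1)-(33)).
-/

open Metric Set Filter Topology
open scoped RealInnerProductSpace

namespace Vale.Agent.P080M

variable {E : Type*} [NormedAddCommGroup E] [InnerProductSpace ℝ E]

/-- `(v, s)` is `ρ`-adapted to `W` at `(x, z)` with constant `K`. -/
def Adapted (K : ℝ) (W : E → ℝ → ℝ) (x : E) (z ρ : ℝ) (v : E) (s : ℝ) : Prop :=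
  ∀ (y : E) (z' : ℝ), |z' - z| ≤ ρ → ‖y - x - (z' - z) • v‖ ≤ ρ →
    |W y z' - W x z - ⟪v, y - x⟫ - s * (z' - z)| ≤ K * ρ

/-- The Galilean invariant `f = s + |v|^2/2`. -/
noncomputable def ff (v : E) (s : ℝ) : ℝ := s + ‖v‖ ^ 2 / 2

/-- Property (C+). -/
def Up (W : E → ℝ → ℝ) : Prop :=
  ∀ (x a : E) (z t lam : ℝ), 0 < t → 0 < lam → lam ≤ 1 → ∃ w : E,
    W a (z + t) - ‖a - x‖ ^ 2 / (2 * t) ≤
      (1 - lam) * W x z + lam * (W w (z + t / lam) - ‖w - x‖ ^ 2 / (2 * (t / lam)))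

/-- Reflection. -/
def refl (W : E → ℝ → ℝ) : E → ℝ → ℝ := fun y z => -W y (-z)

structure MCls (K : ℝ) (W : E → ℝ → ℝ) : Prop where
  flat : ∀ (x : E) (z ρ : ℝ), 0 < ρ → ∃ (v : E) (s : ℝ), Adapted K W x z ρ v s
  up : Up W
  dn : Up (refl W)

/-- Forward Hopf-Lax operator. -/
noncomputable def Qp (t : ℝ) (W : E → ℝ → ℝ) (x : E) (z : ℝ) : ℝ :=
  ⨆ a : E, (W a (z + t) - ‖a - x‖ ^ 2 / (2 * t))

/-- Backward Hopf-Lax operator: `Qm t W x z = inf_a (W a (z - t) + |a - x|^2/(2t))`. -/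
noncomputable def Qm (t : ℝ) (W : E → ℝ → ℝ) (x : E) (z : ℝ) : ℝ := -Qp t (refl W) x (-z)

/-- `a` is a maximizer in the definition of `Qp t W x z`. -/
def IsArgP (t : ℝ) (W : E → ℝ → ℝ) (x : E) (z : ℝ) (a : E) : Prop :=
  Qp t W x z = W a (z + t) - ‖a - x‖ ^ 2 / (2 * t)

/-- `c` is a minimizer in the definition of `Qm t W x z`. -/
def IsArgM (t : ℝ) (W : E → ℝ → ℝ) (x : E) (z : ℝ) (c : E) : Prop :=
  Qm t W x z = W c (z - t) + ‖c - x‖ ^ 2 / (2 * t)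

noncomputable def tau (W : E → ℝ → ℝ) (x : E) (z t : ℝ) : ℝ := (Qp t W x z - W x z) / t

noncomputable def sig (W : E → ℝ → ℝ) (x : E) (z t : ℝ) : ℝ := (W x z - Qm t W x z) / t

/-- Normalization: translate to `(x₀, z₀)`, rescale by `ρ`, remove the affine part `(v, s)` by a
Galilean change of frame. -/
noncomputable def nrm (W : E → ℝ → ℝ) (x₀ : E) (z₀ ρ : ℝ) (v : E) (s : ℝ) : E → ℝ → ℝ :=
  fun y z => (W (x₀ + ρ • y + (ρ * z) • v) (z₀ + ρ * z) - W x₀ z₀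
    - ⟪v, ρ • y + (ρ * z) • v⟫ - s * (ρ * z)) / ρ

/-- The closing excess. -/
noncomputable def Gam (θ : ℝ) (W : E → ℝ → ℝ) (x : E) (z : ℝ) : ℝ :=
  (⨅ a : E, (Qp θ W a (z - θ) + ‖a - x‖ ^ 2 / (2 * θ))) - W x z

/-- finite weights -/
structure Wt (n : ℕ) where
  w : Fin n → ℝ
  pos : ∀ i, 0 < w i
  sum : ∑ i, w i = 1

/-- barycentre -/
noncomputable def Wt.bar {n : ℕ} (α : Wt n) (a : Fin n → E) : E := ∑ i, α.w i • a i

/-- variance -/
noncomputable def Wt.var {n : ℕ} (α : Wt n) (a : Fin n → E) : ℝ :=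
  ∑ i, α.w i * ‖a i - α.bar a‖ ^ 2

/-- mean of a real function -/
noncomputable def Wt.avg {n : ℕ} (α : Wt n) (g : Fin n → ℝ) : ℝ := ∑ i, α.w i * g i

/-- `C` bounds the closing excess for `W`: `Γ_θ ≤ C θ`, in weak-duality form. -/
def GamBd (C : ℝ) (W : E → ℝ → ℝ) : Prop :=
  ∀ (n : ℕ) (α : Wt n) (a : Fin n → E) (z θ : ℝ), 0 < θ →
    α.avg (fun i => W (a i) z) - W (α.bar a) z - α.var a / (2 * θ) ≤ C * θ

/-- The penalized functional of step (16). -/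
noncomputable def Tfun (W : E → ℝ → ℝ) {n : ℕ} (α : Wt n) (δ za μ : ℝ) (xc : E) (t : ℝ)
    (a : Fin n → E) : ℝ :=
  α.avg (fun i => Qp δ W (a i) (za + t)) - Qm δ W (α.bar a) (za + t) - α.var a / (2 * t)
    - μ * ‖α.bar a - xc‖ ^ 2 / 2

noncomputable def Dfun (W : E → ℝ → ℝ) {n : ℕ} (α : Wt n) (δ za μ : ℝ) (xc : E) (t : ℝ) : ℝ :=
  ⨆ a : Fin n → E, Tfun W α δ za μ xc t a

end Vale.Agent.P080M
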