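import Vale.Agent.P080M.Gamma

/-! Module RIGID: steps (22), (23). -/

open Metric Set Filter Topology
open scoped RealInnerProductSpace

namespace Vale.Agent.P080M

/-- (22) -/
theorem MCls.rigid {E : Type*} [NormedAddCommGroup E] [InnerProductSpace ℝ E]
    [FiniteDimensional ℝ E] {K : ℝ} (hK : 1 ≤ K) {W : E → ℝ → ℝ} (hW : MCls K W) {x : E}
    {z κ κ' : ℝ} (h1 : ∀ t : ℝ, 0 < t → tau W x z t = κ) (h2 : ∀ t : ℝ, 0 < t → sig W x z t = κ') :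
    ∃ (v : E) (s : ℝ), ∀ (y : E) (z' : ℝ), W y z' = W 0 0 + ⟪v, y⟫ + s * z' := sorry

theorem Gam_affine {E : Type*} [NormedAddCommGroup E] [InnerProductSpace ℝ E]
    [FiniteDimensional ℝ E] {K : ℝ} (hK : 1 ≤ K) {W : E → ℝ → ℝ} (hW : MCls K W) {v : E} {s : ℝ}
    (h : ∀ (y : E) (z' : ℝ), W y z' = W 0 0 + ⟪v, y⟫ + s * z') {θ : ℝ} (hθ : 0 < θ) (x : E)
    (z : ℝ) : Gam θ W x z = 0 := sorry

/-- (23) -/
theorem drop (E : Type*) [NormedAddCommGroup E] [InnerProductSpace ℝ E]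
    [FiniteDimensional ℝ E] (K : ℝ) (hK : 1 ≤ K) {b M₀ : ℝ} (hb : 0 < b) (hM₀ : 0 < M₀) :
    ∃ M κ : ℝ, 1 < M ∧ 0 < κ ∧
    ∀ (W : E → ℝ → ℝ), MCls K W → ∀ (x y : E) (z z' ρ : ℝ) (v : E) (s : ℝ), 0 < ρ →
      Adapted K W x z ρ v s → |z' - z| ≤ M₀ * ρ → ‖y - x - (z' - z) • v‖ ≤ M₀ * ρ →
      b * ρ ≤ Gam ρ W y z' →
      κ ≤ (tau W x z (M * ρ) - tau W x z (ρ / M)) + (sig W x z (M * ρ) - sig W x z (ρ / M)) :=
  sorry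

end Vale.Agent.P080M
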