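import Vale.Agent.P080M.Persist
import Vale.Agent.P080M.Rigid

/-! Module FINAL: steps (24), (25): Theorem B. -/

open Metric Set Filter Topology
open scoped RealInnerProductSpace

namespace Vale.Agent.P080M

/-- (24) -/
theorem extremal_zero {E : Type*} [NormedAddCommGroup E] [InnerProductSpace ℝ E]
    [FiniteDimensional ℝ E] {K : ℝ} (hK : 1 ≤ K) {c : ℝ} (hc : 0 ≤ c)
    (hbd : ∀ W : E → ℝ → ℝ, MCls K W → GamBd c W)
    (hbd' : ∀ W : E → ℝ → ℝ, MCls K W → ∀ x z θ, 0 < θ → Gam θ W x z ≤ c * θ)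
    {W : E → ℝ → ℝ} (hW : MCls K W) (h0 : W 0 0 = 0) (hA : Adapted K W 0 0 1 0 0)
    (hex : Gam 1 W 0 0 = c) : c = 0 := sorry

/-- (25) -/
theorem affine_of_zero {E : Type*} [NormedAddCommGroup E] [InnerProductSpace ℝ E]
    [FiniteDimensional ℝ E] {K : ℝ} (hK : 1 ≤ K) {W : E → ℝ → ℝ} (hW : MCls K W)
    (h1 : GamBd 0 W) (h2 : GamBd 0 (refl W)) :
    ∃ (v : E) (s : ℝ), ∀ (y : E) (z' : ℝ), W y z' = W 0 0 + ⟪v, y⟫ + s * z' := sorry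

/-- Theorem B -/
theorem MCls.affine {E : Type*} [NormedAddCommGroup E] [InnerProductSpace ℝ E]
    [FiniteDimensional ℝ E] {K : ℝ} (hK : 1 ≤ K) {W : E → ℝ → ℝ} (hW : MCls K W) :
    ∃ (v : E) (s : ℝ), ∀ (y : E) (z' : ℝ), W y z' = W 0 0 + ⟪v, y⟫ + s * z' := by
  obtain ⟨c, hc0, hc1, hc2, W₁, hW₁, h0, hA, hex⟩ := exists_extremal E K hK ⟨W, hW⟩
  have hc : c = 0 := extremal_zero hK hc0 hc1 hc2 hW₁ h0 hA hex
  subst hc
  exact affine_of_zero hK hW (hc1 W hW) (hc1 _ hW.refl)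

end Vale.Agent.P080M
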