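import Vale.Agent.P080M.Ops

/-! Module FRAME: step (19). -/

open Metric Set Filter Topology
open scoped RealInnerProductSpace

namespace Vale.Agent.P080M

variable {E : Type*} [NormedAddCommGroup E] [InnerProductSpace ℝ E] [FiniteDimensional ℝ E]

/-- (19): bounds at all points and scales in a frame normalized at the origin at scale `S`. -/
theorem frame (E : Type*) [NormedAddCommGroup E] [InnerProductSpace ℝ E] [FiniteDimensional ℝ E]
    (K : ℝ) (hK : 1 ≤ K) : ∃ C : ℝ, 1 ≤ C ∧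
    ∀ (W : E → ℝ → ℝ), MCls K W → ∀ S : ℝ, 0 < S → Adapted K W 0 0 S 0 0 →
      ∀ (x : E) (z δ : ℝ), |z| ≤ 4 * S → 0 < δ → δ ≤ S →
        (∀ (v : E) (s : ℝ), Adapted K W x z δ v s →
          ‖v‖ ≤ C * (1 + Real.log (S / δ) + Real.log (1 + ‖x‖ / S))) ∧
        tau W x z δ ≤ C * (1 + Real.log (1 + ‖x‖ / S)) ∧
        sig W x z δ ≤ C * (1 + Real.log (1 + ‖x‖ / S)) ∧
        -(C * (1 + Real.log (S / δ) + Real.log (1 + ‖x‖ / S))) ≤ tau W x z δ ∧
        -(C * (1 + Real.log (S / δ) + Real.log (1 + ‖x‖ / S))) ≤ sig W x z δ ∧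
        (∀ a : E, IsArgP δ W x z a →
          ‖a - x‖ ≤ C * δ * (1 + Real.log (S / δ) + Real.log (1 + ‖x‖ / S))) ∧
        (∀ c : E, IsArgM δ W x z c →
          ‖c - x‖ ≤ C * δ * (1 + Real.log (S / δ) + Real.log (1 + ‖x‖ / S))) := sorry

end Vale.Agent.P080M
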