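import Vale.Agent.P080M.Ops

/-! Module NORM: invariance under translation, scaling, Galilean change of frame. -/

open Metric Set Filter Topology
open scoped RealInnerProductSpace

namespace Vale.Agent.P080M

variable {E : Type*} [NormedAddCommGroup E] [InnerProductSpace ℝ E]

theorem MCls.nrm {K : ℝ} {W : E → ℝ → ℝ} (hW : MCls K W) (x₀ : E) (z₀ : ℝ) {ρ : ℝ} (hρ : 0 < ρ)
    (v : E) (s : ℝ) : MCls K (P080M.nrm W x₀ z₀ ρ v s) := sorry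

/-- adapted data of the normalization -/
theorem adapted_nrm {K : ℝ} {W : E → ℝ → ℝ} {x₀ : E} {z₀ ρ : ℝ} (hρ : 0 < ρ) {v : E} {s : ℝ}
    {y : E} {z r : ℝ} {v' : E} {s' : ℝ} :
    Adapted K (nrm W x₀ z₀ ρ v s) y z r v' s' ↔
      Adapted K W (x₀ + ρ • y + (ρ * z) • v) (z₀ + ρ * z) (ρ * r) (v + v')
        (s + s' - ⟪v, v'⟫) := sorry

theorem ff_add (v v' : E) (s s' : ℝ) : ff (v + v') (s + s' - ⟪v, v'⟫) = ff v s + ff v' s' := sorry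

theorem adapted_nrm_zero {K : ℝ} {W : E → ℝ → ℝ} {x₀ : E} {z₀ ρ : ℝ} (hρ : 0 < ρ) {v : E} {s : ℝ}
    (h : Adapted K W x₀ z₀ ρ v s) : Adapted K (nrm W x₀ z₀ ρ v s) 0 0 1 0 0 := sorry

theorem nrm_zero (W : E → ℝ → ℝ) (x₀ : E) (z₀ ρ : ℝ) (v : E) (s : ℝ) :
    nrm W x₀ z₀ ρ v s 0 0 = 0 := sorry

theorem tau_nrm {K : ℝ} (hK : 1 ≤ K) {W : E → ℝ → ℝ} (hW : MCls K W) (x₀ : E) (z₀ : ℝ) {ρ : ℝ}
    (hρ : 0 < ρ) (v : E) (s : ℝ) {t : ℝ} (ht : 0 < t) (y : E) (z : ℝ) :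
    tau (nrm W x₀ z₀ ρ v s) y z t =
      tau W (x₀ + ρ • y + (ρ * z) • v) (z₀ + ρ * z) (ρ * t) - ff v s := sorry

theorem sig_nrm {K : ℝ} (hK : 1 ≤ K) {W : E → ℝ → ℝ} (hW : MCls K W) (x₀ : E) (z₀ : ℝ) {ρ : ℝ}
    (hρ : 0 < ρ) (v : E) (s : ℝ) {t : ℝ} (ht : 0 < t) (y : E) (z : ℝ) :
    sig (nrm W x₀ z₀ ρ v s) y z t =
      sig W (x₀ + ρ • y + (ρ * z) • v) (z₀ + ρ * z) (ρ * t) - ff v s := sorry

theorem Gam_nrm {K : ℝ} (hK : 1 ≤ K) {W : E → ℝ → ℝ} (hW : MCls K W) (x₀ : E) (z₀ : ℝ) {ρ : ℝ}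
    (hρ : 0 < ρ) (v : E) (s : ℝ) {θ : ℝ} (hθ : 0 < θ) (y : E) (z : ℝ) :
    Gam θ (nrm W x₀ z₀ ρ v s) y z =
      Gam (ρ * θ) W (x₀ + ρ • y + (ρ * z) • v) (z₀ + ρ * z) / ρ := sorry

end Vale.Agent.P080M
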