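import Vale.Agent.P080M.Slopes
import Vale.Agent.P080M.Norm

/-! Module GAMMA: steps (11)-(15). -/

open Metric Set Filter Topology
open scoped RealInnerProductSpace

namespace Vale.Agent.P080M

variable {E : Type*} [NormedAddCommGroup E] [InnerProductSpace ℝ E]

theorem Wt.avg_const {n : ℕ} (α : Wt n) (c : ℝ) : α.avg (fun _ => c) = c := sorry

theorem Wt.avg_mono {n : ℕ} (α : Wt n) {f g : Fin n → ℝ} (h : ∀ i, f i ≤ g i) :
    α.avg f ≤ α.avg g := sorry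

theorem Wt.avg_add {n : ℕ} (α : Wt n) (f g : Fin n → ℝ) :
    α.avg (fun i => f i + g i) = α.avg f + α.avg g := sorry

theorem Wt.avg_sub {n : ℕ} (α : Wt n) (f g : Fin n → ℝ) :
    α.avg (fun i => f i - g i) = α.avg f - α.avg g := sorry

theorem Wt.avg_mul {n : ℕ} (α : Wt n) (c : ℝ) (f : Fin n → ℝ) :
    α.avg (fun i => c * f i) = c * α.avg f := sorry

theorem Wt.bar_add {n : ℕ} (α : Wt n) (a b : Fin n → E) :
    α.bar (fun i => a i + b i) = α.bar a + α.bar b := sorry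

theorem Wt.bar_smul {n : ℕ} (α : Wt n) (c : ℝ) (a : Fin n → E) :
    α.bar (fun i => c • a i) = c • α.bar a := sorry

theorem Wt.bar_const {n : ℕ} (α : Wt n) (x : E) : α.bar (fun _ => x) = x := sorry

theorem Wt.var_nonneg {n : ℕ} (α : Wt n) (a : Fin n → E) : 0 ≤ α.var a := sorry

/-- parallel axis theorem -/
theorem Wt.avg_norm_sq {n : ℕ} (α : Wt n) (a : Fin n → E) (p : E) :
    α.avg (fun i => ‖a i - p‖ ^ 2) = α.var a + ‖α.bar a - p‖ ^ 2 := sorry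

/-- Cauchy-Schwarz in the form `|Y + Z|²/(s+t) ≤ |Y|²/s + |Z|²/t`. -/
theorem Wt.var_add_le {n : ℕ} (α : Wt n) (a b : Fin n → E) {s t : ℝ} (hs : 0 < s) (ht : 0 < t) :
    α.var b / (s + t) ≤ α.var a / s + α.var (fun i => b i - a i) / t := sorry

/-- (11) weak duality -/
theorem MCls.weak_duality [FiniteDimensional ℝ E] {K : ℝ} (hK : 1 ≤ K) {W : E → ℝ → ℝ}
    (hW : MCls K W) {θ : ℝ} (hθ : 0 < θ) {n : ℕ} (α : Wt n) (a : Fin n → E) (z : ℝ) :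
    α.avg (fun i => W (a i) z) - W (α.bar a) z - α.var a / (2 * θ) ≤ Gam θ W (α.bar a) z := sorry

/-- (12) strong duality, with locations -/
theorem MCls.strong_duality [FiniteDimensional ℝ E] (K : ℝ) (hK : 1 ≤ K) : ∃ C : ℝ, 0 < C ∧
    ∀ (W : E → ℝ → ℝ), MCls K W → ∀ (x : E) (z θ : ℝ) (v : E) (s : ℝ), 0 < θ →
      Adapted K W x z θ v s →
      ∃ (n : ℕ) (α : Wt n) (a : Fin n → E) (x' : E), α.bar a = x ∧
        (∀ i, IsArgP θ W x' (z - θ) (a i)) ∧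
        Gam θ W x z = α.avg (fun i => W (a i) z) - W x z - α.var a / (2 * θ) ∧
        ‖x' - (x - θ • v)‖ ≤ C * θ ∧ (∀ i, ‖a i - x‖ ≤ C * θ) ∧
        ff v s - C ≤ tau W x' (z - θ) θ := sorry

/-- (13) the extremal constant and an extremal function -/
theorem exists_extremal (E : Type*) [NormedAddCommGroup E] [InnerProductSpace ℝ E]
    [FiniteDimensional ℝ E] (K : ℝ) (hK : 1 ≤ K) (hne : ∃ W : E → ℝ → ℝ, MCls K W) :
    ∃ c : ℝ, 0 ≤ c ∧ (∀ W : E → ℝ → ℝ, MCls K W → GamBd c W) ∧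
      (∀ W : E → ℝ → ℝ, MCls K W → ∀ x z θ, 0 < θ → Gam θ W x z ≤ c * θ) ∧
      ∃ W : E → ℝ → ℝ, MCls K W ∧ W 0 0 = 0 ∧ Adapted K W 0 0 1 0 0 ∧ Gam 1 W 0 0 = c := sorry

/-- (14) -/
theorem MCls.upper14 [FiniteDimensional ℝ E] {K : ℝ} (hK : 1 ≤ K) {W : E → ℝ → ℝ}
    (hW : MCls K W) {c : ℝ} (hc : GamBd c W) {t δ : ℝ} (ht : 0 < t) (hδ : 0 < δ) {n : ℕ}
    (α : Wt n) (a : Fin n → E) (z : ℝ) :
    α.avg (fun i => Qp δ W (a i) z) - α.var a / (2 * t) ≤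
      Qp δ W (α.bar a) z + c * (t + δ) := sorry

/-- (14') -/
theorem MCls.lower14 [FiniteDimensional ℝ E] {K : ℝ} (hK : 1 ≤ K) {W : E → ℝ → ℝ}
    (hW : MCls K W) {t δ : ℝ} (ht : 0 < t) (hδ : 0 < δ) {n : ℕ}
    (α : Wt n) (a a' : Fin n → E) (z : ℝ) (ha : ∀ i, IsArgP δ W (a i) z (a' i)) :
    α.avg (fun i => Qp δ W (a i) z) - α.var a / (2 * t) - Qp δ W (α.bar a) z ≤
      Gam (t + δ) W (α.bar a') (z + δ) := sorry

/-- (15) -/
theorem MCls.G2 [FiniteDimensional ℝ E] {K : ℝ} (hK : 1 ≤ K) {W : E → ℝ → ℝ}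
    (hW : MCls K W) {c : ℝ} (hc : GamBd c W) {θ : ℝ} (hθ : 0 < θ) {n : ℕ} (α : Wt n)
    (a : Fin n → E) {z : ℝ} {x' : E} (ha : ∀ i, IsArgP θ W x' (z - θ) (a i))
    (hex : α.avg (fun i => W (a i) z) - W (α.bar a) z - α.var a / (2 * θ) = c * θ)
    {t : ℝ} (ht : 0 < t) :
    tau W x' (z - θ) θ - c ≤ tau W (α.bar a) z t ∧
      tau W x' (z - θ) θ - c ≤ sig W (α.bar a) z t ∧
      ∀ i, tau W x' (z - θ) θ ≤ tau W (a i) z t := sorry

end Vale.Agent.P080M
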