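import Vale.Agent.P080M.Ops

/-! Module LIM: step (6) and compactness of the class. -/

open Metric Set Filter Topology
open scoped RealInnerProductSpace

namespace Vale.Agent.P080M

variable {E : Type*} [NormedAddCommGroup E] [InnerProductSpace ℝ E]

/-- continuous convergence along an ultrafilter -/
def CConv (l : Ultrafilter ℕ) (W : ℕ → E → ℝ → ℝ) (V : E → ℝ → ℝ) : Prop :=
  ∀ (y : ℕ → E) (z : ℕ → ℝ) (y₀ : E) (z₀ : ℝ), Tendsto y l (𝓝 y₀) → Tendsto z l (𝓝 z₀) →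
    Tendsto (fun n => W n (y n) (z n)) l (𝓝 (V y₀ z₀))

theorem CConv.refl {l : Ultrafilter ℕ} {W : ℕ → E → ℝ → ℝ} {V : E → ℝ → ℝ} (h : CConv l W V) :
    CConv l (fun n => P080M.refl (W n)) (P080M.refl V) := sorry

theorem CConv.Qp [FiniteDimensional ℝ E] {K : ℝ} (hK : 1 ≤ K) {l : Ultrafilter ℕ}
    {W : ℕ → E → ℝ → ℝ} {V : E → ℝ → ℝ} (hW : ∀ n, MCls K (W n)) (hV : MCls K V)
    (h : CConv l W V) {t : ℝ} (ht : 0 < t) :
    CConv l (fun n => P080M.Qp t (W n)) (P080M.Qp t V) := sorry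

theorem CConv.tau [FiniteDimensional ℝ E] {K : ℝ} (hK : 1 ≤ K) {l : Ultrafilter ℕ}
    {W : ℕ → E → ℝ → ℝ} {V : E → ℝ → ℝ} (hW : ∀ n, MCls K (W n)) (hV : MCls K V)
    (h : CConv l W V) {t : ℝ} (ht : 0 < t) :
    CConv l (fun n x z => P080M.tau (W n) x z t) (fun x z => P080M.tau V x z t) := sorry

theorem CConv.sig [FiniteDimensional ℝ E] {K : ℝ} (hK : 1 ≤ K) {l : Ultrafilter ℕ}
    {W : ℕ → E → ℝ → ℝ} {V : E → ℝ → ℝ} (hW : ∀ n, MCls K (W n)) (hV : MCls K V)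
    (h : CConv l W V) {t : ℝ} (ht : 0 < t) :
    CConv l (fun n x z => P080M.sig (W n) x z t) (fun x z => P080M.sig V x z t) := sorry

theorem CConv.Gam [FiniteDimensional ℝ E] {K : ℝ} (hK : 1 ≤ K) {l : Ultrafilter ℕ}
    {W : ℕ → E → ℝ → ℝ} {V : E → ℝ → ℝ} (hW : ∀ n, MCls K (W n)) (hV : MCls K V)
    (h : CConv l W V) {θ : ℝ} (hθ : 0 < θ) :
    CConv l (fun n => P080M.Gam θ (W n)) (P080M.Gam θ V) := sorry

/-- joint continuity of `tau` (a special case of `CConv.tau`) -/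
theorem MCls.tau_continuous [FiniteDimensional ℝ E] {K : ℝ} (hK : 1 ≤ K) {W : E → ℝ → ℝ}
    (hW : MCls K W) {t : ℝ} (ht : 0 < t) : Continuous fun p : E × ℝ => P080M.tau W p.1 p.2 t := sorry

theorem MCls.sig_continuous [FiniteDimensional ℝ E] {K : ℝ} (hK : 1 ≤ K) {W : E → ℝ → ℝ}
    (hW : MCls K W) {t : ℝ} (ht : 0 < t) : Continuous fun p : E × ℝ => P080M.sig W p.1 p.2 t := sorry

/-- compactness of the normalized class -/
theorem MCls.compact [FiniteDimensional ℝ E] {K : ℝ} (hK : 1 ≤ K) (l : Ultrafilter ℕ)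
    {W : ℕ → E → ℝ → ℝ} (hW : ∀ n, MCls K (W n)) (h0 : ∀ n, W n 0 0 = 0)
    (hA : ∀ n, Adapted K (W n) 0 0 1 0 0) :
    ∃ V : E → ℝ → ℝ, MCls K V ∧ V 0 0 = 0 ∧ Adapted K V 0 0 1 0 0 ∧ CConv l W V := sorry

end Vale.Agent.P080M
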