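import Vale.Agent.P080M.Adapt

/-! Module OPS: steps (5), (7)-(10) of the notes. -/

open Metric Set Filter Topology
open scoped RealInnerProductSpace

namespace Vale.Agent.P080M

variable {E : Type*} [NormedAddCommGroup E] [InnerProductSpace ℝ E]

theorem refl_refl (W : E → ℝ → ℝ) : refl (refl W) = W := sorry

/-- Adapted data of the reflection: `(v, s)` becomes `(-v, s)`. -/
theorem Adapted.refl {K : ℝ} {W : E → ℝ → ℝ} {x : E} {z ρ : ℝ} {v : E} {s : ℝ}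
    (h : Adapted K W x z ρ v s) : Adapted K (P080M.refl W) x (-z) ρ (-v) s := sorry

theorem MCls.refl {K : ℝ} {W : E → ℝ → ℝ} (hW : MCls K W) : MCls K (P080M.refl W) := sorry

theorem ff_neg (v : E) (s : ℝ) : ff (-v) s = ff v s := sorry

theorem tau_refl (W : E → ℝ → ℝ) (x : E) (z t : ℝ) : tau (refl W) x (-z) t = sig W x z t := sorry

theorem sig_refl (W : E → ℝ → ℝ) (x : E) (z t : ℝ) : sig (refl W) x (-z) t = tau W x z t := sorry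

theorem isArgM_iff (W : E → ℝ → ℝ) (x c : E) (z t : ℝ) :
    IsArgM t W x z c ↔ IsArgP t (refl W) x (-z) c := sorry

theorem MCls.bddP {K : ℝ} (hK : 1 ≤ K) {W : E → ℝ → ℝ} (hW : MCls K W) {t : ℝ} (ht : 0 < t)
    (x : E) (z : ℝ) : BddAbove (range fun a : E => W a (z + t) - ‖a - x‖ ^ 2 / (2 * t)) := sorry

theorem MCls.le_Qp {K : ℝ} (hK : 1 ≤ K) {W : E → ℝ → ℝ} (hW : MCls K W) {t : ℝ} (ht : 0 < t)
    (x a : E) (z : ℝ) : W a (z + t) - ‖a - x‖ ^ 2 / (2 * t) ≤ Qp t W x z := sorry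

theorem MCls.Qm_le {K : ℝ} (hK : 1 ≤ K) {W : E → ℝ → ℝ} (hW : MCls K W) {t : ℝ} (ht : 0 < t)
    (x a : E) (z : ℝ) : Qm t W x z ≤ W a (z - t) + ‖a - x‖ ^ 2 / (2 * t) := sorry

/-- (5), localisation (no maximality needed) -/
theorem MCls.arg_loc (K : ℝ) (hK : 1 ≤ K) (C₀ : ℝ) : ∃ C : ℝ, 0 < C ∧
    ∀ (W : E → ℝ → ℝ), MCls K W → ∀ (x a : E) (z t : ℝ) (v : E) (s : ℝ), 0 < t →
      Adapted K W x z t v s →
      W x z + (ff v s - C₀) * t ≤ W a (z + t) - ‖a - x‖ ^ 2 / (2 * t) →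
      ‖a - x - t • v‖ ≤ C * t := sorry

theorem MCls.continuous [FiniteDimensional ℝ E] {K : ℝ} (hK : 1 ≤ K) {W : E → ℝ → ℝ}
    (hW : MCls K W) : Continuous fun p : E × ℝ => W p.1 p.2 := sorry

theorem MCls.exists_argP [FiniteDimensional ℝ E] {K : ℝ} (hK : 1 ≤ K) {W : E → ℝ → ℝ}
    (hW : MCls K W) {t : ℝ} (ht : 0 < t) (x : E) (z : ℝ) : ∃ a, IsArgP t W x z a := sorry

theorem MCls.exists_argM [FiniteDimensional ℝ E] {K : ℝ} (hK : 1 ≤ K) {W : E → ℝ → ℝ}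
    (hW : MCls K W) {t : ℝ} (ht : 0 < t) (x : E) (z : ℝ) : ∃ a, IsArgM t W x z a := sorry

/-- (5), bounds for `tau` and `sig` -/
theorem MCls.tau_bounds (K : ℝ) (hK : 1 ≤ K) : ∃ C : ℝ, 0 < C ∧
    ∀ (W : E → ℝ → ℝ), MCls K W → ∀ (x : E) (z t : ℝ) (v : E) (s : ℝ), 0 < t →
      Adapted K W x z t v s → |tau W x z t - ff v s| ≤ C ∧ |sig W x z t - ff v s| ≤ C := sorry

/-- (5), maximizers are close to the characteristic -/
theorem MCls.argP_loc (K : ℝ) (hK : 1 ≤ K) : ∃ C : ℝ, 0 < C ∧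
    ∀ (W : E → ℝ → ℝ), MCls K W → ∀ (x a : E) (z t : ℝ) (v : E) (s : ℝ), 0 < t →
      Adapted K W x z t v s → IsArgP t W x z a → ‖a - x - t • v‖ ≤ C * t := sorry

theorem MCls.argM_loc (K : ℝ) (hK : 1 ≤ K) : ∃ C : ℝ, 0 < C ∧
    ∀ (W : E → ℝ → ℝ), MCls K W → ∀ (x c : E) (z t : ℝ) (v : E) (s : ℝ), 0 < t →
      Adapted K W x z t v s → IsArgM t W x z c → ‖c - x + t • v‖ ≤ C * t := sorry

/-- (7) -/
theorem MCls.tau_mono [FiniteDimensional ℝ E] {K : ℝ} (hK : 1 ≤ K) {W : E → ℝ → ℝ}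
    (hW : MCls K W) {t t' : ℝ} (ht : 0 < t) (htt : t ≤ t') (x : E) (z : ℝ) :
    tau W x z t ≤ tau W x z t' := sorry

theorem MCls.sig_mono [FiniteDimensional ℝ E] {K : ℝ} (hK : 1 ≤ K) {W : E → ℝ → ℝ}
    (hW : MCls K W) {t t' : ℝ} (ht : 0 < t) (htt : t ≤ t') (x : E) (z : ℝ) :
    sig W x z t ≤ sig W x z t' := sorry

end Vale.Agent.P080M
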