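import Mathlib

/-! Module SEQ: step (18), almost concave sequences. -/

namespace Vale.Agent.P080M

theorem almost_concave {G : ℕ → ℝ} {K₁ K₂ : ℕ} (hK : K₁ < K₂) {β e g₁ g₂ : ℝ} (hβ : 0 ≤ β)
    (he : 0 ≤ e)
    (h : ∀ k, K₁ < k → k < K₂ → G (k + 1) + G (k - 1) ≤ (2 + β) * G k + e)
    (hg₁ : 0 ≤ g₁) (hg₂ : 0 ≤ g₂) (h₁ : g₁ ≤ G K₁) (h₂ : g₂ ≤ G K₂) (k : ℕ) (hk₁ : K₁ ≤ k)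
    (hk₂ : k ≤ K₂) :
    (g₁ * ((K₂ : ℝ) - k) + g₂ * ((k : ℝ) - K₁)) / ((K₂ : ℝ) - K₁)
      - (β * max g₁ g₂ + e) / 2 * (((k : ℝ) - K₁) * ((K₂ : ℝ) - k)) ≤ G k := sorry

end Vale.Agent.P080M
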