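import Vale.Agent.P080M.Dcp
import Vale.Agent.P080M.Seq
import Vale.Agent.P080M.Frame

/-! Module PERSIST: steps (20), (21). -/

open Metric Set Filter Topology
open scoped RealInnerProductSpace

namespace Vale.Agent.P080M

/-- (20) one doubling step. -/
theorem double_step (E : Type*) [NormedAddCommGroup E] [InnerProductSpace ℝ E]
    [FiniteDimensional ℝ E] (K : ℝ) (hK : 1 ≤ K) : ∃ C : ℝ, 1 ≤ C ∧
    ∀ (W : E → ℝ → ℝ), MCls K W → ∀ (S θ R Λ b : ℝ) (x₀ : E) (z₀ : ℝ), 0 < θ → 2 * θ ≤ S → 1 ≤ Λ →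
      Adapted K W 0 0 S 0 0 → |z₀| ≤ 2 * S → ‖x₀‖ ≤ Λ * S → C * θ ≤ R → R ≤ Λ * S →
      b * θ ≤ Gam θ W x₀ z₀ →
      ∃ x' : E, ‖x' - x₀‖ ≤ C * (1 + Real.log Λ) * R ∧
        (b - C * (θ / R) * (1 + Real.log (S / θ) + Real.log Λ) ^ 2) * (2 * θ)
          ≤ Gam (2 * θ) W x' (z₀ + θ) := sorry

/-- (21) persistence of non-flatness towards larger scales. -/
theorem persist (E : Type*) [NormedAddCommGroup E] [InnerProductSpace ℝ E]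
    [FiniteDimensional ℝ E] (K : ℝ) (hK : 1 ≤ K) {b : ℝ} (hb : 0 < b) : ∃ C : ℝ, 1 ≤ C ∧
    ∀ (W : E → ℝ → ℝ), MCls K W → ∀ (x : E) (z θ : ℝ), 0 < θ → b * θ ≤ Gam θ W x z →
      ∀ (k : ℕ) (v : E) (s : ℝ), Adapted K W x z (2 ^ k * θ) v s →
        ∃ y : E, ‖y - x - (2 ^ k * θ - θ) • v‖ ≤ C * (2 ^ k * θ) ∧
          b / 2 * (2 ^ k * θ) ≤ Gam (2 ^ k * θ) W y (z + (2 ^ k * θ - θ)) := sorry

end Vale.Agent.P080M
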