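import Vale.Agent.P080M.Lim

/-! Module SLOPES: steps (8), (9), (10). -/

open Metric Set Filter Topology
open scoped RealInnerProductSpace

namespace Vale.Agent.P080M

variable {E : Type*} [NormedAddCommGroup E] [InnerProductSpace ℝ E] [FiniteDimensional ℝ E]

/-- (8) -/
theorem MCls.G1 {K : ℝ} (hK : 1 ≤ K) {W : E → ℝ → ℝ} (hW : MCls K W) {t r : ℝ} (ht : 0 < t)
    (hr : 0 < r) {x a : E} {z : ℝ} (ha : IsArgP t W x z a) :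
    tau W x z t ≤ tau W a (z + t) r := sorry

/-- (8), reflected -/
theorem MCls.G1' {K : ℝ} (hK : 1 ≤ K) {W : E → ℝ → ℝ} (hW : MCls K W) {t r : ℝ} (ht : 0 < t)
    (hr : 0 < r) {x c : E} {z : ℝ} (hc : IsArgM t W x z c) :
    sig W x z t ≤ sig W c (z - t) r := sorry

/-- (9) -/
theorem MCls.G3 {K : ℝ} (hK : 1 ≤ K) {W : E → ℝ → ℝ} (hW : MCls K W) {κ t : ℝ} (ht : 0 < t)
    {x : E} {z : ℝ} (h : ∀ r : ℝ, 0 < r → κ ≤ tau W x z r) : κ ≤ sig W x z t := sorry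

/-- (9), reflected -/
theorem MCls.G3' {K : ℝ} (hK : 1 ≤ K) {W : E → ℝ → ℝ} (hW : MCls K W) {κ t : ℝ} (ht : 0 < t)
    {x : E} {z : ℝ} (h : ∀ r : ℝ, 0 < r → κ ≤ sig W x z r) : κ ≤ tau W x z t := sorry

/-- (10) -/
theorem MCls.dstepP {K : ℝ} (hK : 1 ≤ K) {W : E → ℝ → ℝ} (hW : MCls K W) {δ : ℝ} (hδ : 0 < δ)
    {a a' b : E} {z : ℝ} (ha : IsArgP δ W a z a') (hb : IsArgP δ W a' (z + δ) b) :
    2 * Qp δ W a z ≤ W a z + W b (z + 2 * δ) - ‖b - a‖ ^ 2 / (4 * δ)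
      - ‖b - (2 : ℝ) • a' + a‖ ^ 2 / (4 * δ) := sorry

/-- (10), reflected -/
theorem MCls.dstepM {K : ℝ} (hK : 1 ≤ K) {W : E → ℝ → ℝ} (hW : MCls K W) {δ : ℝ} (hδ : 0 < δ)
    {x c e : E} {z : ℝ} (hc : IsArgM δ W x z c) (he : IsArgM δ W c (z - δ) e) :
    W x z + W e (z - 2 * δ) + ‖e - x‖ ^ 2 / (4 * δ) + ‖e - (2 : ℝ) • c + x‖ ^ 2 / (4 * δ) ≤
      2 * Qm δ W x z := sorry

end Vale.Agent.P080M
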